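import Vale.Agent.P233.MathlibUsed2

/-! # P233, block C3b: Lipschitz modification of a flow, and localisation of integrated
(in)equalities to almost every curve (pure measure theory) -/

open MeasureTheory Filter Topology Set
open scoped ENNReal

namespace Vale.Agent.P233.H416

section Dense

variable {Y : Type*} [MeasurableSpace Y] {μ : Measure Y}

/-- An integrable function whose integrals over the sets of a measure-dense family are `≤ 0`
is `≤ 0` almost everywhere. -/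
theorem ae_nonpos_of_measureDense {𝒜 : Set (Set Y)} (h𝒜 : μ.MeasureDense 𝒜) {f : Y → ℝ}
    (hf : Integrable f μ) (h : ∀ A ∈ 𝒜, ∫ y in A, f y ∂μ ≤ 0) : ∀ᵐ y ∂μ, f y ≤ 0 := by
  have key : ∀ A, MeasurableSet A → μ A < ∞ → ∫ y in A, f y ∂μ ≤ 0 := by
    intro A hA hμ
    have hε : ∀ n : ℕ, (0 : ℝ) < 1 / ((n : ℝ) + 1) := fun n => by positivity
    choose t ht using fun n : ℕ => h𝒜.approx A hA hμ.ne (1 / ((n : ℝ) + 1)) (hε n)
    have htm : ∀ n, MeasurableSet (t n) := fun n => h𝒜.measurable _ (ht n).1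
    have hlim : Tendsto (fun n : ℕ => ENNReal.ofReal (1 / ((n : ℝ) + 1))) atTop (𝓝 0) := by
      have := ENNReal.tendsto_ofReal (tendsto_one_div_add_atTop_nhds_zero_nat (𝕜 := ℝ))
      simpa using this
    have h1 : Tendsto (fun n => μ (A \ t n)) atTop (𝓝 0) := by
      refine tendsto_of_tendsto_of_tendsto_of_le_of_le tendsto_const_nhds hlim (fun _ => bot_le)
        fun n => ?_
      exact (measure_mono (fun x hx => Or.inl hx)).trans (ht n).2.le
    have h2 : Tendsto (fun n => μ (t n \ A)) atTop (𝓝 0) := by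
      refine tendsto_of_tendsto_of_tendsto_of_le_of_le tendsto_const_nhds hlim (fun _ => bot_le)
        fun n => ?_
      exact (measure_mono (fun x hx => Or.inr hx)).trans (ht n).2.le
    have h3 := hf.tendsto_setIntegral_nhds_zero h1
    have h4 := hf.tendsto_setIntegral_nhds_zero h2
    have h5 : ∀ n, ∫ y in A, f y ∂μ ≤ ∫ y in A \ t n, f y ∂μ - ∫ y in t n \ A, f y ∂μ := by
      intro n
      have e1 : ∫ y in A, f y ∂μ = ∫ y in A ∩ t n, f y ∂μ + ∫ y in A \ t n, f y ∂μ :=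
        (integral_inter_add_sdiff (htm n) hf.integrableOn).symm
      have e2 : ∫ y in t n, f y ∂μ = ∫ y in t n ∩ A, f y ∂μ + ∫ y in t n \ A, f y ∂μ :=
        (integral_inter_add_sdiff hA hf.integrableOn).symm
      have e3 := h _ (ht n).1
      rw [inter_comm] at e2
      linarith
    have h6 : Tendsto (fun n => ∫ y in A \ t n, f y ∂μ - ∫ y in t n \ A, f y ∂μ) atTop (𝓝 (0 - 0)) :=
      h3.sub h4
    rw [sub_zero] at h6
    exact ge_of_tendsto' h6 h5
  have := ae_nonneg_of_forall_setIntegral_nonneg hf.neg (fun s hs hμ => by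
    have := key s hs hμ
    simp only [Pi.neg_apply]
    rw [integral_neg]
    linarith)
  filter_upwards [this] with y hy
  simpa using hy

end Dense

section Local

variable {Y : Type*} [MeasurableSpace Y] {μ : Measure Y} [SFinite μ]

/-- the defect `f t y - f s y - ∫_s^t g r y dr` -/
noncomputable def dft (f g : ℝ → Y → ℝ) (s t : ℝ) (y : Y) : ℝ :=
  f t y - f s y - ∫ r in Ioc s t, g r y

theorem measurable_dft {f g : ℝ → Y → ℝ} (hf : Measurable (Function.uncurry f))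
    (hg : Measurable (Function.uncurry g)) :
    Measurable (fun q : ℝ × (ℝ × Y) => dft f g q.1 q.2.1 q.2.2) := by
  have h1 : Measurable (fun q : ℝ × (ℝ × Y) => f q.2.1 q.2.2) := hf.comp (by fun_prop :
    Measurable (fun q : ℝ × (ℝ × Y) => (q.2.1, q.2.2)))
  have h2 : Measurable (fun q : ℝ × (ℝ × Y) => f q.1 q.2.2) := hf.comp (by fun_prop :
    Measurable (fun q : ℝ × (ℝ × Y) => (q.1, q.2.2)))
  have h3 : Measurable (fun q : ℝ × (ℝ × Y) => ∫ r in Ioc q.1 q.2.1, g r q.2.2) := by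
    let S : Set ((ℝ × (ℝ × Y)) × ℝ) := {z | z.1.1 < z.2} ∩ {z | z.2 ≤ z.1.2.1}
    have hS : MeasurableSet S := by
      refine MeasurableSet.inter ?_ ?_
      · exact measurableSet_lt (measurable_fst.comp measurable_fst) measurable_snd
      · exact measurableSet_le measurable_snd
          (measurable_fst.comp (measurable_snd.comp measurable_fst))
    have hG : Measurable (fun z : (ℝ × (ℝ × Y)) × ℝ => g z.2 z.1.2.2) :=
      hg.comp (measurable_snd.prodMk (measurable_snd.comp (measurable_snd.comp measurable_fst)))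
    have hF : Measurable (S.indicator (fun z => g z.2 z.1.2.2)) := hG.indicator hS
    have h4 := (hF.stronglyMeasurable.integral_prod_right' (ν := (volume : Measure ℝ))).measurable
    have h5 : (fun q : ℝ × (ℝ × Y) => ∫ r in Ioc q.1 q.2.1, g r q.2.2)
        = fun x => ∫ y, S.indicator (fun z => g z.2 z.1.2.2) (x, y) := by
      funext q
      rw [← integral_indicator measurableSet_Ioc]
      congr 1
    rw [h5]
    exact h4
  exact (h1.sub h2).sub h3

/-- LOCALISATION, inequality version: an integrated inequality against all weights of a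
measure-dense countable family holds along almost every curve. -/
theorem localise_le {a b : ℝ} {𝒜 : Set (Set Y)} (h𝒜c : 𝒜.Countable) (h𝒜 : μ.MeasureDense 𝒜)
    {f g : ℝ → Y → ℝ} (hfm : Measurable (Function.uncurry f)) (hgm : Measurable (Function.uncurry g))
    (hf : ∀ᵐ t ∂(volume.restrict (Ioo a b)), Integrable (f t) μ)
    (hg : Integrable (Function.uncurry g) ((volume.restrict (Ioo a b)).prod μ))
    (h : ∀ A ∈ 𝒜, ∀ᵐ s ∂(volume.restrict (Ioo a b)), ∀ᵐ t ∂(volume.restrict (Ioo a b)), s < t →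
      ∫ y in A, f t y ∂μ - ∫ y in A, f s y ∂μ ≤ ∫ r in Ioc s t, ∫ y in A, g r y ∂μ) :
    ∀ᵐ y ∂μ, ∀ᵐ s ∂(volume.restrict (Ioo a b)), ∀ᵐ t ∂(volume.restrict (Ioo a b)), s < t →
      f t y - f s y ≤ ∫ r in Ioc s t, g r y := by
  set ν : Measure ℝ := volume.restrict (Ioo a b) with hν
  have hall : ∀ᵐ s ∂ν, ∀ A ∈ 𝒜, ∀ᵐ t ∂ν, s < t →
      ∫ y in A, f t y ∂μ - ∫ y in A, f s y ∂μ ≤ ∫ r in Ioc s t, ∫ y in A, g r y ∂μ :=
    (ae_ball_iff h𝒜c).2 h
  have hmem : ∀ᵐ s ∂ν, s ∈ Ioo a b := ae_restrict_mem measurableSet_Ioo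
  have key : ∀ᵐ s ∂ν, ∀ᵐ t ∂ν, ∀ᵐ y ∂μ, s < t → dft f g s t y ≤ 0 := by
    filter_upwards [hall, hf, hmem] with s hs hfs hsI
    have hs' : ∀ᵐ t ∂ν, ∀ A ∈ 𝒜, s < t →
        ∫ y in A, f t y ∂μ - ∫ y in A, f s y ∂μ ≤ ∫ r in Ioc s t, ∫ y in A, g r y ∂μ :=
      (ae_ball_iff h𝒜c).2 hs
    filter_upwards [hs', hf, hmem] with t ht hft htI
    by_cases hst : s < t
    swap
    · exact Eventually.of_forall fun y hy => absurd hy hst
    have hsub : Ioc s t ⊆ Ioo a b := fun r hr => ⟨hsI.1.trans hr.1, hr.2.trans_lt htI.2⟩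
    have hgst : Integrable (Function.uncurry g) ((volume.restrict (Ioc s t)).prod μ) :=
      hg.mono_measure (Measure.prod_mono (Measure.restrict_mono hsub le_rfl) le_rfl)
    have hgi : Integrable (fun y => ∫ r in Ioc s t, g r y) μ := hgst.integral_prod_right
    have hdi : Integrable (dft f g s t) μ := (hft.sub hfs).sub hgi
    have := ae_nonpos_of_measureDense h𝒜 hdi (fun A hA => by
      have h1 := ht A hA hst
      have hA' := h𝒜.measurable _ hA
      have h2 : ∫ y in A, dft f g s t y ∂μ = ∫ y in A, f t y ∂μ - ∫ y in A, f s y ∂μ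
          - ∫ y in A, (∫ r in Ioc s t, g r y) ∂μ := by
        have e1 := integral_sub (μ := μ.restrict A) (hft.sub hfs).integrableOn hgi.integrableOn
        have e2 := integral_sub (μ := μ.restrict A) hft.integrableOn hfs.integrableOn
        simp only [Pi.sub_apply] at e1
        unfold dft
        rw [e1, e2]
      have h3 : ∫ y in A, (∫ r in Ioc s t, g r y) ∂μ = ∫ r in Ioc s t, (∫ y in A, g r y ∂μ) := by
        symm
        refine integral_integral_swap (f := g) ?_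
        exact hgst.mono_measure (Measure.prod_mono le_rfl Measure.restrict_le_self)
      rw [h2, h3]
      linarith)
    filter_upwards [this] with y hy _
    exact hy
  have hmeas : MeasurableSet {q : ℝ × (ℝ × Y) | q.1 < q.2.1 → dft f g q.1 q.2.1 q.2.2 ≤ 0} := by
    have e : {q : ℝ × (ℝ × Y) | q.1 < q.2.1 → dft f g q.1 q.2.1 q.2.2 ≤ 0}
        = {q : ℝ × (ℝ × Y) | q.1 < q.2.1}ᶜ ∪ {q | dft f g q.1 q.2.1 q.2.2 ≤ 0} := by
      ext q
      simp only [Set.mem_ofPred_eq, mem_union, mem_compl_iff]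
      tauto
    rw [e]
    refine MeasurableSet.union (MeasurableSet.compl ?_) ?_
    · exact measurableSet_lt measurable_fst (measurable_fst.comp measurable_snd)
    · exact measurableSet_le (measurable_dft hfm hgm) measurable_const
  have h2 : ∀ᵐ q ∂(ν.prod (ν.prod μ)), q.1 < q.2.1 → dft f g q.1 q.2.1 q.2.2 ≤ 0 := by
    rw [Measure.ae_prod_iff_ae_ae hmeas]
    filter_upwards [key] with s hs
    have hm : MeasurableSet {z : ℝ × Y | s < z.1 → dft f g s z.1 z.2 ≤ 0} :=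
      hmeas.preimage (measurable_prodMk_left (x := s))
    exact (Measure.ae_prod_iff_ae_ae hm).2 hs
  -- reorder
  have h3 : ∀ᵐ y ∂μ, ∀ᵐ p ∂(ν.prod ν), p.1 < p.2 → dft f g p.1 p.2 y ≤ 0 := by
    have hm' : MeasurableSet {q : Y × (ℝ × ℝ) | q.2.1 < q.2.2 → dft f g q.2.1 q.2.2 q.1 ≤ 0} :=
      hmeas.preimage (by fun_prop : Measurable (fun q : Y × (ℝ × ℝ) => (q.2.1, (q.2.2, q.1))))
    have hm'' : MeasurableSet {q : (ℝ × ℝ) × Y | q.1.1 < q.1.2 → dft f g q.1.1 q.1.2 q.2 ≤ 0} :=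
      hmeas.preimage (by fun_prop : Measurable (fun q : (ℝ × ℝ) × Y => (q.1.1, (q.1.2, q.2))))
    have h4 : ∀ᵐ p ∂(ν.prod ν), ∀ᵐ y ∂μ, p.1 < p.2 → dft f g p.1 p.2 y ≤ 0 := by
      have h5 : ∀ᵐ q ∂((ν.prod ν).prod μ), q.1.1 < q.1.2 → dft f g q.1.1 q.1.2 q.2 ≤ 0 := by
        have e := (measurePreserving_prodAssoc ν ν μ)
        exact e.quasiMeasurePreserving.ae h2
      exact Measure.ae_ae_of_ae_prod h5
    exact (Measure.ae_ae_comm hm'').1 h4
  filter_upwards [h3] with y hy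
  have := Measure.ae_ae_of_ae_prod hy
  filter_upwards [this] with s hs
  filter_upwards [hs] with t ht hst
  have := ht hst
  unfold dft at this
  linarith

/-- LOCALISATION, equality version. -/
theorem localise_eq {a b : ℝ} {𝒜 : Set (Set Y)} (h𝒜c : 𝒜.Countable) (h𝒜 : μ.MeasureDense 𝒜)
    {f g : ℝ → Y → ℝ} (hfm : Measurable (Function.uncurry f)) (hgm : Measurable (Function.uncurry g))
    (hf : ∀ᵐ t ∂(volume.restrict (Ioo a b)), Integrable (f t) μ)
    (hg : Integrable (Function.uncurry g) ((volume.restrict (Ioo a b)).prod μ))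
    (h : ∀ A ∈ 𝒜, ∀ᵐ s ∂(volume.restrict (Ioo a b)), ∀ᵐ t ∂(volume.restrict (Ioo a b)), s < t →
      ∫ y in A, f t y ∂μ - ∫ y in A, f s y ∂μ = ∫ r in Ioc s t, ∫ y in A, g r y ∂μ) :
    ∀ᵐ y ∂μ, ∀ᵐ s ∂(volume.restrict (Ioo a b)), ∀ᵐ t ∂(volume.restrict (Ioo a b)), s < t →
      f t y - f s y = ∫ r in Ioc s t, g r y := by
  have h1 := localise_le h𝒜c h𝒜 hfm hgm hf hg (fun A hA => by
    filter_upwards [h A hA] with s hs
    filter_upwards [hs] with t ht hst
    exact (ht hst).le)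
  have h2 := localise_le (f := fun t y => -f t y) (g := fun t y => -g t y) h𝒜c h𝒜 hfm.neg hgm.neg
    (hf.mono fun t ht => ht.neg) hg.neg (fun A hA => by
    filter_upwards [h A hA] with s hs
    filter_upwards [hs] with t ht hst
    have := ht hst
    simp only [integral_neg]
    linarith)
  filter_upwards [h1, h2] with y hy1 hy2
  filter_upwards [hy1, hy2] with s hs1 hs2
  filter_upwards [hs1, hs2] with t ht1 ht2 hst
  have e1 := ht1 hst
  have e2 := ht2 hst
  simp only [integral_neg] at e2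
  linarith

end Local

section Real

variable {a b : ℝ}

theorem exists_mem_of_ae {P : ℝ → Prop} (h : ∀ᵐ s ∂(volume.restrict (Ioo a b)), P s) {U : Set ℝ}
    (hU : IsOpen U) {x : ℝ} (hx : x ∈ U) (hx' : x ∈ Ioo a b) : ∃ s ∈ U, s ∈ Ioo a b ∧ P s := by
  rw [ae_restrict_iff' measurableSet_Ioo] at h
  have hd := Measure.dense_of_ae h
  obtain ⟨s, hs, hs'⟩ := hd.exists_mem_open (hU.inter isOpen_Ioo) ⟨x, hx, hx'⟩
  exact ⟨s, hs'.1, hs'.2, hs hs'.2⟩

theorem antitoneOn_of_ae {D : ℝ → ℝ} (hD : ContinuousOn D (Ioo a b))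
    (h : ∀ᵐ s ∂(volume.restrict (Ioo a b)), ∀ᵐ t ∂(volume.restrict (Ioo a b)), s < t → D t ≤ D s) :
    AntitoneOn D (Ioo a b) := by
  intro s hs t ht hst
  rcases hst.eq_or_lt with rfl | hst
  · exact le_rfl
  by_contra hcon
  push Not at hcon
  obtain ⟨c, hc1, hc2⟩ := exists_between hcon
  obtain ⟨d, hd1, hd2⟩ := exists_between hst
  have hs1 : {x | D x < c} ∈ 𝓝 s := (hD.continuousAt (isOpen_Ioo.mem_nhds hs)).eventually
    (gt_mem_nhds hc1)
  have ht1 : {x | c < D x} ∈ 𝓝 t := (hD.continuousAt (isOpen_Ioo.mem_nhds ht)).eventually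
    (lt_mem_nhds hc2)
  obtain ⟨U, hU, hUo, hsU⟩ := mem_nhds_iff.1 (inter_mem hs1 (Iio_mem_nhds hd1))
  obtain ⟨V, hV, hVo, htV⟩ := mem_nhds_iff.1 (inter_mem ht1 (Ioi_mem_nhds hd2))
  obtain ⟨s', hs'U, hs'I, hs'⟩ := exists_mem_of_ae h hUo hsU hs
  obtain ⟨t', ht'V, ht'I, ht'⟩ := exists_mem_of_ae hs' hVo htV ht
  have e1 := hU hs'U
  have e2 := hV ht'V
  have e3 := ht' ((e1.2 : s' < d).trans e2.2)
  have e4 : D s' < c := e1.1
  have e5 : c < D t' := e2.1
  linarith

variable {g : ℝ → ℝ}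

theorem ii_of (hg : ∀ s t, a < s → s < t → t < b → IntegrableOn g (Ioc s t)) {s t : ℝ}
    (hs : s ∈ Ioo a b) (ht : t ∈ Ioo a b) : IntervalIntegrable g volume s t := by
  rcases lt_trichotomy s t with h | h | h
  · exact (intervalIntegrable_iff_integrableOn_Ioc_of_le h.le).2 (hg s t hs.1 h ht.2)
  · rw [h]
  · exact ((intervalIntegrable_iff_integrableOn_Ioc_of_le h.le).2 (hg t s ht.1 h hs.2)).symm

theorem continuousOn_prim (hg : ∀ s t, a < s → s < t → t < b → IntegrableOn g (Ioc s t)) {x₀ : ℝ}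
    (hx₀ : x₀ ∈ Ioo a b) : ContinuousOn (fun t => ∫ r in x₀..t, g r) (Ioo a b) := by
  intro t ht
  obtain ⟨c, hc1, hc2⟩ := exists_between (lt_min ht.1 hx₀.1)
  obtain ⟨d, hd1, hd2⟩ := exists_between (max_lt ht.2 hx₀.2)
  have hc : c ∈ Ioo a b := ⟨hc1, (hc2.trans_le (min_le_left _ _)).trans ht.2⟩
  have hd : d ∈ Ioo a b := ⟨ht.1.trans ((le_max_left _ _).trans_lt hd1), hd2⟩
  have h1 := intervalIntegral.continuousOn_primitive_interval' (ii_of hg hc hd) (a := x₀)
    (by rw [uIcc_of_le (((hc2.trans_le (min_le_left _ _)).trans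
          ((le_max_left _ _).trans_lt hd1)).le)]
        exact ⟨(hc2.trans_le (min_le_right _ _)).le, ((le_max_right _ _).trans_lt hd1).le⟩)
  refine ((h1 t ?_).continuousAt ?_).continuousWithinAt
  · rw [uIcc_of_le (((hc2.trans_le (min_le_left _ _)).trans ((le_max_left _ _).trans_lt hd1)).le)]
    exact ⟨(hc2.trans_le (min_le_left _ _)).le, ((le_max_left _ _).trans_lt hd1).le⟩
  · rw [uIcc_of_le (((hc2.trans_le (min_le_left _ _)).trans ((le_max_left _ _).trans_lt hd1)).le)]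
    exact Icc_mem_nhds (hc2.trans_le (min_le_left _ _)) ((le_max_left _ _).trans_lt hd1)

theorem ioc_eq (hg : ∀ s t, a < s → s < t → t < b → IntegrableOn g (Ioc s t)) {x₀ s t : ℝ}
    (hx₀ : x₀ ∈ Ioo a b) (hs : s ∈ Ioo a b) (ht : t ∈ Ioo a b) (hst : s ≤ t) :
    ∫ r in Ioc s t, g r = (∫ r in x₀..t, g r) - ∫ r in x₀..s, g r := by
  rw [intervalIntegral.integral_interval_sub_left (ii_of hg hx₀ ht) (ii_of hg hx₀ hs),
    intervalIntegral.integral_of_le hst]

/-- From almost every pair of times to all pairs of times, for functions continuous on the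
interval. -/
theorem le_of_ae_le {f : ℝ → ℝ} (hf : ContinuousOn f (Ioo a b))
    (hg : ∀ s t, a < s → s < t → t < b → IntegrableOn g (Ioc s t))
    (h : ∀ᵐ s ∂(volume.restrict (Ioo a b)), ∀ᵐ t ∂(volume.restrict (Ioo a b)), s < t →
      f t - f s ≤ ∫ r in Ioc s t, g r) :
    ∀ s t, a < s → s < t → t < b → f t - f s ≤ ∫ r in Ioc s t, g r := by
  intro s t hs hst ht
  have hsI : s ∈ Ioo a b := ⟨hs, hst.trans ht⟩
  have htI : t ∈ Ioo a b := ⟨hs.trans hst, ht⟩
  have hmem : ∀ᵐ s ∂(volume.restrict (Ioo a b)), s ∈ Ioo a b := ae_restrict_mem measurableSet_Ioo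
  have := antitoneOn_of_ae (D := fun x => f x - ∫ r in s..x, g r)
    (hf.sub (continuousOn_prim hg hsI)) (by
      filter_upwards [h, hmem] with x hx hxI
      filter_upwards [hx, hmem] with y hy hyI hxy
      have e1 := hy hxy
      rw [ioc_eq hg hsI hxI hyI hxy.le] at e1
      linarith)
  have e := this hsI htI hst.le
  simp only [intervalIntegral.integral_same] at e
  rw [ioc_eq hg hsI hsI htI hst.le]
  simp only [intervalIntegral.integral_same]
  linarith

/-- The absolutely continuous representative. -/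
theorem exists_rep {f : ℝ → ℝ}
    (hg : ∀ s t, a < s → s < t → t < b → IntegrableOn g (Ioc s t)) (hab : a < b)
    (h : ∀ᵐ s ∂(volume.restrict (Ioo a b)), ∀ᵐ t ∂(volume.restrict (Ioo a b)), s < t →
      f t - f s = ∫ r in Ioc s t, g r) :
    ∃ F : ℝ → ℝ, ContinuousOn F (Ioo a b) ∧ (∀ᵐ t ∂(volume.restrict (Ioo a b)), F t = f t) ∧
      ∀ s t, a < s → s < t → t < b → F t - F s = ∫ r in Ioc s t, g r := by
  obtain ⟨x₀, hx₀⟩ : ∃ x₀, x₀ ∈ Ioo a b := ⟨(a + b) / 2, by constructor <;> linarith⟩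
  have hmem : ∀ᵐ s ∂(volume.restrict (Ioo a b)), s ∈ Ioo a b := ae_restrict_mem measurableSet_Ioo
  set P : ℝ → ℝ := fun t => ∫ r in x₀..t, g r with hP
  have h' : ∀ᵐ s ∂(volume.restrict (Ioo a b)), ∀ᵐ t ∂(volume.restrict (Ioo a b)), s < t →
      f t - P t = f s - P s := by
    filter_upwards [h, hmem] with x hx hxI
    filter_upwards [hx, hmem] with y hy hyI hxy
    have e1 := hy hxy
    rw [ioc_eq hg hx₀ hxI hyI hxy.le] at e1
    simp only [hP]
    linarith
  -- good times decreasing to `a`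
  have hgood : ∀ n : ℕ, ∃ s, s < a + (x₀ - a) / ((n : ℝ) + 1) ∧ s ∈ Ioo a b ∧
      ∀ᵐ t ∂(volume.restrict (Ioo a b)), s < t → f t - P t = f s - P s := by
    intro n
    have hp : 0 < (x₀ - a) / ((n : ℝ) + 1) := div_pos (sub_pos.2 hx₀.1) (by positivity)
    have hle : (x₀ - a) / ((n : ℝ) + 1) ≤ x₀ - a :=
      div_le_self (sub_nonneg.2 hx₀.1.le) (by linarith [n.cast_nonneg (α := ℝ)])
    obtain ⟨s, hs1, hs2, hs3⟩ := exists_mem_of_ae h' (U := Iio (a + (x₀ - a) / ((n : ℝ) + 1)))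
      isOpen_Iio (x := a + (x₀ - a) / ((n : ℝ) + 1) / 2)
      (by simp only [mem_Iio]; linarith) ⟨by linarith, by linarith [hx₀.2]⟩
    exact ⟨s, hs1, hs2, hs3⟩
  choose σ hσ1 hσ2 hσ3 using hgood
  have hconst : ∀ n, f (σ n) - P (σ n) = f (σ 0) - P (σ 0) := by
    intro n
    have hmax : max (σ n) (σ 0) ∈ Ioo a b := by
      rcases max_choice (σ n) (σ 0) with e | e <;> rw [e] <;> exact hσ2 _
    obtain ⟨m', hm1, hm2⟩ := exists_between hmax.2
    obtain ⟨t, ht1, _, ht2, ht3⟩ := exists_mem_of_ae ((hσ3 n).and (hσ3 0))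
      (U := Ioi (max (σ n) (σ 0))) isOpen_Ioi hm1 ⟨hmax.1.trans hm1, hm2⟩
    rw [mem_Ioi, max_lt_iff] at ht1
    rw [← ht2 ht1.1, ← ht3 ht1.2]
  refine ⟨fun t => P t + (f (σ 0) - P (σ 0)), (continuousOn_prim hg hx₀).add continuousOn_const,
    ?_, ?_⟩
  · filter_upwards [ae_all_iff.2 hσ3, hmem] with t ht htI
    obtain ⟨n, hn⟩ : ∃ n : ℕ, (x₀ - a) / (t - a) < (n : ℝ) + 1 := by
      obtain ⟨n, hn⟩ := exists_nat_gt ((x₀ - a) / (t - a))
      exact ⟨n, hn.trans (by linarith)⟩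
    have hta : 0 < t - a := sub_pos.2 htI.1
    have hn1 : (0 : ℝ) < (n : ℝ) + 1 := by positivity
    have h1 : (x₀ - a) / ((n : ℝ) + 1) < t - a := by
      rw [div_lt_iff₀ hta] at hn
      rw [div_lt_iff₀ hn1]
      linarith
    have := ht n (by linarith [hσ1 n])
    rw [hconst n] at this
    linarith
  · intro s t hs hst ht
    have hsI : s ∈ Ioo a b := ⟨hs, hst.trans ht⟩
    have htI : t ∈ Ioo a b := ⟨hs.trans hst, ht⟩
    rw [ioc_eq hg hx₀ hsI htI hst.le]
    ring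

end Real

section LipMod

variable {M : Type*} [MetricSpace M] [CompleteSpace M] [MeasurableSpace M] [BorelSpace M]
  [Nonempty M] {Y : Type*} [MeasurableSpace Y] {μ : Measure Y}

/-- LIPSCHITZ MODIFICATION: a family of measurable maps `Z t`, `t ∈ (a,b)`, with
`d(Z s, Z t) ≤ l |s - t|` almost everywhere for each pair `s, t`, has a jointly measurable version
`X` which is Lipschitz in time along every curve. -/
theorem exists_lipMod {a b : ℝ} (hab : a < b) {Z : ℝ → Y → M} {l : Y → ℝ}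
    (hZ : ∀ t ∈ Ioo a b, AEMeasurable (Z t) μ)
    (h : ∀ s ∈ Ioo a b, ∀ t ∈ Ioo a b, ∀ᵐ y ∂μ, dist (Z s y) (Z t y) ≤ l y * |s - t|) :
    ∃ X : ℝ → Y → M, Measurable (Function.uncurry X) ∧ (∀ t ∈ Ioo a b, ∀ᵐ y ∂μ, X t y = Z t y) ∧
      ∀ᵐ y ∂μ, ∀ s ∈ Ioo a b, ∀ t ∈ Ioo a b, dist (X s y) (X t y) ≤ l y * |s - t| := by
  classical
  obtain ⟨m0⟩ := ‹Nonempty M›
  obtain ⟨x₀, hx₀⟩ : ∃ x₀, x₀ ∈ Ioo a b := ⟨(a + b) / 2, by constructor <;> linarith⟩
  -- measurable representatives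
  have hrep : ∀ x : ℝ, ∃ Z' : Y → M, Measurable Z' ∧ (x ∈ Ioo a b → Z x =ᵐ[μ] Z') := by
    intro x
    by_cases hx : x ∈ Ioo a b
    · exact ⟨(hZ x hx).mk _, (hZ x hx).measurable_mk, fun _ => (hZ x hx).ae_eq_mk⟩
    · exact ⟨fun _ => m0, measurable_const, fun h => absurd h hx⟩
  choose Z' hZ'm hZ'e using hrep
  -- the good set
  have hgood : ∀ᵐ y ∂μ, ∀ p q : ℚ, (p : ℝ) ∈ Ioo a b → (q : ℝ) ∈ Ioo a b →
      dist (Z' p y) (Z' q y) ≤ l y * |(p : ℝ) - q| := by
    rw [ae_all_iff]; intro p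
    rw [ae_all_iff]; intro q
    by_cases hp : (p : ℝ) ∈ Ioo a b
    swap
    · exact Eventually.of_forall fun y h _ => absurd h hp
    by_cases hq : (q : ℝ) ∈ Ioo a b
    swap
    · exact Eventually.of_forall fun y _ h => absurd h hq
    filter_upwards [h p hp q hq, hZ'e p hp, hZ'e q hq] with y h1 h2 h3 _ _
    rw [← h2, ← h3]; exact h1
  obtain ⟨G, hGsub, hGm, hGae⟩ : ∃ G ⊆ {y | ∀ p q : ℚ, (p : ℝ) ∈ Ioo a b → (q : ℝ) ∈ Ioo a b →
      dist (Z' p y) (Z' q y) ≤ l y * |(p : ℝ) - q|}, MeasurableSet G ∧ ∀ᵐ y ∂μ, y ∈ G := by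
    have h0 : μ ({y | ∀ p q : ℚ, (p : ℝ) ∈ Ioo a b → (q : ℝ) ∈ Ioo a b →
      dist (Z' p y) (Z' q y) ≤ l y * |(p : ℝ) - q|}ᶜ) = 0 := hgood
    obtain ⟨N, hN1, hN2, hN3⟩ := exists_measurable_superset_of_null h0
    refine ⟨Nᶜ, ?_, hN2.compl, ?_⟩
    · intro y hy
      by_contra hcon
      exact hy (hN1 hcon)
    · rw [ae_iff]
      simpa using hN3
  -- rounding
  let k : ℕ → ℝ → ℤ := fun n t => ⌊((n : ℝ) + 1) * t⌋
  let R : ℕ → ℝ → ℚ := fun n t => (k n t : ℚ) / ((n : ℚ) + 1)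
  have hR : ∀ t, Tendsto (fun n => ((R n t : ℚ) : ℝ)) atTop (𝓝 t) := by
    intro t
    have h1 : ∀ n : ℕ, |((R n t : ℚ) : ℝ) - t| ≤ 1 / ((n : ℝ) + 1) := by
      intro n
      have hn : (0 : ℝ) < (n : ℝ) + 1 := by positivity
      have e : ((R n t : ℚ) : ℝ) = (k n t : ℝ) / ((n : ℝ) + 1) := by simp [R]
      rw [e]
      have h1 := Int.floor_le (((n : ℝ) + 1) * t)
      have h2 := Int.lt_floor_add_one (((n : ℝ) + 1) * t)
      rw [abs_le]
      constructor
      · rw [← sub_nonneg]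
        have : (k n t : ℝ) / ((n : ℝ) + 1) - t - -(1 / ((n : ℝ) + 1))
            = ((k n t : ℝ) + 1 - ((n : ℝ) + 1) * t) / ((n : ℝ) + 1) := by
          field_simp
          ring
        rw [this]
        apply div_nonneg _ hn.le
        have : (k n t : ℝ) = (⌊((n : ℝ) + 1) * t⌋ : ℝ) := rfl
        linarith
      · rw [← sub_nonneg]
        have : 1 / ((n : ℝ) + 1) - ((k n t : ℝ) / ((n : ℝ) + 1) - t)
            = (1 - ((k n t : ℝ) - ((n : ℝ) + 1) * t)) / ((n : ℝ) + 1) := by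
          field_simp
        rw [this]
        apply div_nonneg _ hn.le
        have : (k n t : ℝ) = (⌊((n : ℝ) + 1) * t⌋ : ℝ) := rfl
        linarith
    rw [tendsto_iff_dist_tendsto_zero]
    refine squeeze_zero (fun _ => dist_nonneg) (fun n => ?_)
      (tendsto_one_div_add_atTop_nhds_zero_nat (𝕜 := ℝ))
    rw [Real.dist_eq]
    exact h1 n
  have hRI : ∀ t ∈ Ioo a b, ∀ᶠ n in atTop, ((R n t : ℚ) : ℝ) ∈ Ioo a b := fun t ht =>
    (hR t).eventually (isOpen_Ioo.mem_nhds ht)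
  -- the approximations
  let S : Set (ℝ × Y) := Ioo a b ×ˢ G
  have hS : MeasurableSet S := measurableSet_Ioo.prod hGm
  let A : ℕ → ℝ × Y → M := fun n q => if q ∈ S then Z' (R n q.1) q.2 else m0
  have hA : ∀ n, Measurable (A n) := by
    intro n
    refine Measurable.ite hS ?_ measurable_const
    have h1 : Measurable (fun q : ℤ × Y => Z' (((q.1 : ℚ) / ((n : ℚ) + 1) : ℚ) : ℝ) q.2) :=
      measurable_from_prod_countable_right fun j =>
        hZ'm ((((j : ℚ) / ((n : ℚ) + 1) : ℚ)) : ℝ)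
    have h0 : Measurable (Int.floor : ℝ → ℤ) :=
      measurable_to_countable fun x => by
        simpa only [Int.preimage_floor_singleton] using measurableSet_Ico
    have h2 : Measurable (fun q : ℝ × Y => (k n q.1, q.2)) :=
      (h0.comp (measurable_const.mul measurable_fst)).prodMk measurable_snd
    exact h1.comp h2
  have hlim : ∀ q : ℝ × Y, ∃ z, Tendsto (fun n => A n q) atTop (𝓝 z) := by
    intro q
    by_cases hq : q ∈ S
    swap
    · exact ⟨m0, by simp only [A, if_neg hq]; exact tendsto_const_nhds⟩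
    refine cauchySeq_tendsto_of_complete ?_
    have hc : CauchySeq (fun n => l q.2 * ((R n q.1 : ℚ) : ℝ)) :=
      ((hR q.1).const_mul _).cauchySeq
    rw [Metric.cauchySeq_iff'] at hc ⊢
    intro ε hε
    obtain ⟨N, hN⟩ := hc ε hε
    obtain ⟨N', hN'⟩ := eventually_atTop.1 (hRI q.1 hq.1)
    have hc2 : CauchySeq (fun n => l q.2 * ((R n q.1 : ℚ) : ℝ)) :=
      ((hR q.1).const_mul _).cauchySeq
    rw [Metric.cauchySeq_iff] at hc2
    obtain ⟨N2, hN2⟩ := hc2 ε hε
    refine ⟨max N2 N', fun n hn => ?_⟩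
    simp only [A, if_pos hq]
    have h1 := hGsub hq.2 (R n q.1) (R (max N2 N') q.1) (hN' n ((le_max_right _ _).trans hn))
      (hN' _ (le_max_right _ _))
    have h2 := hN2 n ((le_max_left _ _).trans hn) (max N2 N') (le_max_left _ _)
    rw [Real.dist_eq, ← mul_sub, abs_mul] at h2
    refine h1.trans_lt (lt_of_le_of_lt ?_ h2)
    exact mul_le_mul_of_nonneg_right (le_abs_self _) (abs_nonneg _)
  choose X hX using hlim
  have hXm : Measurable X := measurable_of_tendsto_metrizable hA (tendsto_pi_nhds.2 hX)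
  refine ⟨fun t y => X (t, y), hXm, fun t ht => ?_, ?_⟩
  · have h1 : ∀ᵐ y ∂μ, ∀ q : ℚ, (q : ℝ) ∈ Ioo a b →
        Z' q y = Z q y ∧ dist (Z q y) (Z t y) ≤ l y * |(q : ℝ) - t| := by
      rw [ae_all_iff]; intro q
      by_cases hq : (q : ℝ) ∈ Ioo a b
      swap
      · exact Eventually.of_forall fun y h => absurd h hq
      filter_upwards [h q hq t ht, hZ'e q hq] with y h1 h2 _
      exact ⟨h2.symm, h1⟩
    filter_upwards [h1, hGae] with y hy hyG
    have hq : (t, y) ∈ S := ⟨ht, hyG⟩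
    refine tendsto_nhds_unique (hX (t, y)) ?_
    rw [tendsto_iff_dist_tendsto_zero]
    have h2 : Tendsto (fun n => l y * |((R n t : ℚ) : ℝ) - t|) atTop (𝓝 0) := by
      have := ((hR t).sub_const t).abs.const_mul (l y)
      simpa using this
    refine squeeze_zero' (Eventually.of_forall fun _ => dist_nonneg) ?_ h2
    filter_upwards [hRI t ht] with n hn
    have h3 := hy (R n t) hn
    simp only [A, if_pos hq]
    rw [h3.1]
    exact h3.2
  · filter_upwards [hGae] with y hyG s hs t ht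
    have hqs : (s, y) ∈ S := ⟨hs, hyG⟩
    have hqt : (t, y) ∈ S := ⟨ht, hyG⟩
    have h1 : Tendsto (fun n => dist (A n (s, y)) (A n (t, y))) atTop
      (𝓝 (dist (X (s, y)) (X (t, y)))) := (hX _).dist (hX _)
    have h2 : Tendsto (fun n => l y * |((R n s : ℚ) : ℝ) - ((R n t : ℚ) : ℝ)|) atTop
      (𝓝 (l y * |s - t|)) := (((hR s).sub (hR t)).abs).const_mul _
    refine le_of_tendsto_of_tendsto h1 h2 ?_
    filter_upwards [hRI s hs, hRI t ht] with n hn1 hn2
    simp only [A, if_pos hqs, if_pos hqt]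
    exact hGsub hyG _ _ hn1 hn2

end LipMod

end Vale.Agent.P233.H416
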