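import Vale.Agent.P233.H416.RegVol3

/-! P233, stage 3, block V (helper416), part 5: the image of the logarithm is dense at small
scales. -/

set_option linter.all false

open Set Filter Metric Topology MeasureTheory
open scoped ENNReal NNReal MeasureTheory RealInnerProductSpace

universe u

namespace Vale.Agent.P233.H416.Reg

/-- `ℋⁿ = c • volume` on `ℝⁿ` -/
theorem haus_volume (n : ℕ) : ∃ c : ℝ≥0, 0 < c ∧
    (μH[n] : Measure (RG.E n)) = c • (volume : Measure (RG.E n)) := by
  haveI h : (μH[n] : Measure (RG.E n)).IsAddHaarMeasure := by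
    have := isAddHaarMeasure_hausdorffMeasure (E := RG.E n)
    rw [finrank_euclideanSpace_fin] at this
    exact this
  exact ⟨_, Measure.addHaarScalarFactor_pos_of_isAddHaarMeasure _ _,
    Measure.isAddLeftInvariant_eq_smul _ _⟩

theorem haus_ball (n : ℕ) (u : RG.E n) {r : ℝ} (hr : 0 ≤ r) :
    (μH[n] : Measure (RG.E n)) (ball u r) ≤ ENNReal.ofReal (r ^ n * RA.om n) :=
  (measure_mono ball_subset_closedBall).trans (RA.haus_closedBall u hr).le

variable {M : Type*} [MetricSpace M] [MeasurableSpace M] [BorelSpace M] {n : ℕ} {κ : ℝ} {z : M}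
  {L : M → RG.E n}

/-- **density of the image of the logarithm** -/
theorem dense (h : CDc.Reg κ n z L) : ∀ η > 0, ∀ R > 0, ∀ᶠ r in 𝓝[>] (0 : ℝ), ∀ ζ : RG.E n,
    ‖ζ‖ ≤ R * r → ∃ v : M, ‖L v - ζ‖ ≤ η * r := by
  intro η₀ hη₀ R hR
  obtain ⟨η, hη, hη1, hη2⟩ : ∃ η : ℝ, 0 < η ∧ η ≤ 1 ∧ η ≤ η₀ :=
    ⟨min 1 η₀, by positivity, min_le_left _ _, min_le_right _ _⟩
  obtain ⟨T, hT⟩ : ∃ T, T = R + 2 := ⟨_, rfl⟩
  have hT0 : 0 < T := by linarith
  obtain ⟨ε, hε, hε2⟩ : ∃ ε > 0, 2 * ε * T ^ n = η ^ n :=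
    ⟨η ^ n / (2 * T ^ n), by positivity, by field_simp⟩
  obtain ⟨ρ, hρ, hV⟩ := vol_near_z h.toLg hε
  have hom := RA.om_pos n
  have hd := h.dens
  rw [← om_eq] at hd
  have ht : Tendsto (fun r : ℝ => T * r) (𝓝[>] 0) (𝓝[>] 0) := by
    rw [tendsto_nhdsWithin_iff]
    constructor
    · have : Tendsto (fun r : ℝ => T * r) (𝓝 0) (𝓝 (T * 0)) := (continuous_const.mul
        continuous_id).tendsto 0
      rw [mul_zero] at this
      exact this.mono_left nhdsWithin_le_nhds
    · filter_upwards [self_mem_nhdsWithin] with r hr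
      exact mul_pos hT0 hr
  have h1 : RA.om n * (1 - ε) < RA.om n := by
    have := mul_pos hom hε
    linarith
  have h2 := ht.eventually (hd.eventually (lt_mem_nhds h1))
  have h3 := ht.eventually ((gt_mem_nhds hρ).filter_mono nhdsWithin_le_nhds :
    ∀ᶠ r in 𝓝[>] (0 : ℝ), r < ρ)
  filter_upwards [h2, h3, self_mem_nhdsWithin] with r k1 k2 k3 ζ hζ
  have hr : (0 : ℝ) < r := k3
  by_contra hcon
  push Not at hcon
  have hsub : L '' ball z (T * r) ⊆ closedBall 0 (T * r) \ closedBall ζ (η * r) := by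
    rintro _ ⟨v, hv, rfl⟩
    refine ⟨?_, fun hmem => ?_⟩
    · rw [mem_closedBall, dist_zero_right, h.norm, dist_comm]
      exact (mem_ball.1 hv).le
    · rw [mem_closedBall, dist_eq_norm] at hmem
      have := hcon v
      have h5 : η * r ≤ η₀ * r := mul_le_mul_of_nonneg_right hη2 hr.le
      linarith
  have hsub2 : closedBall ζ (η * r) ⊆ closedBall (0 : RG.E n) (T * r) := by
    refine closedBall_subset_closedBall' ?_
    rw [dist_zero_right]
    have : η * r ≤ 1 * r := mul_le_mul_of_nonneg_right hη1 hr.le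
    rw [hT]
    linarith
  have hmeas : (μH[n] : Measure (RG.E n)) (L '' ball z (T * r)) ≤
      ENNReal.ofReal ((T * r) ^ n * RA.om n) - ENNReal.ofReal ((η * r) ^ n * RA.om n) := by
    refine (measure_mono hsub).trans ?_
    have hfin : (μH[n] : Measure (RG.E n)) (closedBall ζ (η * r)) ≠ ∞ := by
      rw [RA.haus_closedBall ζ (by positivity)]
      exact ENNReal.ofReal_ne_top
    rw [measure_diff hsub2 measurableSet_closedBall.nullMeasurableSet hfin,
      RA.haus_closedBall ζ (by positivity), RA.haus_closedBall 0 (by positivity)]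
  rw [← ENNReal.ofReal_sub _ (by positivity)] at hmeas
  have hle : η ^ n ≤ T ^ n := pow_le_pow_left₀ hη.le (by linarith) n
  have h4 : (μH[n] : Measure M) (ball z (T * r)) ≤ ENNReal.ofReal ((1 + ε) *
      ((T * r) ^ n * RA.om n - (η * r) ^ n * RA.om n)) := by
    rw [ENNReal.ofReal_mul (by positivity)]
    refine (hV _ (ball_subset_ball k2.le)).trans ?_
    gcongr
  have hrn : 0 < r ^ n * RA.om n := by positivity
  have e0 : (T * r) ^ n * RA.om n - (η * r) ^ n * RA.om n = (T ^ n - η ^ n) * (r ^ n * RA.om n) := by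
    rw [mul_pow, mul_pow]; ring
  rw [e0] at h4
  have h5 := ENNReal.toReal_le_of_le_ofReal (by
    have : 0 ≤ T ^ n - η ^ n := by linarith
    positivity) h4
  rw [lt_div_iff₀ (by positivity)] at k1
  have h6 : RA.om n * (1 - ε) * (T * r) ^ n = (1 - ε) * T ^ n * (r ^ n * RA.om n) := by
    rw [mul_pow]; ring
  rw [h6] at k1
  have h7 : (1 - ε) * T ^ n * (r ^ n * RA.om n) < (1 + ε) * (T ^ n - η ^ n) * (r ^ n * RA.om n) := by
    refine k1.trans_le (h5.trans (le_of_eq ?_))
    ring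
  have h8 := lt_of_mul_lt_mul_right h7 hrn.le
  have h9 : 0 < ε * η ^ n := by positivity
  nlinarith

end Vale.Agent.P233.H416.Reg
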