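import Vale.Agent.P233.H416.GPos3

/-!
# P233 (RCDA), G-pos: `κ > 0`. From `diam ≤ π/√κ`: curvature `≥ κ'` for all `κ' ≤ κ`
-/

open Filter Topology Set Real

universe u

namespace Vale.Agent.P233.H416

open Vale.Agent.P233.H616

variable {M : Type u} [MetricSpace M] {κ κ' : ℝ}

/-- real-variable form of the change of the curvature -/
theorem change_real {a : ℝ} {r : ℝ → ℝ} {t : ℝ} (hrt : r t = a) (hs : 0 < sn κ a)
    (hs' : 0 < sn κ' a) (hcot : sn κ' a * cs κ a ≤ cs κ' a * sn κ a)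
    (hlip : ∀ᶠ h in 𝓝[>] (0 : ℝ), |r (t + h) - a| ≤ h ∧ |r (t - h) - a| ≤ h)
    (hv : Visc κ (fun t => md κ (r t)) t) : Visc κ' (fun t => md κ' (r t)) t := by
  intro ε₀ hε₀
  obtain ⟨A, hA⟩ : ∃ A, A = |cs κ a| + sn κ a := ⟨_, rfl⟩
  obtain ⟨A', hA'⟩ : ∃ A', A' = |cs κ' a| + sn κ' a := ⟨_, rfl⟩
  obtain ⟨ρ, hρ⟩ : ∃ ρ, ρ = sn κ' a / sn κ a := ⟨_, rfl⟩
  have hA0 : 0 ≤ A := by rw [hA]; positivity
  have hA'0 : 0 ≤ A' := by rw [hA']; positivity
  have hρ0 : 0 < ρ := by rw [hρ]; positivity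
  obtain ⟨ε, hε⟩ : ∃ ε, ε = ε₀ / (2 * ρ) := ⟨_, rfl⟩
  have hε0 : 0 < ε := by rw [hε]; positivity
  have hε1 : ρ * ε = ε₀ / 2 := by rw [hε]; field_simp
  obtain ⟨η, hη⟩ : ∃ η, η = ε₀ / (4 * (ρ * A + A' + 1)) := ⟨_, rfl⟩
  have hη0 : 0 < η := by rw [hη]; positivity
  have hη1 : 2 * η * (ρ * A + A') ≤ ε₀ / 2 := by
    have h1 : 2 * η * (ρ * A + A' + 1) = ε₀ / 2 := by
      rw [hη]
      field_simp
      ring
    have h2 : 0 ≤ 2 * η := by positivity
    linarith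
  filter_upwards [hlip, hv ε hε0, expand κ η hη0, expand κ' η hη0, self_mem_nhdsWithin]
    with h hl h1 h2 h3 h4
  have h0 : (0 : ℝ) < h := h4
  obtain ⟨δ, hδ⟩ : ∃ δ, δ = r (t + h) - a := ⟨_, rfl⟩
  obtain ⟨δ', hδ'⟩ : ∃ δ', δ' = r (t - h) - a := ⟨_, rfl⟩
  have e1 : r (t + h) = a + δ := by rw [hδ]; ring
  have e2 : r (t - h) = a + δ' := by rw [hδ']; ring
  rw [← hδ, ← hδ'] at hl
  obtain ⟨l1, l2⟩ := hl
  obtain ⟨m1, s1⟩ := h2 δ l1
  obtain ⟨m2, s2⟩ := h2 δ' l2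
  obtain ⟨m1', s1'⟩ := h3 δ l1
  obtain ⟨m2', s2'⟩ := h3 δ' l2
  simp only [e1, e2, hrt] at h1 ⊢
  have ex : ∀ k d, md k (a + d) = md k a + cs k a * md k d + sn k a * sn k d := by
    intro k d
    rw [md_add, cs_eq]; ring
  rw [ex, ex] at h1
  rw [ex, ex]
  have hcs : 1 - κ * md κ a = cs κ a := (cs_eq κ a).symm
  have hcs' : 1 - κ' * md κ' a = cs κ' a := (cs_eq κ' a).symm
  rw [hcs] at h1
  rw [hcs']
  -- bounds of the errors
  have er : ∀ {c x y : ℝ}, |x - y| ≤ η * h ^ 2 → |c * x - c * y| ≤ |c| * (η * h ^ 2) := by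
    intro c x y hxy
    rw [← mul_sub, abs_mul]
    exact mul_le_mul_of_nonneg_left hxy (abs_nonneg c)
  have a1 := (abs_le.1 (er (c := cs κ a) m1)).1
  have a2 := (abs_le.1 (er (c := cs κ a) m2)).1
  have a3 := (abs_le.1 (er (c := sn κ a) s1)).1
  have a4 := (abs_le.1 (er (c := sn κ a) s2)).1
  have b1 := (abs_le.1 (er (c := cs κ' a) m1')).2
  have b2 := (abs_le.1 (er (c := cs κ' a) m2')).2
  have b3 := (abs_le.1 (er (c := sn κ' a) s1')).2
  have b4 := (abs_le.1 (er (c := sn κ' a) s2')).2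
  rw [abs_of_pos hs] at a3 a4
  rw [abs_of_pos hs'] at b3 b4
  have q1 : δ ^ 2 ≤ h ^ 2 := by rw [← sq_abs δ]; exact pow_le_pow_left₀ (abs_nonneg _) l1 2
  have q2 : δ' ^ 2 ≤ h ^ 2 := by rw [← sq_abs δ']; exact pow_le_pow_left₀ (abs_nonneg _) l2 2
  obtain ⟨S, hS⟩ : ∃ S, S = h ^ 2 - (δ ^ 2 / 2 + δ' ^ 2 / 2) := ⟨_, rfl⟩
  have hS0 : 0 ≤ S := by rw [hS]; linarith
  -- from `κ`
  have c1 : sn κ a * (δ + δ') ≤ cs κ a * S + (ε + 2 * η * A) * h ^ 2 := by
    rw [hS, hA]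
    linarith only [h1, a1, a2, a3, a4]
  -- to `κ'`
  have c2 : sn κ' a * (δ + δ') ≤ cs κ' a * S + ρ * (ε + 2 * η * A) * h ^ 2 := by
    have d1 : sn κ' a * (δ + δ') = ρ * (sn κ a * (δ + δ')) := by
      rw [hρ]; field_simp
    rw [d1]
    have d2 := mul_le_mul_of_nonneg_left c1 hρ0.le
    have d3 : ρ * (cs κ a * S) ≤ cs κ' a * S := by
      have d4 : ρ * cs κ a ≤ cs κ' a := by
        rw [hρ, div_mul_eq_mul_div, div_le_iff₀ hs]
        exact hcot
      calc ρ * (cs κ a * S) = (ρ * cs κ a) * S := by ring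
        _ ≤ _ := mul_le_mul_of_nonneg_right d4 hS0
    calc ρ * (sn κ a * (δ + δ')) ≤ ρ * (cs κ a * S + (ε + 2 * η * A) * h ^ 2) := d2
      _ = ρ * (cs κ a * S) + ρ * (ε + 2 * η * A) * h ^ 2 := by ring
      _ ≤ _ := by linarith
  have c3 : (ρ * (ε + 2 * η * A) + 2 * η * A') * h ^ 2 ≤ ε₀ * h ^ 2 := by
    refine mul_le_mul_of_nonneg_right ?_ (by positivity)
    have : ρ * (ε + 2 * η * A) + 2 * η * A' = ρ * ε + 2 * η * (ρ * A + A') := by ring
    rw [this, hε1]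
    linarith
  have c4 : cs κ' a * (δ ^ 2 / 2 + δ' ^ 2 / 2) + sn κ' a * (δ + δ') + 2 * η * A' * h ^ 2
      ≤ (cs κ' a + ε₀) * h ^ 2 := by
    have d5 : cs κ' a * (δ ^ 2 / 2 + δ' ^ 2 / 2) = cs κ' a * h ^ 2 - cs κ' a * S := by
      rw [hS]; ring
    rw [d5]
    linarith
  rw [hA'] at c4
  linarith only [c4, b1, b2, b3, b4]

theorem visc_change [CompleteSpace M] (hA : T.IsAlexandrov M κ) (hκ : 0 < κ)
    (hdiam : ∀ x y : M, √κ * dist x y ≤ π) (hlt : κ' < κ) {γ : ℝ → M} {L : ℝ} (hγ : IsG γ L)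
    (p : M) {t : ℝ} (ht : t ∈ Ioo 0 L) : Visc κ' (fun t => md κ' (dist p (γ t))) t := by
  have hk : 0 < √κ := Real.sqrt_pos.2 hκ
  have mt : t ∈ Icc 0 L := ⟨ht.1.le, ht.2.le⟩
  have hsmall : ∀ᶠ h in 𝓝[>] (0 : ℝ), t + h ∈ Icc 0 L ∧ t - h ∈ Icc 0 L := by
    filter_upwards [Ioo_mem_nhdsGT ht.1, Ioo_mem_nhdsGT (show (0 : ℝ) < L - t by linarith [ht.2])]
      with h h1 h2
    exact ⟨⟨by linarith [h1.1, ht.1], by linarith [h2.2]⟩, ⟨by linarith [h1.2],
      by linarith [h1.1, ht.2]⟩⟩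
  have hd : ∀ h, 0 < h → t + h ∈ Icc 0 L → t - h ∈ Icc 0 L →
      dist (γ t) (γ (t + h)) = h ∧ dist (γ t) (γ (t - h)) = h := by
    intro h h0 m1 m2
    constructor
    · rw [hγ _ mt _ m1, show t - (t + h) = -h by ring, abs_neg, abs_of_pos h0]
    · rw [hγ _ mt _ m2, show t - (t - h) = h by ring, abs_of_pos h0]
  have hsn' : ∀ r, 0 < r → √κ * r ≤ π → 0 < sn κ' r := by
    intro r hr hr1
    refine sn_pos hr fun h' => ?_
    have : √κ' < √κ := Real.sqrt_lt_sqrt h'.le hlt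
    nlinarith
  rcases (hdiam p (γ t)).lt_or_eq with hlt' | heq
  · rcases (dist_nonneg (x := p) (y := γ t)).eq_or_lt with h0 | h0
    · -- `p` on the geodesic
      have hp : p = γ t := dist_eq_zero.1 h0.symm
      refine visc_of_md (c := 1) ?_ (by simp [← h0])
      filter_upwards [hsmall, self_mem_nhdsWithin] with h hh hh0
      obtain ⟨d1, d2⟩ := hd h hh0 hh.1 hh.2
      rw [hp, d1, d2, dist_self, md_at_zero]
      apply le_of_eq; ring
    · refine change_real (κ := κ) (a := dist p (γ t)) rfl ?_ (hsn' _ h0 hlt'.le)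
        (cot_mono hlt.le h0.le fun _ => hlt'.le) ?_ (visc_of_cmp hA hκ hγ p ht hlt')
      · exact sn_pos h0 fun _ => hlt'
      · filter_upwards [hsmall, self_mem_nhdsWithin] with h hh hh0
        have h0 : (0 : ℝ) < h := hh0
        have a1 := hγ.abs_le p hh.1 mt
        have a2 := hγ.abs_le p hh.2 mt
        rw [show t + h - t = h by ring, abs_of_pos h0] at a1
        rw [show t - h - t = -h by ring, abs_neg, abs_of_pos h0] at a2
        exact ⟨a1, a2⟩
  · -- antipode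
    obtain ⟨a, ha⟩ : ∃ a, a = dist p (γ t) := ⟨_, rfl⟩
    rw [← ha] at heq
    have ha0 : 0 < a := by
      by_contra hn
      have h1 := mul_nonpos_of_nonneg_of_nonpos hk.le (not_lt.1 hn)
      linarith [Real.pi_pos]
    have hs' := hsn' a ha0 heq.le
    refine visc_of_md (c := 1 - κ' * md κ' a) ?_ (by simp only [← ha]; exact le_rfl)
    have hsnh : ∀ᶠ h in 𝓝[>] (0 : ℝ), 0 < sn κ' h := by
      filter_upwards [Ioo_mem_nhdsGT ha0] with h hh
      exact hsn' h hh.1 (by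
        have := mul_le_mul_of_nonneg_left hh.2.le hk.le
        linarith)
    filter_upwards [hsmall, hsnh, self_mem_nhdsWithin] with h hh hsh hh0
    have h0 : (0 : ℝ) < h := hh0
    obtain ⟨d1, d2⟩ := hd h hh0 hh.1 hh.2
    have eqd : ∀ z, dist (γ t) z = h → dist p z = a - h := by
      intro z hz
      apply le_antisymm
      · have := perim hA hκ hdiam p (γ t) z
        rw [← ha, hz] at this
        have e : √κ * (a + h + dist z p) = √κ * a + √κ * (h + dist z p) := by ring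
        rw [e, heq] at this
        have h3 : √κ * (h + dist z p) ≤ √κ * a := by linarith
        have h4 := le_of_mul_le_mul_left h3 hk
        rw [dist_comm p z]; linarith
      · have := dist_triangle p z (γ t)
        rw [← ha, dist_comm z, hz] at this
        linarith
    rw [eqd _ d1, eqd _ d2, ← ha, md_sub]
    have := mul_pos hs' hsh
    linarith

/-- **Curvature `≥ κ` implies curvature `≥ κ'` for all `κ' ≤ κ`.** -/
theorem isAlexandrov_le [CompleteSpace M] (hA : T.IsAlexandrov M κ) (hκ : 0 < κ)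
    (hdiam : ∀ x y : M, √κ * dist x y ≤ π) (hle : κ' ≤ κ) : T.IsAlexandrov M κ' := by
  rcases hle.eq_or_lt with rfl | hlt
  · exact hA
  have hk : 0 < √κ := Real.sqrt_pos.2 hκ
  refine ⟨hA.geodesic, fun p x y w hw _ => ?_⟩
  obtain ⟨γ, g0, gw, gL, hγ'⟩ := exists_geo_through hA.geodesic hw
  have hγ : IsG γ (dist x y) := hγ'
  have n1 : 0 ≤ dist x w := dist_nonneg
  have n2 : 0 ≤ dist w y := dist_nonneg
  rcases (dist_nonneg (x := x) (y := y)).eq_or_lt with hL0 | hL0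
  · have z1 : dist x w = 0 := by linarith
    have z2 : dist w y = 0 := by linarith
    have e1 : w = x := (dist_eq_zero.1 z1).symm
    have e2 : y = x := by rw [← e1]; exact (dist_eq_zero.1 z2).symm
    rw [e1, e2]
    refine ⟨fun _ => by simp, fun _ => by simp, fun _ => by simp⟩
  refine cmp_of_twopoint ?_
  have key := twopoint_visc (κ := κ') (L := dist x y) (f := fun s => md κ' (dist p (γ s))) hL0
    (fun h' => ?_) ((continuous_md κ').comp_continuousOn (hγ.cont p))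
    (fun t ht => visc_change hA hκ hdiam hlt hγ p ht) (s := dist x w) ⟨n1, by linarith⟩
  · simp only [g0, gw, gL] at key
    have e : dist x y - dist x w = dist w y := by linarith
    rw [e] at key
    rw [hw]
    exact key
  · have : √κ' < √κ := Real.sqrt_lt_sqrt h'.le hlt
    have h2 := hdiam x y
    nlinarith

end Vale.Agent.P233.H416
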