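import Vale.Agent.P233.H416.RegAE
import Vale.Agent.P233.H616.Bridge
import Vale.Agent.P233.H715.CDDef

/-! P233, stage 3, block R (helper416), part 4: `CDc.Blk_Reg`. -/

set_option linter.all false

open Set Filter Metric Topology MeasureTheory
open scoped ENNReal NNReal MeasureTheory RealInnerProductSpace

universe u

namespace Vale.Agent.P233.H416.Reg

theorem isLog_hinge {M : Type*} [MetricSpace M] {n : ℕ} {κ : ℝ} {z : M} {L : M → E n}
    (h : IsLog κ z L) (x v : M) (hp : √κ * (dist z x + dist z v + dist x v) < 2 * Real.pi) :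
    H616.md κ (dist x v) ≤ H616.md κ (dist z x - dist z v)
      + H616.sn κ (dist z x) * H616.sn κ (dist z v)
        * (1 - ⟪L x, L v⟫ / (dist z x * dist z v)) := by
  by_cases hx : z = x
  · subst hx
    rw [dist_self, H616.sn_at_zero, zero_sub, H616.md_neg]
    simp
  by_cases hv : z = v
  · subst hv
    rw [dist_self, H616.sn_at_zero, sub_zero, dist_comm x z]
    simp
  exact h.hinge x v hx hv hp

theorem lg_of_isLog {M : Type*} [MetricSpace M] {n : ℕ} {κ : ℝ} {z : M} {L : M → E n}
    (h : IsLog κ z L) : CDc.Lg κ n z L where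
  norm := h.nrm
  hinge := by
    intro x v hp
    have := isLog_hinge h x v hp
    rw [H616.md_eq, H616.md_eq, H616.sn_eq, H616.sn_eq] at this
    exact this
  opp := by
    intro x y hxy
    have := h.between x y hxy
    exact eq_neg_of_add_eq_zero_left this

theorem om_eq (n : ℕ) : RA.om n = ((μH[n] : Measure (E n)) (ball (0 : E n) 1)).toReal := by
  unfold RA.om
  rw [Measure.addHaar_unitClosedBall_eq_addHaar_unitBall]

/-- **Block R**, literal form. -/
theorem blk_Reg : CDc.Blk_Reg.{u} := by
  intro M _ _ _ _ _ n κ hA hG hR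
  filter_upwards [ae_isReg hA.alex hG hR] with z hz
  obtain ⟨⟨L, hL⟩, hd⟩ := hz
  refine ⟨L, ⟨lg_of_isLog hL, ?_⟩⟩
  rw [← om_eq]
  exact hd

end Vale.Agent.P233.H416.Reg
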