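import Vale.Agent.P233.H416.RegVol4

/-! P233, stage 3, block V (helper416), part 6: the volume estimate far from the centre without
any condition on the directions. -/

set_option linter.all false

open Set Filter Metric Topology MeasureTheory
open scoped ENNReal NNReal MeasureTheory RealInnerProductSpace

universe u

namespace Vale.Agent.P233.H416.Reg

section

variable {M : Type*} [MetricSpace M] {n : ℕ} {κ : ℝ} {z : M} {L : M → RG.E n}

/-- V2, metric form, every cone -/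
theorem near_x' (h : CDc.Lg κ n z L) {x : M} (ha : 0 < dist z x) (hπ : √κ * dist z x < Real.pi)
    {η : ℝ} (hη : 0 < η) : ∃ ρ > 0, ρ ≤ dist z x / 2 ∧ ∀ e : RG.E n, ‖e‖ = 1 →
      ∀ v ∈ ball x ρ, ∀ v' ∈ ball x ρ,
      ‖(dist z v)⁻¹ • L v - e‖ ≤ ρ → ‖(dist z v')⁻¹ • L v' - e‖ ≤ ρ →
      dist v v' ≤ (1 + η) * ‖stretch e (sn κ (dist z x) / dist z x) (L v - L v')‖ := by
  obtain ⟨a, haa⟩ : ∃ a, a = dist z x := ⟨_, rfl⟩
  obtain ⟨c, hcc⟩ : ∃ c, c = sn κ a / a := ⟨_, rfl⟩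
  rw [← haa] at ha hπ
  rw [← haa, ← hcc]
  have hc : 0 < c := by rw [hcc]; exact div_pos (sn_pos_of ha hπ) ha
  obtain ⟨δ, hδ, hδ1, hcore⟩ := md_core κ hc hη
  have h1 : ∀ᶠ r in 𝓝 a, sn κ r / r < (1 + δ / 3) * c ∧ 0 < sn κ r / r := by
    have ht : Tendsto (fun r => sn κ r / r) (𝓝 a) (𝓝 c) := by
      rw [hcc]
      exact ((sn_cont κ).tendsto a).div tendsto_id ha.ne'
    refine (ht.eventually (gt_mem_nhds ?_)).and (ht.eventually (lt_mem_nhds hc))
    have := mul_pos hδ hc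
    linarith
  obtain ⟨δ₁, hδ₁, h2⟩ := Metric.eventually_nhds_iff.1 h1
  obtain ⟨δ₂, hδ₂, h3⟩ := perim_room hπ
  obtain ⟨m, hm, hm1, hmc⟩ : ∃ m : ℝ, 0 < m ∧ m ≤ 1 ∧ m ≤ c ^ 2 :=
    ⟨min 1 (c ^ 2), by positivity, min_le_left _ _, min_le_right _ _⟩
  obtain ⟨δ₃, hδ₃, h4⟩ : ∃ δ₃ > 0, 2 * δ₃ * (1 + c ^ 2) / m ≤ η := by
    refine ⟨η * m / (2 * (1 + c ^ 2)), by positivity, le_of_eq ?_⟩
    field_simp
  obtain ⟨ρ, hρ, r1, r2, r3, r4, r5⟩ : ∃ ρ : ℝ, 0 < ρ ∧ ρ ≤ δ / 2 ∧ ρ ≤ δ₁ ∧ ρ ≤ δ₂ ∧ ρ ≤ δ₃ ∧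
      ρ ≤ a / 2 := by
    refine ⟨min (δ / 2) (min δ₁ (min δ₂ (min δ₃ (a / 2)))), by positivity, min_le_left _ _, ?_, ?_,
      ?_, ?_⟩
    · exact (min_le_right _ _).trans (min_le_left _ _)
    · exact (min_le_right _ _).trans ((min_le_right _ _).trans (min_le_left _ _))
    · exact (min_le_right _ _).trans ((min_le_right _ _).trans ((min_le_right _ _).trans
        (min_le_left _ _)))
    · exact (min_le_right _ _).trans ((min_le_right _ _).trans ((min_le_right _ _).trans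
        (min_le_right _ _)))
  have hrad : ∀ v ∈ ball x ρ, |dist z v - a| < ρ := by
    intro v hv
    rw [mem_ball] at hv
    rw [haa, dist_comm z v, dist_comm z x]
    exact (abs_dist_sub_le v x z).trans_lt hv
  refine ⟨ρ, hρ, r5, fun e he v hv v' hv' hcv hcv' => ?_⟩
  have k1 := hrad v hv
  have k1' := hrad v' hv'
  have k2 := abs_lt.1 k1
  have k2' := abs_lt.1 k1'
  have hr : 0 < dist z v := by linarith
  have hr' : 0 < dist z v' := by linarith
  have hd : dist v v' ≤ 2 * ρ := by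
    rw [mem_ball] at hv hv'
    have := dist_triangle v x v'
    rw [dist_comm x v'] at this
    linarith
  have hp : √κ * (dist z v + dist z v' + dist v v') < 2 * Real.pi := by
    refine lt_of_le_of_lt ?_ h3
    refine mul_le_mul_of_nonneg_left ?_ (Real.sqrt_nonneg _)
    linarith
  have h6 := lg_hinge h hr hr' hp
  obtain ⟨a1, a2⟩ := h2 (y := dist z v) (by rw [Real.dist_eq]; linarith)
  obtain ⟨b1, b2⟩ := h2 (y := dist z v') (by rw [Real.dist_eq]; linarith)
  have h7 := hcore (dist v v') (dist z v - dist z v') (‖L v - L v'‖ ^ 2)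
    (sn κ (dist z v) / dist z v * (sn κ (dist z v') / dist z v')) dist_nonneg (by linarith)
    (by rw [abs_le]; constructor <;> linarith) (sq_le_norm h v v') (by
      calc sn κ (dist z v) / dist z v * (sn κ (dist z v') / dist z v')
          ≤ ((1 + δ / 3) * c) * ((1 + δ / 3) * c) := mul_le_mul a1.le b1.le b2.le (by positivity)
        _ = (1 + δ / 3) ^ 2 * c ^ 2 := by ring
        _ ≤ (1 + δ) * c ^ 2 := by
            refine mul_le_mul_of_nonneg_right ?_ (sq_nonneg _)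
            nlinarith) h6
  have hLv : L v = dist z v • ((dist z v)⁻¹ • L v) := by
    rw [smul_smul, mul_inv_cancel₀ hr.ne', one_smul]
  have hLv' : L v' = dist z v' • ((dist z v')⁻¹ • L v') := by
    rw [smul_smul, mul_inv_cancel₀ hr'.ne', one_smul]
  have hu : ‖(dist z v)⁻¹ • L v‖ = 1 := by
    rw [norm_smul, h.norm, norm_inv, Real.norm_of_nonneg hr.le, inv_mul_cancel₀ hr.ne']
  have hu' : ‖(dist z v')⁻¹ • L v'‖ = 1 := by
    rw [norm_smul, h.norm, norm_inv, Real.norm_of_nonneg hr'.le, inv_mul_cancel₀ hr'.ne']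
  have h8 := radial_diff hr hr' hu hu' hcv hcv'
  rw [← hLv, ← hLv'] at h8
  have hi : ⟪e, L v - L v'⟫ ^ 2 ≤ ‖L v - L v'‖ ^ 2 := by
    have := abs_real_inner_le_norm e (L v - L v')
    rw [he, one_mul] at this
    exact sq_le_sq' (by linarith [(abs_le.1 this).1]) (abs_le.1 this).2
  have h9 := quad_compare (c := c) (norm_nonneg (L v - L v')) (sq_le_norm h v v') hi h8 hm hm1 hmc
  rw [← norm_stretch_sq he] at h9
  have h10 : dist v v' ^ 2 ≤ ((1 + η) * ‖stretch e c (L v - L v')‖) ^ 2 := by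
    have h11 : 1 + 2 * ρ * (1 + c ^ 2) / m ≤ 1 + η := by
      have : 2 * ρ * (1 + c ^ 2) / m ≤ 2 * δ₃ * (1 + c ^ 2) / m := by gcongr
      linarith
    calc dist v v' ^ 2 ≤ (1 + η) * ((dist z v - dist z v') ^ 2 + c ^ 2 *
          (‖L v - L v'‖ ^ 2 - (dist z v - dist z v') ^ 2)) := h7
      _ ≤ (1 + η) * ((1 + 2 * ρ * (1 + c ^ 2) / m) * ‖stretch e c (L v - L v')‖ ^ 2) :=
          mul_le_mul_of_nonneg_left h9 (by positivity)
      _ ≤ (1 + η) * ((1 + η) * ‖stretch e c (L v - L v')‖ ^ 2) := by gcongr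
      _ = ((1 + η) * ‖stretch e c (L v - L v')‖) ^ 2 := by ring
  exact le_of_sq_le_sq h10 (by positivity)

theorem image_inter_pre {α β : Type*} (f : α → β) (A : Set α) (C : Set β) :
    f '' (A ∩ f ⁻¹' C) = f '' A ∩ C := by
  rw [image_inter_preimage]

theorem image_diff_pre {α β : Type*} (f : α → β) (A : Set α) (C : Set β) :
    f '' (A \ f ⁻¹' C) = f '' A \ C := by
  ext y
  constructor
  · rintro ⟨v, ⟨h1, h2⟩, rfl⟩
    exact ⟨⟨v, h1, rfl⟩, h2⟩
  · rintro ⟨⟨v, h1, rfl⟩, h2⟩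
    exact ⟨v, ⟨h1, h2⟩, rfl⟩

variable [MeasurableSpace M] [BorelSpace M]

/-- **V2 without the cone condition** -/
theorem vol_far (h : CDc.Lg κ n z L) {x : M} (ha : 0 < dist z x)
    (hπ : √κ * dist z x < Real.pi) {ε : ℝ} (hε : 0 < ε) : ∃ ρ > 0, ∀ A ⊆ ball x ρ,
    (μH[n] : Measure M) A ≤ ENNReal.ofReal ((1 + ε) * (sn κ (dist z x) / dist z x) ^ (n - 1)) *
      (μH[n] : Measure (RG.E n)) (L '' A) := by
  obtain ⟨η, hη, h1⟩ := exists_pow_le n hε
  obtain ⟨ρ, hρ, hρa, h2⟩ := near_x' h ha hπ hη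
  have hc : 0 < sn κ (dist z x) / dist z x := div_pos (sn_pos_of ha hπ) ha
  obtain ⟨c, hcc⟩ : ∃ c, c = sn κ (dist z x) / dist z x := ⟨_, rfl⟩
  rw [← hcc] at h2 hc ⊢
  refine ⟨ρ, hρ, fun A hA => ?_⟩
  -- one cone
  have one : ∀ e : RG.E n, ‖e‖ = 1 → ∀ A ⊆ ball x ρ, (∀ v ∈ A, ‖(dist z v)⁻¹ • L v - e‖ ≤ ρ) →
      (μH[n] : Measure M) A ≤ ENNReal.ofReal ((1 + ε) * c ^ (n - 1)) *
      (μH[n] : Measure (RG.E n)) (L '' A) := by
    intro e he A hA hcA
    have h3 := haus_le_image (n := n) (K := 1 + η) (by positivity) (A := A)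
      (f := fun v => stretch e c (L v))
      (fun v hv v' hv' => by
        rw [dist_eq_norm (stretch e c (L v)), ← map_sub]
        exact h2 e he v (hA hv) v' (hA hv') (hcA v hv) (hcA v' hv'))
    have h4 : (fun v => stretch e c (L v)) '' A = stretch e c '' (L '' A) := by
      rw [image_image]
    rw [h4, haus_stretch he hc, ← mul_assoc, ← ENNReal.ofReal_mul (by positivity)] at h3
    refine h3.trans ?_
    gcongr
  -- finitely many cones
  have many : ∀ t : Set (RG.E n), t.Finite → (∀ e ∈ t, ‖e‖ = 1) → ∀ A ⊆ ball x ρ,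
      (∀ v ∈ A, ∃ e ∈ t, ‖(dist z v)⁻¹ • L v - e‖ ≤ ρ) →
      (μH[n] : Measure M) A ≤ ENNReal.ofReal ((1 + ε) * c ^ (n - 1)) *
      (μH[n] : Measure (RG.E n)) (L '' A) := by
    intro t ht
    induction t, ht using Set.Finite.induction_on with
    | empty =>
      intro _ A _ hA2
      have : A = ∅ := by
        rw [eq_empty_iff_forall_notMem]
        intro v hv
        obtain ⟨e, he, -⟩ := hA2 v hv
        exact he
      rw [this]
      simp
    | @insert e t _ _ ih =>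
      intro ht A hA hA2
      obtain ⟨C, hC⟩ : ∃ C : Set (RG.E n), C = {w | ‖(‖w‖)⁻¹ • w - e‖ ≤ ρ} := ⟨_, rfl⟩
      have hCm : MeasurableSet C := by
        rw [hC]
        exact measurableSet_le ((((measurable_norm.inv).smul measurable_id).sub_const e).norm)
          measurable_const
      have hCv : ∀ v, L v ∈ C ↔ ‖(dist z v)⁻¹ • L v - e‖ ≤ ρ := by
        intro v
        rw [hC, mem_setOf_eq, h.norm]
      have e1 := one e (ht e (mem_insert _ _)) (A ∩ L ⁻¹' C) (inter_subset_left.trans hA)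
        (fun v hv => (hCv v).1 hv.2)
      have e2 := ih (fun e' he' => ht e' (mem_insert_of_mem _ he')) (A \ L ⁻¹' C)
        (diff_subset.trans hA) (fun v hv => by
          obtain ⟨e', he', h5⟩ := hA2 v hv.1
          rcases he' with rfl | he'
          · exact absurd ((hCv v).2 h5) hv.2
          · exact ⟨e', he', h5⟩)
      rw [image_inter_pre] at e1
      rw [image_diff_pre] at e2
      calc (μH[n] : Measure M) A ≤ (μH[n] : Measure M) (A ∩ L ⁻¹' C)
            + (μH[n] : Measure M) (A \ L ⁻¹' C) := measure_le_inter_add_diff _ _ _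
        _ ≤ ENNReal.ofReal ((1 + ε) * c ^ (n - 1)) * (μH[n] : Measure (RG.E n)) (L '' A ∩ C)
            + ENNReal.ofReal ((1 + ε) * c ^ (n - 1)) *
              (μH[n] : Measure (RG.E n)) (L '' A \ C) := add_le_add e1 e2
        _ = _ := by rw [← mul_add, measure_inter_add_diff _ hCm]
  obtain ⟨t, hts, htf, htc⟩ := (isCompact_sphere (0 : RG.E n) 1).finite_cover_balls hρ
  refine many t htf (fun e he => by simpa using hts he) A hA fun v hv => ?_
  have hr : 0 < dist z v := by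
    have h5 := hA hv
    rw [mem_ball] at h5
    have h6 := dist_triangle z v x
    linarith
  have hu : (dist z v)⁻¹ • L v ∈ sphere (0 : RG.E n) 1 := by
    rw [mem_sphere_zero_iff_norm, norm_smul, h.norm, norm_inv, Real.norm_of_nonneg hr.le,
      inv_mul_cancel₀ hr.ne']
  obtain ⟨e, he, h7⟩ := mem_iUnion₂.1 (htc hu)
  refine ⟨e, he, ?_⟩
  rw [mem_ball, dist_eq_norm] at h7
  exact h7.le

end

end Vale.Agent.P233.H416.Reg
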