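import Vale.Agent.P233.Bd3.B4

/-! # P233, block B6err: the error terms of the Riccati identity (static part) -/

set_option linter.all false

open MeasureTheory Filter Topology
open scoped ENNReal NNReal

namespace Vale.Agent.P233.H416

variable {M : Type*} [MeasurableSpace M] {m : Measure M} {C : Calc m}
variable {h D L r w G : M →ₘ[m] ℝ} {κ c H R0 e A mm Λ : ℝ}

/-- `⟨dd h, w⟩ = ∫ w div (Δh ∇h + ½∇|∇h|²)` in the weak form -/
noncomputable def dd (C : Calc m) (h w : M →ₘ[m] ℝ) : ℝ :=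
  -I (C.lap h * C.Γ w h) - 2⁻¹ * I (C.Γ w (C.Γ h h))

/-- the lower bound of `dd h` -/
noncomputable def a1 (C : Calc m) (κ : ℝ) (h : M →ₘ[m] ℝ) : M →ₘ[m] ℝ :=
  C.lap h ^ 2 + (2 : ℝ) • C.Γ h (C.lap h) + κ • C.Γ h h

theorem lap_A (hC : IsGamma C) (hh : h ∈ C.TestI) : C.lap h ∈ C.A := hC.testI_lap_A' hh

theorem a1_mem1 (hC : IsGamma C) (hh : h ∈ C.TestI) : MemLp (a1 C κ h) 1 m := by
  have hW := (hC.test_A hh.1).1
  have lW := (lap_A hC hh).1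
  exact mem_add (mem_add (mem_sq (hC.memLp _ lW))
    (mem_smul _ (hC.toIsDir.Γ_mem1 hW lW))) (mem_smul _ (hC.mem1 _ hW))

theorem lap_top (hC : IsGamma C) (hh : h ∈ C.TestI) : MemLp (C.lap h) ∞ m := (lap_A hC hh).2

theorem mem2_of_1_top {F : M →ₘ[m] ℝ} (h1 : MemLp F 1 m) (h2 : MemLp F ∞ m) : MemLp F 2 m := by
  refine memLp_two_of_sq ?_
  rw [pow_two]
  exact mem_mul_top h2 h1

theorem a1_mem2 (hC : IsGamma C) (hh : h ∈ C.TestI) : MemLp (a1 C κ h) 2 m := by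
  have hW := (hC.test_A hh.1).1
  have lW := (lap_A hC hh).1
  have h1 : MemLp (C.lap h ^ 2 : M →ₘ[m] ℝ) 2 m := by
    rw [pow_two]; exact mem_mul_top (lap_top hC hh) (hC.memLp _ lW)
  exact mem_add (mem_add h1 (mem_smul _ (hC.toIsDir.Γ_mem2 hW (hC.test_Γ_top hh.1) lW)))
    (mem_smul _ (mem2_of_1_top (hC.mem1 _ hW) (hC.test_Γ_top hh.1)))

/-- integration by parts in `dd` -/
theorem dd_eq (hC : IsGamma C) (hB : C.BEi κ) (hh : h ∈ C.TestI) (hw : w ∈ C.A) :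
    dd C h w = I (w * (C.lap h ^ 2 + C.Γ h (C.lap h))) - 2⁻¹ * I (C.Γ w (C.Γ h h)) := by
  have hD := hC.toIsDir
  have hW := (hC.test_A hh.1).1
  have lA := lap_A hC hh
  have wl := hD.mul_mem_A hw lA
  have h1 := (hC.test_isLap hh.1).2.2 _ wl.1
  have h2 : C.Γ h (w * C.lap h) = w * C.Γ h (C.lap h) + C.lap h * C.Γ w h := by
    rw [hD.Γ_mul_right hw lA hW, hC.symm _ hw.1 _ hW]
  have m1 : MemLp (w * C.Γ h (C.lap h) : M →ₘ[m] ℝ) 1 m :=
    mem_mul_top hw.2 (hD.Γ_mem1 hW lA.1)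
  have m2 : MemLp (C.lap h * C.Γ w h : M →ₘ[m] ℝ) 1 m :=
    mem_mul_top lA.2 (hD.Γ_mem1 hw.1 hW)
  have m3 : MemLp (w * C.lap h ^ 2 : M →ₘ[m] ℝ) 1 m :=
    mem_mul_top hw.2 (mem_sq (hC.memLp _ lA.1))
  have h3 : I (w * C.Γ h (C.lap h)) + I (C.lap h * C.Γ w h) = -I (w * C.lap h ^ 2) := by
    rw [← I_add m1 m2, ← h2]
    refine h1.trans ?_
    have : C.lap h * (w * C.lap h) = w * C.lap h ^ 2 := by ring
    rw [this]; rfl
  unfold dd
  rw [mul_add, I_add m3 m1]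
  linarith

/-- the lower bound of `dd h`, tested with `0 ≤ w ∈ A` -/
theorem dd_ge (hC : IsGamma C) (hB : C.BEi κ) (hh : h ∈ C.TestI) (hw : w ∈ C.A) (h0 : 0 ≤ w) :
    I (w * a1 C κ h) ≤ dd C h w := by
  have hD := hC.toIsDir
  have hW := (hC.test_A hh.1).1
  have lA := lap_A hC hh
  have hN := hC.NN_nonneg hB hh.1 hw h0
  unfold Calc.NN at hN
  rw [dd_eq hC hB hh hw]
  have m1 : MemLp (w * C.Γ h (C.lap h) : M →ₘ[m] ℝ) 1 m := mem_mul_top hw.2 (hD.Γ_mem1 hW lA.1)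
  have m2 : MemLp (w * C.Γ h h : M →ₘ[m] ℝ) 1 m := mem_mul_top hw.2 (hC.mem1 _ hW)
  have m3 : MemLp (w * C.lap h ^ 2 : M →ₘ[m] ℝ) 1 m :=
    mem_mul_top hw.2 (mem_sq (hC.memLp _ lA.1))
  have e1 : w * (C.Γ h (C.lap h) + C.Γ h (C.lap h)) = (2 : ℝ) • (w * C.Γ h (C.lap h)) := by
    algebra
  have e2 : w * a1 C κ h = w * C.lap h ^ 2 + (2 : ℝ) • (w * C.Γ h (C.lap h))
      + κ • (w * C.Γ h h) := by
    unfold a1; algebra
  rw [e1, I_smul] at hN
  rw [e2, I_add (mem_add m3 (mem_smul _ m1)) (mem_smul _ m2), I_add m3 (mem_smul _ m1), I_smul,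
    I_smul, mul_add, I_add m3 m1]
  rw [hC.symm _ (hC.Γ_mem hB hh.1 hh.1).1 _ hw.1] at hN
  linarith

theorem cut_T2 (hC : IsGamma C) {χ : ℕ → M →ₘ[m] ℝ} (hχ : ∀ k, χ k ∈ C.Test)
    (hΓ : ∀ k, ∀ᵐ x ∂m, |C.Γ (χ k) (χ k) x| ≤ Λ * ((k : ℝ) + 1)⁻¹) (hG : G ∈ C.W) :
    T2 (fun n => C.Γ (χ n) G) 0 := by
  have hD := hC.toIsDir
  refine ⟨fun n => hD.Γ_mem2 (hC.test_A (hχ n)).1 (hC.test_Γ_top (hχ n)) hG, mem_zero, ?_⟩
  have l1 : Tendsto (fun n : ℕ => |Λ| * ((n : ℝ) + 1)⁻¹ * I (C.Γ G G)) atTop (𝓝 0) := by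
    simpa using (tendsto_inv_succ.const_mul |Λ|).mul_const (I (C.Γ G G))
  refine squeeze_zero (fun n => I_sq_nonneg _) (fun n => ?_) l1
  rw [sub_zero, ← I_smul]
  refine I_mono (mem_sq (hD.Γ_mem2 (hC.test_A (hχ n)).1 (hC.test_Γ_top (hχ n)) hG))
    (mem_smul _ (hC.mem1 _ hG)) ?_
  rw [le_iff_ae]
  filter_upwards [sq_ae (C.Γ (χ n) G), smul_ae (C.Γ G G) (|Λ| * ((n : ℝ) + 1)⁻¹),
    hD.Γ_cs_ae (hC.test_A (hχ n)).1 hG, hΓ n, hD.Γ_nonneg_ae hG,
    hD.Γ_nonneg_ae (hC.test_A (hχ n)).1] with x b1 b2 b3 b4 b5 b6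
  rw [b1, b2]
  refine b3.trans (mul_le_mul_of_nonneg_right ?_ b5)
  refine (le_abs_self _).trans (b4.trans ?_)
  exact mul_le_mul_of_nonneg_right (le_abs_self _) (by positivity)

/-- the lower bound of `dd h`, tested with `0 ≤ c + w`, `w ∈ A` -/
theorem dd_ge' (hC : IsGamma C) (hB : C.BEi κ) [SigmaFinite m] (hh : h ∈ C.TestI) (hw : w ∈ C.A)
    (h0 : ∀ᵐ x ∂m, 0 ≤ c + w x) :
    c * I (a1 C κ h) + I (w * a1 C κ h) ≤ dd C h w := by
  have hD := hC.toIsDir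
  have hW := (hC.test_A hh.1).1
  have lA := lap_A hC hh
  have GW := (hC.Γ_mem hB hh.1 hh.1).1
  obtain ⟨χ, Λ, x1, x2, x3, x4, x5, x6, x7⟩ := hC.exists_cut hB
  obtain ⟨K, hK⟩ := mem_top_iff.1 hw.2
  have hwk : ∀ k, c • χ k + χ k * w ∈ C.A := fun k =>
    hD.A_add (hD.A_smul _ (hC.test_A (x1 k))) (hD.mul_mem_A (hC.test_A (x1 k)) hw)
  have hpos : ∀ k, 0 ≤ c • χ k + χ k * w := by
    intro k
    rw [nonneg_iff_ae]
    filter_upwards [add_ae (c • χ k) (χ k * w), smul_ae (χ k) c, mul_ae (χ k) w, h0,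
      nonneg_iff_ae.1 (x2 k)] with x b1 b2 b3 b4 b5
    rw [b1, b2, b3]
    have : c * χ k x + χ k x * w x = χ k x * (c + w x) := by ring
    rw [this]; exact mul_nonneg b5 b4
  have hineq : ∀ k, I ((c • χ k + χ k * w) * a1 C κ h) ≤ dd C h (c • χ k + χ k * w) :=
    fun k => dd_ge hC hB hh (hwk k) (hpos k)
  -- bounded convergence
  have hb : ∀ F : M →ₘ[m] ℝ, MemLp F 1 m →
      Tendsto (fun k => I ((c • χ k + χ k * w) * F)) atTop (𝓝 (c * I F + I (w * F))) := by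
    intro F hF
    have e : c * I F + I (w * F) = I ((c • 1 + w) * F) := by
      have : (c • 1 + w) * F = c • F + w * F := by algebra
      rw [this, I_add (mem_smul _ hF) (mem_mul_top hw.2 hF), I_smul]
    rw [e]
    refine I_tendsto_of_bdd (K := |c| + K) (fun k => ?_) ?_ hF
    · filter_upwards [add_ae (c • χ k) (χ k * w), smul_ae (χ k) c, mul_ae (χ k) w, hK, x3 k]
        with x b1 b2 b3 b4 b5
      rw [b1, b2, b3]
      calc |c * χ k x + χ k x * w x| ≤ |c * χ k x| + |χ k x * w x| := abs_add_le _ _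
        _ ≤ |c| * 1 + 1 * K := by
          rw [abs_mul, abs_mul]
          exact add_le_add (mul_le_mul_of_nonneg_left b5 (abs_nonneg _))
            (mul_le_mul b5 b4 (abs_nonneg _) zero_le_one)
        _ = |c| + K := by ring
    · filter_upwards [ae_all_iff.2 fun n => add_ae (c • χ n) (χ n * w),
        ae_all_iff.2 fun n => smul_ae (χ n) c, ae_all_iff.2 fun n => mul_ae (χ n) w, x4,
        add_ae (c • (1 : M →ₘ[m] ℝ)) w, smul_ae (1 : M →ₘ[m] ℝ) c, one_ae (M := M) (m := m)]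
        with x b1 b2 b3 b4 b5 b6 b7
      rw [b5, b6, b7]
      have : ∀ n, (c • χ n + χ n * w : M →ₘ[m] ℝ) x = c * χ n x + χ n x * w x := by
        intro n
        rw [b1, b2, b3]
      simp only [this]
      simpa using (b4.const_mul c).add (b4.mul_const (w x))
  have l1 := hb _ (a1_mem1 (κ := κ) hC hh)
  -- the limit of `dd`
  have m0 : MemLp (C.lap h ^ 2 + C.Γ h (C.lap h) : M →ₘ[m] ℝ) 1 m :=
    mem_add (mem_sq (hC.memLp _ lA.1)) (hD.Γ_mem1 hW lA.1)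
  have l2 := hb _ m0
  have z0 : I (C.lap h ^ 2 + C.Γ h (C.lap h)) = 0 := by
    rw [I_add (mem_sq (hC.memLp _ lA.1)) (hD.Γ_mem1 hW lA.1), hC.Γ_lap_I hB hh.1]
    ring
  rw [z0, mul_zero, zero_add] at l2
  have l3 : Tendsto (fun k => I (C.Γ (c • χ k + χ k * w) (C.Γ h h))) atTop
      (𝓝 (I (C.Γ w (C.Γ h h)))) := by
    have e : ∀ k, I (C.Γ (c • χ k + χ k * w) (C.Γ h h)) = -(c * I (C.lap (χ k) * C.Γ h h))
        + (I (χ k * C.Γ w (C.Γ h h)) + I (w * C.Γ (χ k) (C.Γ h h))) := by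
      intro k
      have xA := hC.test_A (x1 k)
      rw [hC.add_left _ (hC.smul_mem _ _ xA.1) _ (hD.mul_mem_A xA hw).1 _ GW,
        hC.smul_left _ _ xA.1 _ GW, hD.Γ_mul_left xA hw GW]
      have m1 := hD.Γ_mem1 xA.1 GW
      have m2 : MemLp (χ k * C.Γ w (C.Γ h h) : M →ₘ[m] ℝ) 1 m :=
        mem_mul_top xA.2 (hD.Γ_mem1 hw.1 GW)
      have m3 : MemLp (w * C.Γ (χ k) (C.Γ h h) : M →ₘ[m] ℝ) 1 m := mem_mul_top hw.2 m1
      rw [I_add (mem_smul _ m1) (mem_add m2 m3), I_add m2 m3, I_smul]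
      have h3 := (hC.test_isLap (x1 k)).2.2 _ GW
      have h4 : I (C.Γ (χ k) (C.Γ h h)) = -I (C.lap (χ k) * C.Γ h h) := h3
      rw [h4]; ring
    simp only [e]
    have t1 : Tendsto (fun k => I (C.lap (χ k) * C.Γ h h)) atTop (𝓝 0) := by
      have := I_tendsto_of_bdd (u := fun k => C.lap (χ k)) (v := 0) (K := Λ) x5
        (by filter_upwards [x6, zero_ae (M := M) (m := m)] with x b1 b2
            rw [b2]; exact b1) (hC.mem1 _ hW)
      simpa [I_zero] using this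
    have t2 : Tendsto (fun k => I (χ k * C.Γ w (C.Γ h h))) atTop (𝓝 (I (C.Γ w (C.Γ h h)))) := by
      have := I_tendsto_of_bdd (u := χ) (v := 1) (K := 1) x3
        (by filter_upwards [x4, one_ae (M := M) (m := m)] with x b1 b2
            rw [b2]; exact b1) (hD.Γ_mem1 hw.1 GW)
      simpa using this
    have t3 : Tendsto (fun k => I (w * C.Γ (χ k) (C.Γ h h))) atTop (𝓝 0) := by
      have := (T2.const (hC.memLp _ hw.1)).mul_lim (cut_T2 hC x1 x7 GW)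
      simpa [I_zero] using this
    have := ((t1.const_mul c).neg).add (t2.add t3)
    simpa using this
  have l4 : Tendsto (fun k => dd C h (c • χ k + χ k * w)) atTop (𝓝 (dd C h w)) := by
    have e : ∀ k, dd C h (c • χ k + χ k * w)
        = I ((c • χ k + χ k * w) * (C.lap h ^ 2 + C.Γ h (C.lap h)))
          - 2⁻¹ * I (C.Γ (c • χ k + χ k * w) (C.Γ h h)) := fun k => dd_eq hC hB hh (hwk k)
    simp only [e]
    rw [dd_eq hC hB hh hw]
    exact l2.sub (l3.const_mul _)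
  exact le_of_tendsto_of_tendsto' l1 l4 hineq

/-! ### real integrals -/

section real

variable {f g : M → ℝ}

theorem cs_int (hf : MemLp f 2 m) (hg : MemLp g 2 m) :
    ∫ x, f x * g x ∂m ≤ √(∫ x, f x ^ 2 ∂m) * √(∫ x, g x ^ 2 ∂m) := by
  have i1 : Integrable (fun x => f x ^ 2) m := hf.integrable_sq
  have i2 : Integrable (fun x => g x ^ 2) m := hg.integrable_sq
  have i3 : Integrable (fun x => f x * g x) m := hf.integrable_mul hg
  have h : (∫ x, f x * g x ∂m) ^ 2 ≤ (∫ x, f x ^ 2 ∂m) * ∫ x, g x ^ 2 ∂m := by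
    refine disc_of_forall fun t => ?_
    have e : ∀ x, (f x + t * g x) ^ 2 = f x ^ 2 + 2 * t * (f x * g x) + t ^ 2 * g x ^ 2 :=
      fun x => by ring
    have : 0 ≤ ∫ x, (f x + t * g x) ^ 2 ∂m := integral_nonneg fun x => sq_nonneg _
    simp only [e] at this
    rwa [integral_add (f := fun x => f x ^ 2 + 2 * t * (f x * g x)) (i1.add (i3.const_mul _))
      (i2.const_mul _), integral_add i1 (i3.const_mul _), integral_const_mul,
      integral_const_mul] at this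
  rw [← Real.sqrt_mul (integral_nonneg fun x => sq_nonneg _)]
  exact Real.le_sqrt_of_sq_le h

end real

/-- data of the test function `h`, with a bound `D` of its Hessian -/
structure HD (C : Calc m) (h D : M →ₘ[m] ℝ) (H : ℝ) : Prop where
  test : h ∈ C.TestI
  H0 : 0 ≤ H
  gr : ∀ᵐ x ∂m, C.Γ h h x ≤ H ^ 2
  lp : ∀ᵐ x ∂m, |C.lap h x| ≤ H
  D0 : 0 ≤ D
  D2 : MemLp D 2 m
  hd : ∀ f ∈ C.Test, ∀ g ∈ C.Test, ∀ᵐ x ∂m,
    |C.hess h f g x| ≤ D x * (√(C.Γ f f x) * √(C.Γ g g x))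

/-- data of the density `ρ = 1 + r`, with `∇ρ = ρ ∇L` -/
structure RD (C : Calc m) (L r : M →ₘ[m] ℝ) (R0 : ℝ) : Prop where
  tL : L ∈ C.TestI
  tr : r ∈ C.TestI
  R1 : 1 ≤ R0
  pos : ∀ᵐ x ∂m, 0 ≤ 1 + r x ∧ 1 + r x ≤ R0
  gr : ∀ g ∈ C.W, C.Γ r g = (1 + r) * C.Γ L g

/-- `⟨V, Δh X + ∇_X X⟩` -/
noncomputable def Zf (C : Calc m) (h L : M →ₘ[m] ℝ) : M →ₘ[m] ℝ :=
  C.lap h * C.Γ L h + (2 : ℝ)⁻¹ • C.Γ L (C.Γ h h)

/-- the error functional `K_t` -/
noncomputable def Kt (C : Calc m) (h L r : M →ₘ[m] ℝ) : ℝ :=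
  -dd C h ((1 + r) * C.lap L) - 2 * I ((1 + r) * (C.lap L * Zf C h L))
    - I ((1 + r) * (C.Γ L L * Zf C h L)) + 2 * I ((1 + r) * (C.Γ L h * C.hess h L L))

/-- `E|V|²` -/
noncomputable def E2 (C : Calc m) (L r : M →ₘ[m] ℝ) : ℝ := I ((1 + r) * C.Γ L L)
/-- `E|V|⁴` -/
noncomputable def E4 (C : Calc m) (L r : M →ₘ[m] ℝ) : ℝ := I ((1 + r) * C.Γ L L ^ 2)
/-- `E(ΔL)²` -/
noncomputable def Eq2 (C : Calc m) (L r : M →ₘ[m] ℝ) : ℝ := I ((1 + r) * C.lap L ^ 2)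

/-- the tail of `D` -/
noncomputable def tail (D : M →ₘ[m] ℝ) (Λ : ℝ) : ℝ := ∫ x, (if Λ < D x then D x else 0) ^ 2 ∂m

section pw

/-- the pointwise bound -/
theorem pw {ρ V q D H e A Λ z Γh hs : ℝ} (hρ : 0 ≤ ρ) (hV : 0 ≤ V) (hD : 0 ≤ D) (hH : 0 ≤ H)
    (he : 0 < e) (hA : e * V ≤ A) (hΛ : 0 ≤ Λ) (hz : |z| ≤ H * (V * (H + D)))
    (hΓ : |Γh| ≤ V * H) (hhs : |hs| ≤ D * V ^ 2) :
    e ^ 2 * (ρ * (-(2 * (q * z)) - V ^ 2 * z + 2 * (Γh * hs)))
      ≤ H * (e ^ 2 * (H + Λ) * (ρ * (V * (2 * |q| + 3 * V ^ 2)))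
        + e * A * (ρ * ((if Λ < D then D else 0) * (2 * |q| + 3 * V ^ 2)))) := by
  have hA0 : 0 ≤ A := le_trans (by positivity) hA
  have hS : 0 ≤ 2 * |q| + 3 * V ^ 2 := by positivity
  have a1 : -(q * z) ≤ |q| * (H * (V * (H + D))) := by
    refine (neg_le_abs _).trans ?_
    rw [abs_mul]
    exact mul_le_mul_of_nonneg_left hz (abs_nonneg _)
  have a2 : -(V ^ 2 * z) ≤ V ^ 2 * (H * (V * (H + D))) := by
    refine (neg_le_abs _).trans ?_
    rw [abs_mul, abs_of_nonneg (sq_nonneg V)]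
    exact mul_le_mul_of_nonneg_left hz (sq_nonneg _)
  have a3 : Γh * hs ≤ V * H * (D * V ^ 2) := by
    refine (le_abs_self _).trans ?_
    rw [abs_mul]
    exact mul_le_mul hΓ hhs (abs_nonneg _) (by positivity)
  have a4 : -(2 * (q * z)) - V ^ 2 * z + 2 * (Γh * hs)
      ≤ H * (V * (H + D)) * (2 * |q| + 3 * V ^ 2) := by
    have : V * H * (D * V ^ 2) ≤ V ^ 2 * (H * (V * (H + D))) := by
      have : 0 ≤ V ^ 3 * H * H := by positivity
      nlinarith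
    nlinarith
  have a5 : e ^ 2 * (V * (H + D)) ≤ e ^ 2 * (H + Λ) * V + e * A * (if Λ < D then D else 0) := by
    split_ifs with hc
    · have h1 : e * (e * V) * D ≤ e * A * D := by
        refine mul_le_mul_of_nonneg_right (mul_le_mul_of_nonneg_left hA he.le) hD
      have h2 : 0 ≤ e ^ 2 * Λ * V := by positivity
      nlinarith
    · push Not at hc
      have : e ^ 2 * V * D ≤ e ^ 2 * V * Λ := mul_le_mul_of_nonneg_left hc (by positivity)
      nlinarith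
  calc e ^ 2 * (ρ * (-(2 * (q * z)) - V ^ 2 * z + 2 * (Γh * hs)))
      ≤ e ^ 2 * (ρ * (H * (V * (H + D)) * (2 * |q| + 3 * V ^ 2))) := by
        refine mul_le_mul_of_nonneg_left (mul_le_mul_of_nonneg_left a4 hρ) (sq_nonneg _)
    _ = (H * ρ * (2 * |q| + 3 * V ^ 2)) * (e ^ 2 * (V * (H + D))) := by ring
    _ ≤ (H * ρ * (2 * |q| + 3 * V ^ 2))
        * (e ^ 2 * (H + Λ) * V + e * A * (if Λ < D then D else 0)) :=
        mul_le_mul_of_nonneg_left a5 (by positivity)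
    _ = _ := by ring

end pw

section static

theorem RD.meas (r : M →ₘ[m] ℝ) : AEStronglyMeasurable (fun x => √(1 + r x)) m :=
  (Real.continuous_sqrt.comp (continuous_const.add continuous_id)).comp_aestronglyMeasurable
    r.aestronglyMeasurable

theorem RD.wmem (hr : RD C L r R0) {F : M → ℝ} (hF : MemLp F 2 m) :
    MemLp (fun x => √(1 + r x) * F x) 2 m := by
  refine hF.of_le_mul (c := √R0) ((RD.meas r).mul hF.1) ?_
  filter_upwards [hr.pos] with x hx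
  rw [norm_mul, Real.norm_of_nonneg (Real.sqrt_nonneg _)]
  exact mul_le_mul_of_nonneg_right (Real.sqrt_le_sqrt hx.2) (norm_nonneg _)

theorem RD.wsq (hr : RD C L r R0) (F : M → ℝ) :
    ∫ x, (√(1 + r x) * F x) ^ 2 ∂m = ∫ x, (1 + r x) * F x ^ 2 ∂m := by
  refine integral_congr_ae ?_
  filter_upwards [hr.pos] with x hx
  show (√(1 + r x) * F x) ^ 2 = _
  rw [mul_pow, Real.sq_sqrt hx.1]

/-- weighted Cauchy–Schwarz -/
theorem RD.cs (hr : RD C L r R0) {F G : M → ℝ} (hF : MemLp F 2 m) (hG : MemLp G 2 m) :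
    ∫ x, (1 + r x) * (F x * G x) ∂m
      ≤ √(∫ x, (1 + r x) * F x ^ 2 ∂m) * √(∫ x, (1 + r x) * G x ^ 2 ∂m) := by
  have h1 := cs_int (hr.wmem hF) (hr.wmem hG)
  rw [hr.wsq, hr.wsq] at h1
  refine le_trans (le_of_eq ?_) h1
  refine integral_congr_ae ?_
  filter_upwards [hr.pos] with x hx
  show _ = √(1 + r x) * F x * (√(1 + r x) * G x)
  have : √(1 + r x) * √(1 + r x) = 1 + r x := Real.mul_self_sqrt hx.1
  calc (1 + r x) * (F x * G x) = √(1 + r x) * √(1 + r x) * (F x * G x) := by rw [this]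
    _ = _ := by ring

theorem RD.int (hr : RD C L r R0) {F : M → ℝ} (hF : Integrable F m) :
    Integrable (fun x => (1 + r x) * F x) m := by
  refine Integrable.bdd_mul hF
    ((continuous_const.add continuous_id).comp_aestronglyMeasurable r.aestronglyMeasurable)
    (c := R0) ?_
  filter_upwards [hr.pos] with x hx
  show ‖1 + r x‖ ≤ R0
  rw [Real.norm_of_nonneg hx.1]; exact hx.2

theorem RD.le_R (hr : RD C L r R0) {F : M → ℝ} (hF : Integrable F m) (h0 : ∀ᵐ x ∂m, 0 ≤ F x) :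
    ∫ x, (1 + r x) * F x ∂m ≤ R0 * ∫ x, F x ∂m := by
  rw [← integral_const_mul]
  refine integral_mono_ae (hr.int hF) (hF.const_mul _) ?_
  filter_upwards [hr.pos, h0] with x hx hx0
  exact mul_le_mul_of_nonneg_right hx.2 hx0

/-- a class of the form `(1 + r) F` -/
theorem RD.I_eq (r F : M →ₘ[m] ℝ) : I ((1 + r) * F) = ∫ x, (1 + r x) * F x ∂m := by
  refine integral_congr_ae ?_
  filter_upwards [mul_ae (1 + r) F, add_ae 1 r, one_ae (M := M) (m := m)] with x b1 b2 b3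
  rw [b1, b2, b3]

theorem RD.top (hr : RD C L r R0) : MemLp (1 + r : M →ₘ[m] ℝ) ∞ m := by
  refine mem_top_iff.2 ⟨R0, ?_⟩
  filter_upwards [hr.pos, add_ae 1 r, one_ae (M := M) (m := m)] with x hx b2 b3
  rw [b2, b3, abs_of_nonneg hx.1]; exact hx.2

theorem Z_mem2 (hC : IsGamma C) (hB : C.BEi κ) (hh : h ∈ C.TestI) (hL : L ∈ C.TestI) :
    MemLp (Zf C h L) 2 m := by
  have hD := hC.toIsDir
  have hW := (hC.test_A hh.1).1
  have LW := (hC.test_A hL.1).1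
  exact mem_add (mem_mul_top (lap_top hC hh) (hD.Γ_mem2 LW (hC.test_Γ_top hL.1) hW))
    (mem_smul _ (hD.Γ_mem2 LW (hC.test_Γ_top hL.1) (hC.Γ_mem hB hh.1 hh.1).1))

theorem Z_bd (hC : IsGamma C) (hB : C.BEi κ) (hh : HD C h D H) (hL : L ∈ C.TestI) :
    ∀ᵐ x ∂m, |Zf C h L x| ≤ H * (√(C.Γ L L x) * (H + D x)) := by
  have hD := hC.toIsDir
  have hW := (hC.test_A hh.test.1).1
  have LW := (hC.test_A hL.1).1
  have e1 : (2 : ℝ)⁻¹ • C.Γ L (C.Γ h h) = C.hess h h L := by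
    unfold Calc.hess
    algebra
  have e2 : Zf C h L = C.lap h * C.Γ L h + C.hess h h L := by
    unfold Zf; rw [e1]
  rw [e2]
  filter_upwards [add_ae (C.lap h * C.Γ L h) (C.hess h h L), mul_ae (C.lap h) (C.Γ L h),
    hh.lp, hh.gr, hh.hd _ hh.test.1 _ hL.1, hD.Γ_abs_ae LW hW, nonneg_iff_ae.1 hh.D0]
    with x b1 b2 b3 b4 b5 b6 b7
  rw [b1, b2]
  have g1 : √(C.Γ h h x) ≤ H := Real.sqrt_le_iff.2 ⟨hh.H0, b4⟩
  refine (abs_add_le _ _).trans ?_
  rw [abs_mul]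
  have c1 : |C.lap h x| * |C.Γ L h x| ≤ H * (√(C.Γ L L x) * H) :=
    mul_le_mul b3 (b6.trans (mul_le_mul_of_nonneg_left g1 (Real.sqrt_nonneg _))) (abs_nonneg _)
      hh.H0
  have c2 : |C.hess h h L x| ≤ D x * (H * √(C.Γ L L x)) :=
    b5.trans (mul_le_mul_of_nonneg_left (mul_le_mul_of_nonneg_right g1 (Real.sqrt_nonneg _)) b7)
  calc _ ≤ H * (√(C.Γ L L x) * H) + D x * (H * √(C.Γ L L x)) := add_le_add c1 c2
    _ = _ := by ring

theorem V_mem2 (hC : IsGamma C) (hL : L ∈ C.TestI) : MemLp (fun x => √(C.Γ L L x)) 2 m := by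
  have LW := (hC.test_A hL.1).1
  rw [memLp_two_iff_integrable_sq (Real.continuous_sqrt.comp_aestronglyMeasurable
    (C.Γ L L).aestronglyMeasurable)]
  refine (int_of_mem (hC.mem1 _ LW)).congr ?_
  filter_upwards [hC.toIsDir.Γ_nonneg_ae LW] with x hx
  rw [Real.sq_sqrt hx]

theorem hess_mem2 (hC : IsGamma C) (hB : C.BEi κ) (hh : h ∈ C.Test) (hL : L ∈ C.Test) :
    MemLp (C.hess h L L) 2 m := by
  have hD := hC.toIsDir
  have hW := (hC.test_A hh).1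
  have LW := (hC.test_A hL).1
  have t := hC.test_Γ_top hL
  have t' := hC.test_Γ_top hh
  exact mem_smul _ (mem_sub (mem_add (hD.Γ_mem2 LW t (hC.Γ_mem hB hh hL).1)
    (hD.Γ_mem2 LW t (hC.Γ_mem hB hh hL).1)) (hD.Γ_mem2 hW t' (hC.Γ_mem hB hL hL).1))

/-- `2|ΔL| + 3|V|²` -/
noncomputable def Sf (C : Calc m) (L : M →ₘ[m] ℝ) (x : M) : ℝ := 2 * |C.lap L x| + 3 * C.Γ L L x

theorem S_mem2 (hC : IsGamma C) (hL : L ∈ C.TestI) : MemLp (Sf C L) 2 m := by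
  have LW := (hC.test_A hL.1).1
  have h1 : MemLp (fun x => 2 * |C.lap L x|) 2 m :=
    (hC.memLp _ (lap_A hC hL).1).abs.const_mul 2
  have h2 : MemLp (fun x => 3 * C.Γ L L x) 2 m :=
    (mem2_of_1_top (hC.mem1 _ LW) (hC.test_Γ_top hL.1)).const_mul 3
  exact h1.add h2

theorem S_sq (hC : IsGamma C) (hr : RD C L r R0) :
    ∫ x, (1 + r x) * Sf C L x ^ 2 ∂m ≤ 8 * Eq2 C L r + 18 * E4 C L r := by
  have LW := (hC.test_A hr.tL.1).1
  have m1 := mem_sq (hC.memLp _ (lap_A hC hr.tL).1)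
  have m2 := mem_sq (mem2_of_1_top (hC.mem1 _ LW) (hC.test_Γ_top hr.tL.1))
  have i1 := hr.int (int_of_mem m1)
  have i2 := hr.int (int_of_mem m2)
  unfold Eq2 E4
  rw [RD.I_eq, RD.I_eq, ← integral_const_mul, ← integral_const_mul,
    ← integral_add (i1.const_mul _) (i2.const_mul _)]
  refine integral_mono_ae (hr.int (S_mem2 hC hr.tL).integrable_sq)
    ((i1.const_mul _).add (i2.const_mul _)) ?_
  filter_upwards [hr.pos, sq_ae (C.lap L), sq_ae (C.Γ L L)] with x hx b1 b2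
  simp only [b1, b2, Pi.add_apply]
  have : Sf C L x ^ 2 ≤ 8 * C.lap L x ^ 2 + 18 * C.Γ L L x ^ 2 := by
    unfold Sf
    have := sq_abs (C.lap L x)
    nlinarith [sq_nonneg (2 * |C.lap L x| - 3 * C.Γ L L x)]
  nlinarith [mul_le_mul_of_nonneg_left this hx.1]

/-- the first three terms of `K_t` -/
theorem main_bound (hC : IsGamma C) (hB : C.BEi κ) (hh : HD C h D H) (hr : RD C L r R0)
    (he : 0 < e) (hA0 : 0 ≤ A) (hA : ∀ᵐ x ∂m, e ^ 2 * C.Γ L L x ≤ A ^ 2) (hΛ : 0 ≤ Λ) :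
    e ^ 2 * (-(2 * I ((1 + r) * (C.lap L * Zf C h L)))
      - I ((1 + r) * (C.Γ L L * Zf C h L)) + 2 * I ((1 + r) * (C.Γ L h * C.hess h L L)))
    ≤ H * (e ^ 2 * (H + Λ) * (√(E2 C L r) * √(8 * Eq2 C L r + 18 * E4 C L r))
      + e * A * (√(R0 * tail D Λ) * √(8 * Eq2 C L r + 18 * E4 C L r))) := by
  have hD := hC.toIsDir
  have hW := (hC.test_A hh.test.1).1
  have LW := (hC.test_A hr.tL.1).1
  have Z2 := Z_mem2 hC hB hh.test hr.tL
  have q2 := hC.memLp _ (lap_A hC hr.tL).1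
  have G2 := mem2_of_1_top (hC.mem1 _ LW) (hC.test_Γ_top hr.tL.1)
  have i1 : MemLp ((1 + r) * (C.lap L * Zf C h L) : M →ₘ[m] ℝ) 1 m :=
    mem_mul_top hr.top (mem_mul_22 q2 Z2)
  have i2 : MemLp ((1 + r) * (C.Γ L L * Zf C h L) : M →ₘ[m] ℝ) 1 m :=
    mem_mul_top hr.top (mem_mul_22 G2 Z2)
  have i3 : MemLp ((1 + r) * (C.Γ L h * C.hess h L L) : M →ₘ[m] ℝ) 1 m :=
    mem_mul_top hr.top (mem_mul_22 (hD.Γ_mem2 LW (hC.test_Γ_top hr.tL.1) hW)
      (hess_mem2 hC hB hh.test.1 hr.tL.1))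
  have eT : e ^ 2 * (-(2 * I ((1 + r) * (C.lap L * Zf C h L)))
      - I ((1 + r) * (C.Γ L L * Zf C h L)) + 2 * I ((1 + r) * (C.Γ L h * C.hess h L L)))
      = I (e ^ 2 • (-((2 : ℝ) • ((1 + r) * (C.lap L * Zf C h L)))
      - (1 + r) * (C.Γ L L * Zf C h L) + (2 : ℝ) • ((1 + r) * (C.Γ L h * C.hess h L L)))) := by
    rw [I_smul, I_add (mem_sub (mem_neg (mem_smul _ i1)) i2) (mem_smul _ i3),
      I_sub (mem_neg (mem_smul _ i1)) i2, I_neg, I_smul, I_smul]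
  have iT : MemLp (e ^ 2 • (-((2 : ℝ) • ((1 + r) * (C.lap L * Zf C h L)))
      - (1 + r) * (C.Γ L L * Zf C h L) + (2 : ℝ) • ((1 + r) * (C.Γ L h * C.hess h L L))) :
      M →ₘ[m] ℝ) 1 m :=
    mem_smul _ (mem_add (mem_sub (mem_neg (mem_smul _ i1)) i2) (mem_smul _ i3))
  set Dt : M → ℝ := fun x => if Λ < D x then D x else 0 with hDt
  have Dtm : MemLp Dt 2 m := by
    refine MemLp.of_le hh.D2 ?_ ?_
    · refine AEMeasurable.aestronglyMeasurable ?_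
      have : Measurable fun t : ℝ => if Λ < t then t else 0 :=
        Measurable.ite measurableSet_Ioi measurable_id measurable_const
      exact this.comp_aemeasurable D.aestronglyMeasurable.aemeasurable
    · refine Eventually.of_forall fun x => ?_
      simp only [hDt]
      split_ifs
      · exact le_rfl
      · simp
  have V2 := V_mem2 hC hr.tL
  have S2 := S_mem2 hC hr.tL
  have j1 : Integrable (fun x => (1 + r x) * (√(C.Γ L L x) * Sf C L x)) m :=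
    hr.int (V2.integrable_mul S2)
  have j2 : Integrable (fun x => (1 + r x) * (Dt x * Sf C L x)) m :=
    hr.int (Dtm.integrable_mul S2)
  have k1 := hr.cs V2 S2
  have k2 := hr.cs Dtm S2
  rw [eT]
  have step : I (e ^ 2 • (-((2 : ℝ) • ((1 + r) * (C.lap L * Zf C h L)))
      - (1 + r) * (C.Γ L L * Zf C h L) + (2 : ℝ) • ((1 + r) * (C.Γ L h * C.hess h L L))))
      ≤ ∫ x, H * (e ^ 2 * (H + Λ) * ((1 + r x) * (√(C.Γ L L x) * Sf C L x))
        + e * A * ((1 + r x) * (Dt x * Sf C L x))) ∂m := by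
    refine integral_mono_ae (int_of_mem iT)
      (((j1.const_mul (e ^ 2 * (H + Λ))).add (j2.const_mul (e * A))).const_mul H) ?_
    filter_upwards [smul_ae (-((2 : ℝ) • ((1 + r) * (C.lap L * Zf C h L)))
      - (1 + r) * (C.Γ L L * Zf C h L) + (2 : ℝ) • ((1 + r) * (C.Γ L h * C.hess h L L))) (e ^ 2),
      add_ae (-((2 : ℝ) • ((1 + r) * (C.lap L * Zf C h L)))
      - (1 + r) * (C.Γ L L * Zf C h L)) ((2 : ℝ) • ((1 + r) * (C.Γ L h * C.hess h L L))),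
      sub_ae (-((2 : ℝ) • ((1 + r) * (C.lap L * Zf C h L)))) ((1 + r) * (C.Γ L L * Zf C h L)),
      neg_ae ((2 : ℝ) • ((1 + r) * (C.lap L * Zf C h L))),
      smul_ae ((1 + r) * (C.lap L * Zf C h L)) 2,
      smul_ae ((1 + r) * (C.Γ L h * C.hess h L L)) 2,
      mul_ae (1 + r) (C.lap L * Zf C h L), mul_ae (1 + r) (C.Γ L L * Zf C h L),
      mul_ae (1 + r) (C.Γ L h * C.hess h L L), mul_ae (C.lap L) (Zf C h L),
      mul_ae (C.Γ L L) (Zf C h L), mul_ae (C.Γ L h) (C.hess h L L), add_ae 1 r,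
      one_ae (M := M) (m := m), Z_bd hC hB hh hr.tL, hh.hd _ hr.tL.1 _ hr.tL.1,
      hD.Γ_abs_ae LW hW, hh.gr, hr.pos, hD.Γ_nonneg_ae LW, nonneg_iff_ae.1 hh.D0, hA]
      with x b1 b2 b3 b4 b5 b6 b7 b8 b9 b10 b11 b12 b13 b14 c1 c2 c3 c4 c5 c6 c7 c8
    rw [b1, b2, b3, b4, b5, b6, b7, b8, b9, b10, b11, b12, b13, b14]
    have v2 : √(C.Γ L L x) ^ 2 = C.Γ L L x := Real.sq_sqrt c6
    have g1 : √(C.Γ h h x) ≤ H := Real.sqrt_le_iff.2 ⟨hh.H0, c4⟩
    have eV : e * √(C.Γ L L x) ≤ A := by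
      refine abs_le_of_sq_le_sq' ?_ hA0 |>.2
      rw [mul_pow, v2]; exact c8
    have c2' : |C.hess h L L x| ≤ D x * √(C.Γ L L x) ^ 2 := by
      rw [v2]
      rwa [Real.mul_self_sqrt c6] at c2
    have := pw c5.1 (Real.sqrt_nonneg (C.Γ L L x)) c7 hh.H0 he eV hΛ (q := C.lap L x) c1
      (c3.trans (mul_le_mul_of_nonneg_left g1 (Real.sqrt_nonneg _))) c2'
    rw [v2] at this
    refine le_trans (le_of_eq ?_) this
    ring
  refine step.trans ?_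
  rw [integral_const_mul, integral_add (j1.const_mul _) (j2.const_mul _), integral_const_mul,
    integral_const_mul]
  have s1 : √(∫ x, (1 + r x) * Sf C L x ^ 2 ∂m) ≤ √(8 * Eq2 C L r + 18 * E4 C L r) :=
    Real.sqrt_le_sqrt (S_sq hC hr)
  have s2 : (∫ x, (1 + r x) * √(C.Γ L L x) ^ 2 ∂m) = E2 C L r := by
    unfold E2
    rw [RD.I_eq]
    refine integral_congr_ae ?_
    filter_upwards [hD.Γ_nonneg_ae LW] with x hx
    rw [Real.sq_sqrt hx]
  have s3 : ∫ x, (1 + r x) * Dt x ^ 2 ∂m ≤ R0 * tail D Λ :=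
    hr.le_R Dtm.integrable_sq (Eventually.of_forall fun x => sq_nonneg _)
  have t1 : ∫ x, (1 + r x) * (√(C.Γ L L x) * Sf C L x) ∂m
      ≤ √(E2 C L r) * √(8 * Eq2 C L r + 18 * E4 C L r) := by
    rw [← s2]
    exact k1.trans (mul_le_mul_of_nonneg_left s1 (Real.sqrt_nonneg _))
  have t2 : ∫ x, (1 + r x) * (Dt x * Sf C L x) ∂m
      ≤ √(R0 * tail D Λ) * √(8 * Eq2 C L r + 18 * E4 C L r) :=
    k2.trans (mul_le_mul (Real.sqrt_le_sqrt s3) s1 (Real.sqrt_nonneg _) (Real.sqrt_nonneg _))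
  have hH := hh.H0
  refine mul_le_mul_of_nonneg_left (add_le_add ?_ ?_) hH
  · exact mul_le_mul_of_nonneg_left t1 (by positivity)
  · exact mul_le_mul_of_nonneg_left t2 (by positivity)

theorem Z_bd' (hC : IsGamma C) (hB : C.BEi κ) (hh : HD C h D H) (hL : L ∈ C.TestI) :
    ∀ᵐ x ∂m, |Zf C h L x| ≤ √(C.Γ L L x) * (H * (|C.lap h x| + D x)) := by
  have hD := hC.toIsDir
  have hW := (hC.test_A hh.test.1).1
  have LW := (hC.test_A hL.1).1
  have e1 : (2 : ℝ)⁻¹ • C.Γ L (C.Γ h h) = C.hess h h L := by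
    unfold Calc.hess
    algebra
  have e2 : Zf C h L = C.lap h * C.Γ L h + C.hess h h L := by
    unfold Zf; rw [e1]
  rw [e2]
  filter_upwards [add_ae (C.lap h * C.Γ L h) (C.hess h h L), mul_ae (C.lap h) (C.Γ L h),
    hh.gr, hh.hd _ hh.test.1 _ hL.1, hD.Γ_abs_ae LW hW, nonneg_iff_ae.1 hh.D0]
    with x b1 b2 b4 b5 b6 b7
  rw [b1, b2]
  have g1 : √(C.Γ h h x) ≤ H := Real.sqrt_le_iff.2 ⟨hh.H0, b4⟩
  refine (abs_add_le _ _).trans ?_
  rw [abs_mul]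
  have c1 : |C.lap h x| * |C.Γ L h x| ≤ |C.lap h x| * (√(C.Γ L L x) * H) :=
    mul_le_mul_of_nonneg_left (b6.trans (mul_le_mul_of_nonneg_left g1 (Real.sqrt_nonneg _)))
      (abs_nonneg _)
  have c2 : |C.hess h h L x| ≤ D x * (H * √(C.Γ L L x)) :=
    b5.trans (mul_le_mul_of_nonneg_left (mul_le_mul_of_nonneg_right g1 (Real.sqrt_nonneg _)) b7)
  calc _ ≤ |C.lap h x| * (√(C.Γ L L x) * H) + D x * (H * √(C.Γ L L x)) := add_le_add c1 c2
    _ = _ := by ring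

/-- `dd` of the density -/
theorem dd_r (hC : IsGamma C) (hB : C.BEi κ) (hh : HD C h D H) (hr : RD C L r R0) :
    dd C h r ≤ √(E2 C L r) * √(R0 * (H ^ 2 * (2 * I (C.lap h ^ 2) + 2 * I (D ^ 2)))) := by
  have hD := hC.toIsDir
  have hW := (hC.test_A hh.test.1).1
  have LW := (hC.test_A hr.tL.1).1
  have GW := (hC.Γ_mem hB hh.test.1 hh.test.1).1
  have Z2 := Z_mem2 hC hB hh.test hr.tL
  have t := hC.test_Γ_top hr.tL.1
  have tt := hC.test_Γ_top hr.tr.1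
  have rW := (hC.test_A hr.tr.1).1
  -- `dd r` is `-∫ ρ Z`
  have e1 : dd C h r = ∫ x, -((1 + r x) * Zf C h L x) ∂m := by
    have m1 : MemLp (C.lap h * C.Γ r h : M →ₘ[m] ℝ) 1 m :=
      mem_mul_22 (hC.memLp _ (lap_A hC hh.test).1) (hD.Γ_mem2 rW tt hW)
    have m2 : MemLp ((2 : ℝ)⁻¹ • C.Γ r (C.Γ h h) : M →ₘ[m] ℝ) 1 m :=
      mem_smul _ (hD.Γ_mem1 rW GW)
    unfold dd
    rw [← I_smul, ← I_neg, ← I_sub (mem_neg m1) m2]
    refine integral_congr_ae ?_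
    filter_upwards [sub_ae (-(C.lap h * C.Γ r h)) ((2 : ℝ)⁻¹ • C.Γ r (C.Γ h h)),
      neg_ae (C.lap h * C.Γ r h), mul_ae (C.lap h) (C.Γ r h), smul_ae (C.Γ r (C.Γ h h)) (2 : ℝ)⁻¹,
      eq_iff_ae.1 (hr.gr _ hW), eq_iff_ae.1 (hr.gr _ GW), mul_ae (1 + r) (C.Γ L h),
      mul_ae (1 + r) (C.Γ L (C.Γ h h)), add_ae 1 r, one_ae (M := M) (m := m),
      add_ae (C.lap h * C.Γ L h) ((2 : ℝ)⁻¹ • C.Γ L (C.Γ h h)), mul_ae (C.lap h) (C.Γ L h),
      smul_ae (C.Γ L (C.Γ h h)) (2 : ℝ)⁻¹]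
      with x b1 b2 b3 b4 b5 b6 b7 b8 b9 b10 b11 b12 b13
    rw [b1, b2, b3, b4, b5, b6, b7, b8, b9, b10]
    unfold Zf
    rw [b11, b12, b13]
    ring
  have F2 : MemLp (fun x => H * (|C.lap h x| + D x)) 2 m :=
    (((hC.memLp _ (lap_A hC hh.test).1).abs).add hh.D2).const_mul H
  have V2 := V_mem2 hC hr.tL
  have i1 : Integrable (fun x => (1 + r x) * Zf C h L x) m := by
    have hZ : MemLp ((1 + r) * Zf C h L : M →ₘ[m] ℝ) 1 m := by
      -- `Z = hess + lap * Γ` is in `L¹`: product of `L²` functions up to the weight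
      have e3 : (1 + r) * Zf C h L = C.lap h * C.Γ r h + (2 : ℝ)⁻¹ • C.Γ r (C.Γ h h) := by
        rw [hr.gr _ hW, hr.gr _ GW]
        unfold Zf
        algebra
      rw [e3]
      exact mem_add (mem_mul_22 (hC.memLp _ (lap_A hC hh.test).1) (hD.Γ_mem2 rW tt hW))
        (mem_smul _ (hD.Γ_mem1 rW GW))
    refine (int_of_mem hZ).congr ?_
    filter_upwards [mul_ae (1 + r) (Zf C h L), add_ae 1 r, one_ae (M := M) (m := m)]
      with x b1 b2 b3
    rw [b1, b2, b3]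
  have i2 : Integrable (fun x => (1 + r x) * (√(C.Γ L L x) * (H * (|C.lap h x| + D x)))) m :=
    hr.int (V2.integrable_mul F2)
  have s1 : dd C h r ≤ ∫ x, (1 + r x) * (√(C.Γ L L x) * (H * (|C.lap h x| + D x))) ∂m := by
    rw [e1]
    refine integral_mono_ae i1.neg i2 ?_
    filter_upwards [Z_bd' hC hB hh hr.tL, hr.pos] with x h1 h2
    have := neg_le_of_abs_le h1
    nlinarith [mul_le_mul_of_nonneg_left (neg_le.1 (neg_le_of_abs_le h1)) h2.1]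
  refine s1.trans ((hr.cs V2 F2).trans ?_)
  have s2 : (∫ x, (1 + r x) * √(C.Γ L L x) ^ 2 ∂m) = E2 C L r := by
    unfold E2
    rw [RD.I_eq]
    refine integral_congr_ae ?_
    filter_upwards [hD.Γ_nonneg_ae LW] with x hx
    rw [Real.sq_sqrt hx]
  rw [s2]
  refine mul_le_mul_of_nonneg_left (Real.sqrt_le_sqrt ?_) (Real.sqrt_nonneg _)
  refine (hr.le_R F2.integrable_sq (Eventually.of_forall fun x => sq_nonneg _)).trans ?_
  refine mul_le_mul_of_nonneg_left ?_ (zero_le_one.trans hr.R1)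
  have l1 := int_of_mem (mem_sq (hC.memLp _ (lap_A hC hh.test).1))
  have l2 := int_of_mem (mem_sq hh.D2)
  unfold I
  rw [← integral_const_mul, ← integral_const_mul,
    ← integral_add (l1.const_mul _) (l2.const_mul _), ← integral_const_mul]
  refine integral_mono_ae F2.integrable_sq (((l1.const_mul _).add (l2.const_mul _)).const_mul _) ?_
  filter_upwards [sq_ae (C.lap h), sq_ae D] with x b1 b2
  rw [b1, b2, mul_pow]
  refine mul_le_mul_of_nonneg_left ?_ (sq_nonneg _)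
  have := sq_abs (C.lap h x)
  nlinarith [sq_nonneg (|C.lap h x| - D x)]

/-- the last term of `K_t` -/
theorem dd_bound (hC : IsGamma C) (hB : C.BEi κ) [SigmaFinite m] (hh : HD C h D H)
    (hr : RD C L r R0) (he : 0 < e) (hm0 : 0 ≤ mm) (hm : ∀ᵐ x ∂m, -(mm / e) ≤ C.lap L x) :
    e ^ 2 * -dd C h ((1 + r) * C.lap L)
      ≤ e ^ 2 * (√(Eq2 C L r) * √(R0 * I (a1 C κ h ^ 2)))
        + e * mm * (R0 * ∫ x, |a1 C κ h x| ∂m
          + √(E2 C L r) * √(R0 * (H ^ 2 * (2 * I (C.lap h ^ 2) + 2 * I (D ^ 2))))) := by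
  have hD := hC.toIsDir
  have hW := (hC.test_A hh.test.1).1
  have rA := hC.test_A hr.tr.1
  have LA := lap_A hC hr.tL
  have GW := (hC.Γ_mem hB hh.test.1 hh.test.1).1
  have pA : (1 + r) * C.lap L ∈ C.A := by
    have : (1 + r) * C.lap L = C.lap L + r * C.lap L := by ring
    rw [this]; exact hD.A_add LA (hD.mul_mem_A rA LA)
  set ν := mm / e with hν
  have ν0 : 0 ≤ ν := div_nonneg hm0 he.le
  have wA : (1 + r) * C.lap L + ν • r ∈ C.A := hD.A_add pA (hD.A_smul _ rA)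
  have hpos : ∀ᵐ x ∂m, 0 ≤ ν + ((1 + r) * C.lap L + ν • r) x := by
    filter_upwards [add_ae ((1 + r) * C.lap L) (ν • r), mul_ae (1 + r) (C.lap L), add_ae 1 r,
      one_ae (M := M) (m := m), smul_ae r ν, hr.pos, hm] with x b1 b2 b3 b4 b5 b6 b7
    rw [b1, b2, b3, b4, b5]
    have : ν + ((1 + r x) * C.lap L x + ν * r x) = (1 + r x) * (C.lap L x + ν) := by ring
    rw [this]
    exact mul_nonneg b6.1 (by linarith)
  have k1 := dd_ge' hC hB hh.test wA hpos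
  -- linearity of `dd`
  have k2 : dd C h ((1 + r) * C.lap L + ν • r) = dd C h ((1 + r) * C.lap L) + ν * dd C h r := by
    unfold dd
    have t1 := hD.Γ_mem1 pA.1 GW
    have t2 := hD.Γ_mem1 rA.1 GW
    have t3 : MemLp (C.lap h * C.Γ ((1 + r) * C.lap L) h : M →ₘ[m] ℝ) 1 m :=
      mem_mul_top (lap_top hC hh.test) (hD.Γ_mem1 pA.1 hW)
    have t4 : MemLp (C.lap h * C.Γ r h : M →ₘ[m] ℝ) 1 m :=
      mem_mul_top (lap_top hC hh.test) (hD.Γ_mem1 rA.1 hW)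
    rw [hC.add_left _ pA.1 _ (hC.smul_mem _ _ rA.1) _ hW,
      hC.add_left _ pA.1 _ (hC.smul_mem _ _ rA.1) _ GW, hC.smul_left _ _ rA.1 _ hW,
      hC.smul_left _ _ rA.1 _ GW, I_add t1 (mem_smul _ t2), I_smul]
    have : C.lap h * (C.Γ ((1 + r) * C.lap L) h + ν • C.Γ r h)
        = C.lap h * C.Γ ((1 + r) * C.lap L) h + ν • (C.lap h * C.Γ r h) := by algebra
    rw [this, I_add t3 (mem_smul _ t4), I_smul]
    ring
  have a1m := a1_mem1 (κ := κ) hC hh.test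
  have a2m := a1_mem2 (κ := κ) hC hh.test
  have q2 := hC.memLp _ LA.1
  have k3 : I (((1 + r) * C.lap L + ν • r) * a1 C κ h)
      = (∫ x, (1 + r x) * (C.lap L x * a1 C κ h x) ∂m) + ν * (∫ x, (1 + r x) * a1 C κ h x ∂m)
        - ν * I (a1 C κ h) := by
    have e1 : ((1 + r) * C.lap L + ν • r) * a1 C κ h
        = (1 + r) * (C.lap L * a1 C κ h) + ν • ((1 + r) * a1 C κ h) - ν • a1 C κ h := by algebra
    have t1 : MemLp ((1 + r) * (C.lap L * a1 C κ h) : M →ₘ[m] ℝ) 1 m :=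
      mem_mul_top hr.top (mem_mul_22 q2 a2m)
    have t2 : MemLp ((1 + r) * a1 C κ h : M →ₘ[m] ℝ) 1 m := mem_mul_top hr.top a1m
    rw [e1, I_sub (mem_add t1 (mem_smul _ t2)) (mem_smul _ a1m), I_add t1 (mem_smul _ t2),
      I_smul, I_smul, RD.I_eq, RD.I_eq]
    congr 2
    refine integral_congr_ae ?_
    filter_upwards [mul_ae (C.lap L) (a1 C κ h)] with x b1
    rw [b1]
  rw [k2, k3] at k1
  have k4 : -dd C h ((1 + r) * C.lap L) ≤ ν * dd C h r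
      - (∫ x, (1 + r x) * (C.lap L x * a1 C κ h x) ∂m) - ν * (∫ x, (1 + r x) * a1 C κ h x ∂m) := by
    linarith
  have k5 : -(∫ x, (1 + r x) * a1 C κ h x ∂m) ≤ R0 * ∫ x, |a1 C κ h x| ∂m := by
    have i1 : Integrable (fun x => |a1 C κ h x|) m := (int_of_mem a1m).abs
    refine le_trans ?_ (hr.le_R i1 (Eventually.of_forall fun x => abs_nonneg _))
    rw [← integral_neg]
    refine integral_mono_ae (hr.int (int_of_mem a1m)).neg (hr.int i1) ?_
    filter_upwards [hr.pos] with x hx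
    show -((1 + r x) * a1 C κ h x) ≤ _
    rw [← mul_neg]
    exact mul_le_mul_of_nonneg_left (neg_le_abs _) hx.1
  have k6 : -(∫ x, (1 + r x) * (C.lap L x * a1 C κ h x) ∂m)
      ≤ √(Eq2 C L r) * √(R0 * I (a1 C κ h ^ 2)) := by
    have h1 := hr.cs (F := fun x => -C.lap L x) (G := a1 C κ h) q2.neg a2m
    have e1 : (∫ x, (1 + r x) * (-C.lap L x * a1 C κ h x) ∂m)
        = -(∫ x, (1 + r x) * (C.lap L x * a1 C κ h x) ∂m) := by
      rw [← integral_neg]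
      congr 1; funext x; ring
    rw [e1] at h1
    refine h1.trans ?_
    have e2 : (∫ x, (1 + r x) * (-C.lap L x) ^ 2 ∂m) = Eq2 C L r := by
      unfold Eq2
      rw [RD.I_eq]
      refine integral_congr_ae ?_
      filter_upwards [sq_ae (C.lap L)] with x b1
      rw [b1]; ring
    rw [e2]
    refine mul_le_mul_of_nonneg_left (Real.sqrt_le_sqrt ?_) (Real.sqrt_nonneg _)
    refine (hr.le_R a2m.integrable_sq (Eventually.of_forall fun x => sq_nonneg _)).trans ?_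
    refine mul_le_mul_of_nonneg_left (le_of_eq ?_) (zero_le_one.trans hr.R1)
    refine integral_congr_ae ?_
    filter_upwards [sq_ae (a1 C κ h)] with x b1
    rw [b1]
  have k7 := dd_r hC hB hh hr
  have e2 : e ^ 2 * ν = e * mm := by
    rw [hν]; field_simp
  have k8 : -dd C h ((1 + r) * C.lap L) ≤ √(Eq2 C L r) * √(R0 * I (a1 C κ h ^ 2))
      + ν * (R0 * ∫ x, |a1 C κ h x| ∂m
          + √(E2 C L r) * √(R0 * (H ^ 2 * (2 * I (C.lap h ^ 2) + 2 * I (D ^ 2))))) := by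
    have := mul_le_mul_of_nonneg_left k5 ν0
    have := mul_le_mul_of_nonneg_left k7 ν0
    linarith
  calc e ^ 2 * -dd C h ((1 + r) * C.lap L) ≤ e ^ 2 * (√(Eq2 C L r) * √(R0 * I (a1 C κ h ^ 2))
      + ν * (R0 * ∫ x, |a1 C κ h x| ∂m
          + √(E2 C L r) * √(R0 * (H ^ 2 * (2 * I (C.lap h ^ 2) + 2 * I (D ^ 2)))))) :=
        mul_le_mul_of_nonneg_left k8 (sq_nonneg _)
    _ = _ := by rw [mul_add, ← mul_assoc (e ^ 2) ν, e2]

/-- STATIC ERROR BOUND -/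
theorem static_bound (hC : IsGamma C) (hB : C.BEi κ) [SigmaFinite m] (hh : HD C h D H)
    (hr : RD C L r R0) (he : 0 < e) (hA0 : 0 ≤ A) (hA : ∀ᵐ x ∂m, e ^ 2 * C.Γ L L x ≤ A ^ 2)
    (hm0 : 0 ≤ mm) (hm : ∀ᵐ x ∂m, -(mm / e) ≤ C.lap L x) (hΛ : 0 ≤ Λ) :
    e ^ 2 * Kt C h L r ≤
      H * (e ^ 2 * (H + Λ) * (√(E2 C L r) * √(8 * Eq2 C L r + 18 * E4 C L r))
        + e * A * (√(R0 * tail D Λ) * √(8 * Eq2 C L r + 18 * E4 C L r)))
      + (e ^ 2 * (√(Eq2 C L r) * √(R0 * I (a1 C κ h ^ 2)))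
        + e * mm * (R0 * ∫ x, |a1 C κ h x| ∂m
          + √(E2 C L r) * √(R0 * (H ^ 2 * (2 * I (C.lap h ^ 2) + 2 * I (D ^ 2)))))) := by
  have h1 := main_bound hC hB hh hr he hA0 hA hΛ
  have h2 := dd_bound hC hB hh hr he hm0 hm
  unfold Kt
  linarith

end static

end Vale.Agent.P233.H416
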