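import Vale.Agent.P233.Gig.IfB
import Vale.Agent.P233.H416.Err

/-! # P233, block B6x: the error terms of the Riccati identity (in the form of `Gig/IfB`) -/

set_option linter.all false

open MeasureTheory Filter Topology Set
open scoped ENNReal NNReal InnerProductSpace

universe u v

namespace Vale.Agent.P233.H416

/-! ### asymptotics -/

section asym

variable {M : Type*} [MeasurableSpace M] {m : Measure M} {D : M →ₘ[m] ℝ}

theorem tail_nonneg (D : M →ₘ[m] ℝ) (Λ : ℝ) : 0 ≤ tail D Λ := integral_nonneg fun x => sq_nonneg _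

theorem tail_meas (D : M →ₘ[m] ℝ) (Λ : ℝ) :
    AEStronglyMeasurable (fun x => if Λ < D x then D x else 0) m := by
  refine AEMeasurable.aestronglyMeasurable ?_
  have : Measurable fun t : ℝ => if Λ < t then t else 0 :=
    Measurable.ite measurableSet_Ioi measurable_id measurable_const
  exact this.comp_aemeasurable D.aestronglyMeasurable.aemeasurable

theorem tail_tendsto (hD : MemLp D 2 m) : Tendsto (tail D) atTop (𝓝 0) := by
  have h := tendsto_integral_filter_of_dominated_convergence (μ := m) (l := (atTop : Filter ℝ))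
    (F := fun Λ x => (if Λ < D x then D x else 0) ^ 2) (f := fun _ => (0 : ℝ))
    (fun x => D x ^ 2) (Eventually.of_forall fun Λ => (tail_meas D Λ).pow 2)
    (Eventually.of_forall fun Λ => Eventually.of_forall fun x => by
      rw [Real.norm_of_nonneg (sq_nonneg _)]
      split_ifs
      · exact le_rfl
      · simpa using sq_nonneg (D x))
    hD.integrable_sq (Eventually.of_forall fun x => by
      refine tendsto_const_nhds.congr' ?_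
      filter_upwards [eventually_ge_atTop (D x)] with Λ hΛ
      rw [if_neg (not_lt.2 hΛ)]; ring)
  rw [integral_zero] at h
  exact h

/-- the error as a function of `y = ε^(1/8)` -/
noncomputable def E0 (D : M →ₘ[m] ℝ) (κ H A R0 c Λ1 B1 B2 B3 y : ℝ) : ℝ :=
  1 / 4 * ((H * √c * (H * y ^ 4 + y ^ 3) + H * A * √(R0 * tail D y⁻¹) + y ^ 8 * B1) * (1 + 26 * c)
    + Λ1 * ((y ^ 8 + 4 * y ^ 6) * B2 + √c * (y ^ 4 + 4 * y ^ 2) * B3)
    + |κ| * H ^ 2 * c * y ^ 8 + c * y ^ 6 + A ^ 2 * (R0 * tail D y⁻¹))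

theorem E0_tendsto (hD : MemLp D 2 m) (κ H A R0 c Λ1 B1 B2 B3 : ℝ) :
    Tendsto (fun ε : ℝ => E0 D κ H A R0 c Λ1 B1 B2 B3 (ε ^ (1 / 8 : ℝ))) (𝓝[>] 0) (𝓝 0) := by
  have hy : Tendsto (fun ε : ℝ => ε ^ (1 / 8 : ℝ)) (𝓝[>] 0) (𝓝[>] 0) := by
    refine tendsto_nhdsWithin_iff.2 ⟨?_, ?_⟩
    · have h := (Real.continuousAt_rpow_const 0 (1 / 8 : ℝ) (Or.inr (by norm_num))).tendsto
      rw [Real.zero_rpow (by norm_num)] at h
      exact h.mono_left nhdsWithin_le_nhds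
    · filter_upwards [self_mem_nhdsWithin] with ε hε
      exact Real.rpow_pos_of_pos hε _
  have ht : Tendsto (fun y : ℝ => tail D y⁻¹) (𝓝[>] 0) (𝓝 0) :=
    (tail_tendsto hD).comp tendsto_inv_nhdsGT_zero
  have hp : Tendsto (fun y : ℝ => y) (𝓝[>] 0) (𝓝 0) := tendsto_nhdsWithin_of_tendsto_nhds tendsto_id
  have key : Tendsto (E0 D κ H A R0 c Λ1 B1 B2 B3) (𝓝[>] 0) (𝓝 0) := by
    have t1 : Tendsto (fun y : ℝ => √(R0 * tail D y⁻¹)) (𝓝[>] 0) (𝓝 0) := by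
      have := (Real.continuous_sqrt.tendsto _).comp (ht.const_mul R0)
      simpa [Function.comp_def] using this
    have p : ∀ n : ℕ, n ≠ 0 → Tendsto (fun y : ℝ => y ^ n) (𝓝[>] 0) (𝓝 0) := by
      intro n hn
      have := hp.pow n
      simpa [zero_pow hn] using this
    have a1 : Tendsto (fun y : ℝ => (H * √c * (H * y ^ 4 + y ^ 3) + H * A * √(R0 * tail D y⁻¹)
        + y ^ 8 * B1) * (1 + 26 * c)) (𝓝[>] 0) (𝓝 0) := by
      have := (((((p 4 (by norm_num)).const_mul H).add (p 3 (by norm_num))).const_mul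
        (H * √c)).add (t1.const_mul (H * A))).add ((p 8 (by norm_num)).mul_const B1)
      have := this.mul_const (1 + 26 * c)
      simpa using this
    have a2 : Tendsto (fun y : ℝ => Λ1 * ((y ^ 8 + 4 * y ^ 6) * B2
        + √c * (y ^ 4 + 4 * y ^ 2) * B3)) (𝓝[>] 0) (𝓝 0) := by
      have := ((((p 8 (by norm_num)).add ((p 6 (by norm_num)).const_mul 4)).mul_const B2).add
        ((((p 4 (by norm_num)).add ((p 2 (by norm_num)).const_mul 4)).const_mul √c).mul_const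
          B3)).const_mul Λ1
      simpa using this
    have a3 := (p 8 (by norm_num)).const_mul (|κ| * H ^ 2 * c)
    have a4 := (p 6 (by norm_num)).const_mul c
    have a5 := (ht.const_mul R0).const_mul (A ^ 2)
    have := ((((a1.add a2).add a3).add a4).add a5).const_mul (1 / 4)
    unfold E0
    simpa using this
  exact key.comp hy

end asym

/-! ### the time function `(1 - t)^(-3/4)` -/

theorem int_ww {s : ℝ} (hs : 0 < s) (hs1 : s < 1) :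
    IntervalIntegrable (fun t : ℝ => (1 - t) ^ (-(3 / 4) : ℝ)) volume s 1 ∧
      ∫ t in s..1, (1 - t) ^ (-(3 / 4) : ℝ) ≤ 4 := by
  have h0 : IntervalIntegrable (fun t : ℝ => t ^ (-(3 / 4) : ℝ)) volume 0 (1 - s) :=
    intervalIntegral.intervalIntegrable_rpow' (by norm_num)
  have h1 : IntervalIntegrable (fun t : ℝ => (1 - t) ^ (-(3 / 4) : ℝ)) volume s 1 := by
    have := h0.comp_sub_left 1
    simp only [sub_zero, sub_sub_cancel] at this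
    exact this.symm
  refine ⟨h1, ?_⟩
  have h2 : ∫ t in s..1, (1 - t) ^ (-(3 / 4) : ℝ) = ∫ t in (0 : ℝ)..(1 - s), t ^ (-(3 / 4) : ℝ) := by
    rw [intervalIntegral.integral_comp_sub_left (fun t : ℝ => t ^ (-(3 / 4) : ℝ)) 1]
    simp
  rw [h2, integral_rpow (Or.inl (by norm_num))]
  have e : (-(3 / 4) : ℝ) + 1 = 1 / 4 := by norm_num
  rw [e, Real.zero_rpow (by norm_num), sub_zero]
  have : (1 - s) ^ (1 / 4 : ℝ) ≤ 1 := Real.rpow_le_one (by linarith) (by linarith) (by norm_num)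
  rw [div_le_iff₀ (by norm_num)]
  linarith

/-- `min (1/ε) (1/(1-t)) ≤ ε^(-1/4) (1-t)^(-3/4)` -/
theorem min_le_ww {a b : ℝ} (ha : 0 < a) (hb : 0 < b) :
    min a⁻¹ b⁻¹ ≤ ((a ^ (1 / 8 : ℝ))⁻¹) ^ 2 * b ^ (-(3 / 4) : ℝ) := by
  set μ := min a⁻¹ b⁻¹ with hμ
  have μ0 : 0 < μ := lt_min (inv_pos.2 ha) (inv_pos.2 hb)
  have e1 : ((a ^ (1 / 8 : ℝ))⁻¹) ^ 2 = a⁻¹ ^ (1 / 4 : ℝ) := by
    rw [Real.inv_rpow ha.le, inv_pow, ← Real.rpow_natCast (a ^ (1 / 8 : ℝ)) 2, ← Real.rpow_mul ha.le]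
    norm_num
  have e2 : b ^ (-(3 / 4) : ℝ) = b⁻¹ ^ (3 / 4 : ℝ) := by
    rw [Real.inv_rpow hb.le, Real.rpow_neg hb.le]
  rw [e1, e2]
  calc μ = μ ^ (1 / 4 : ℝ) * μ ^ (3 / 4 : ℝ) := by
        rw [← Real.rpow_add μ0]; norm_num
    _ ≤ a⁻¹ ^ (1 / 4 : ℝ) * b⁻¹ ^ (3 / 4 : ℝ) :=
        mul_le_mul (Real.rpow_le_rpow μ0.le (min_le_left _ _) (by norm_num))
          (Real.rpow_le_rpow μ0.le (min_le_right _ _) (by norm_num))
          (Real.rpow_nonneg μ0.le _) (Real.rpow_nonneg (inv_pos.2 ha).le _)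

theorem y8 {ε : ℝ} (hε : 0 < ε) : (ε ^ (1 / 8 : ℝ)) ^ 8 = ε := by
  rw [← Real.rpow_natCast (ε ^ (1 / 8 : ℝ)) 8, ← Real.rpow_mul hε.le]
  norm_num

/-! ### the remaining static terms -/

section static

variable {M : Type u} [MeasurableSpace M] {m : Measure M} {C : Calc m}
variable {E : Type*} [NormedAddCommGroup E] [InnerProductSpace ℝ E]
variable {Gr : (M →ₘ[m] ℝ) → M → E} {U : (M →ₘ[m] ℝ) → (M →ₘ[m] ℝ) → M → E}
variable {h D L r : M →ₘ[m] ℝ} {K κ H R0 e A Λ : ℝ}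

theorem E2_nonneg (hC : IsGamma C) (hr : RD C L r R0) : 0 ≤ E2 C L r := by
  have LW := (hC.test_A hr.tL.1).1
  unfold E2
  rw [RD.I_eq]
  refine integral_nonneg_of_ae ?_
  filter_upwards [hr.pos, hC.toIsDir.Γ_nonneg_ae LW] with x h1 h2
  exact mul_nonneg h1.1 h2

/-- the sectional curvature term -/
theorem sec_le (hC : IsGamma C) (hh : HD C h D H) (hr : RD C L r R0) :
    -(κ * I ((1 + r) * (C.Γ h h * C.Γ L L - C.Γ h L ^ 2))) ≤ |κ| * (H ^ 2 * E2 C L r) := by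
  have hD := hC.toIsDir
  have hW := (hC.test_A hh.test.1).1
  have LW := (hC.test_A hr.tL.1).1
  have m1 : MemLp (C.Γ h h * C.Γ L L - C.Γ h L ^ 2 : M →ₘ[m] ℝ) 1 m :=
    mem_sub (mem_mul_top (hC.test_Γ_top hh.test.1) (hC.mem1 _ LW))
      (mem_sq (hD.Γ_mem2 hW (hC.test_Γ_top hh.test.1) LW))
  have i1 := hr.int (int_of_mem m1)
  have i2 := hr.int (int_of_mem (hC.mem1 _ LW))
  have key : 0 ≤ I ((1 + r) * (C.Γ h h * C.Γ L L - C.Γ h L ^ 2)) ∧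
      I ((1 + r) * (C.Γ h h * C.Γ L L - C.Γ h L ^ 2)) ≤ H ^ 2 * E2 C L r := by
    unfold E2
    rw [RD.I_eq, RD.I_eq, ← integral_const_mul]
    have hae : ∀ᵐ x ∂m, (C.Γ h h * C.Γ L L - C.Γ h L ^ 2 : M →ₘ[m] ℝ) x
        = C.Γ h h x * C.Γ L L x - C.Γ h L x ^ 2 := by
      filter_upwards [sub_ae (C.Γ h h * C.Γ L L) (C.Γ h L ^ 2), mul_ae (C.Γ h h) (C.Γ L L),
        sq_ae (C.Γ h L)] with x b1 b2 b3
      rw [b1, b2, b3]
    constructor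
    · refine integral_nonneg_of_ae ?_
      filter_upwards [hae, hr.pos, hD.Γ_cs_ae hW LW] with x b1 b2 b3
      show 0 ≤ (1 + r x) * (C.Γ h h * C.Γ L L - C.Γ h L ^ 2 : M →ₘ[m] ℝ) x
      rw [b1]
      exact mul_nonneg b2.1 (by linarith)
    · refine integral_mono_ae i1 (i2.const_mul _) ?_
      filter_upwards [hae, hr.pos, hD.Γ_nonneg_ae LW, hh.gr] with x b1 b2 b3 b4
      rw [b1]
      have b5 : C.Γ h h x * C.Γ L L x - C.Γ h L x ^ 2 ≤ H ^ 2 * C.Γ L L x := by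
        have := mul_le_mul_of_nonneg_right b4 b3
        have := sq_nonneg (C.Γ h L x)
        linarith
      have := mul_le_mul_of_nonneg_left b5 b2.1
      linarith
  have h3 : -(κ * I ((1 + r) * (C.Γ h h * C.Γ L L - C.Γ h L ^ 2)))
      ≤ |κ| * I ((1 + r) * (C.Γ h h * C.Γ L L - C.Γ h L ^ 2)) := by
    have := mul_le_mul_of_nonneg_right (neg_abs_le κ) key.1
    linarith
  exact h3.trans (mul_le_mul_of_nonneg_left key.2 (abs_nonneg _))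

/-- the Hessian terms -/
theorem hes_le (hC : IsGamma C) (hG : IsGrad C Gr) (hU : IsHU C Gr U) (hh : HD C h D H)
    (hr : RD C L r R0) (hn : ∀ᵐ x ∂m, ‖U h L x‖ ≤ D x * ‖Gr L x‖) (he : 0 < e) (hΛ : 0 ≤ Λ)
    (hA : ∀ᵐ x ∂m, e ^ 2 * C.Γ L L x ≤ A ^ 2) :
    e ^ 2 * (2 * I ((1 + r) * ipE m (U h L) (U L h)) - I ((1 + r) * ipE m (U L h) (U L h)))
      ≤ Λ ^ 2 * (e ^ 2 * E2 C L r) + A ^ 2 * (R0 * tail D Λ) := by
  have hD := hC.toIsDir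
  have LW := (hC.test_A hr.tL.1).1
  have u1 := hU.mem h hh.test.1 L hr.tL.1
  have u2 := hU.mem L hr.tL.1 h hh.test.1
  have m1 : MemLp ((1 + r) * ipE m (U h L) (U L h) : M →ₘ[m] ℝ) 1 m :=
    mem_mul_top hr.top (ipE_mem u1 u2)
  have m2 : MemLp ((1 + r) * ipE m (U L h) (U L h) : M →ₘ[m] ℝ) 1 m :=
    mem_mul_top hr.top (ipE_mem u2 u2)
  have eT : e ^ 2 * (2 * I ((1 + r) * ipE m (U h L) (U L h)) - I ((1 + r) * ipE m (U L h) (U L h)))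
      = I (e ^ 2 • ((2 : ℝ) • ((1 + r) * ipE m (U h L) (U L h))
        - (1 + r) * ipE m (U L h) (U L h))) := by
    rw [I_smul, I_sub (mem_smul _ m1) m2, I_smul]
  have iT := int_of_mem (mem_smul (e ^ 2) (mem_sub (mem_smul (2 : ℝ) m1) m2))
  set Dt : M → ℝ := fun x => if Λ < D x then D x else 0 with hDt
  have Dtm : MemLp Dt 2 m := by
    refine MemLp.of_le hh.D2 (tail_meas D Λ) ?_
    refine Eventually.of_forall fun x => ?_
    simp only [hDt]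
    split_ifs
    · exact le_rfl
    · simp
  have j1 : Integrable (fun x => (1 + r x) * C.Γ L L x) m := hr.int (int_of_mem (hC.mem1 _ LW))
  have j2 : Integrable (fun x => (1 + r x) * Dt x ^ 2) m := hr.int Dtm.integrable_sq
  rw [eT]
  have step : I (e ^ 2 • ((2 : ℝ) • ((1 + r) * ipE m (U h L) (U L h))
        - (1 + r) * ipE m (U L h) (U L h)))
      ≤ ∫ x, Λ ^ 2 * (e ^ 2 * ((1 + r x) * C.Γ L L x)) + A ^ 2 * ((1 + r x) * Dt x ^ 2) ∂m := by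
    refine integral_mono_ae iT (((j1.const_mul _).const_mul _).add (j2.const_mul _)) ?_
    filter_upwards [smul_ae ((2 : ℝ) • ((1 + r) * ipE m (U h L) (U L h))
        - (1 + r) * ipE m (U L h) (U L h)) (e ^ 2),
      sub_ae ((2 : ℝ) • ((1 + r) * ipE m (U h L) (U L h))) ((1 + r) * ipE m (U L h) (U L h)),
      smul_ae ((1 + r) * ipE m (U h L) (U L h)) 2, mul_ae (1 + r) (ipE m (U h L) (U L h)),
      mul_ae (1 + r) (ipE m (U L h) (U L h)), add_ae 1 r, one_ae (M := M) (m := m),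
      ipE_ae u1.1 u2.1, ipE_ae u2.1 u2.1, hn, hG.inner _ LW _ LW, hr.pos, hA,
      hD.Γ_nonneg_ae LW, nonneg_iff_ae.1 hh.D0]
      with x b1 b2 b3 b4 b5 b6 b7 b8 b9 c1 c2 c3 c4 c5 c6
    rw [b1, b2, b3, b4, b5, b6, b7, b8, b9]
    have d1 : 2 * ⟪U h L x, U L h x⟫_ℝ - ⟪U L h x, U L h x⟫_ℝ ≤ ‖U h L x‖ ^ 2 := by
      have := real_inner_self_nonneg (x := U h L x - U L h x)
      rw [inner_sub_left, inner_sub_right, inner_sub_right, real_inner_comm (U h L x) (U L h x)]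
        at this
      rw [← real_inner_self_eq_norm_sq]
      linarith
    have d2 : ‖U h L x‖ ^ 2 ≤ D x ^ 2 * C.Γ L L x := by
      have := pow_le_pow_left₀ (norm_nonneg _) c1 2
      rw [mul_pow, ← real_inner_self_eq_norm_sq (Gr L x), c2] at this
      exact this
    have d3 : e ^ 2 * (D x ^ 2 * C.Γ L L x) ≤ Λ ^ 2 * (e ^ 2 * C.Γ L L x) + A ^ 2 * Dt x ^ 2 := by
      simp only [hDt]
      split_ifs with hc
      · have : D x ^ 2 * (e ^ 2 * C.Γ L L x) ≤ D x ^ 2 * A ^ 2 :=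
          mul_le_mul_of_nonneg_left c4 (sq_nonneg _)
        have : 0 ≤ Λ ^ 2 * (e ^ 2 * C.Γ L L x) := by positivity
        nlinarith
      · push Not at hc
        have : D x ^ 2 ≤ Λ ^ 2 := pow_le_pow_left₀ c6 hc 2
        have := mul_le_mul_of_nonneg_right this (mul_nonneg (sq_nonneg e) c5)
        nlinarith
    calc e ^ 2 * (2 * ((1 + r x) * ⟪U h L x, U L h x⟫_ℝ) - (1 + r x) * ⟪U L h x, U L h x⟫_ℝ)
        = (1 + r x) * (e ^ 2 * (2 * ⟪U h L x, U L h x⟫_ℝ - ⟪U L h x, U L h x⟫_ℝ)) := by ring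
      _ ≤ (1 + r x) * (Λ ^ 2 * (e ^ 2 * C.Γ L L x) + A ^ 2 * Dt x ^ 2) :=
        mul_le_mul_of_nonneg_left ((mul_le_mul_of_nonneg_left (d1.trans d2)
          (sq_nonneg _)).trans d3) c3.1
      _ = _ := by ring
  refine step.trans ?_
  rw [integral_add ((j1.const_mul _).const_mul _) (j2.const_mul _), integral_const_mul,
    integral_const_mul, integral_const_mul]
  have s1 : ∫ x, (1 + r x) * Dt x ^ 2 ∂m ≤ R0 * tail D Λ :=
    hr.le_R Dtm.integrable_sq (Eventually.of_forall fun x => sq_nonneg _)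
  have s2 : (∫ x, (1 + r x) * C.Γ L L x ∂m) = E2 C L r := by unfold E2; rw [RD.I_eq]
  rw [s2]
  exact add_le_add le_rfl (mul_le_mul_of_nonneg_left s1 (sq_nonneg _))

/-- the functional `Kt` of `Gig/IfB` is the functional of `Err` -/
theorem Kt_conv (hC : IsGamma C) (hB : C.BEi K) (hh : h ∈ C.TestI) (hr : RD C L r R0)
    (h6 : C.Kt h L (1 + r) =
      I ((1 + r) * (-(C.Γ L L * (C.Γ L h * C.lap h + (2 : ℝ)⁻¹ • C.Γ L (C.Γ h h)))
          + (2 : ℝ) • (C.Γ L h * C.hess h L L)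
          - (2 : ℝ) • (C.lap L * (C.Γ L h * C.lap h + (2 : ℝ)⁻¹ • C.Γ L (C.Γ h h)))))
        - C.ddh h ((1 + r) * C.lap L)) : C.Kt h L (1 + r) = Kt C h L r := by
  have hD := hC.toIsDir
  have hW := (hC.test_A hh.1).1
  have LW := (hC.test_A hr.tL.1).1
  have rA := hC.test_A hr.tr.1
  have LA := lap_A hC hr.tL
  have GW := (hC.Γ_mem hB hh.1 hh.1).1
  have pA : (1 + r) * C.lap L ∈ C.A := by
    have : (1 + r) * C.lap L = C.lap L + r * C.lap L := by ring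
    rw [this]; exact hD.A_add LA (hD.mul_mem_A rA LA)
  have Z2 := Z_mem2 hC hB hh hr.tL
  have q2 := hC.memLp _ (lap_A hC hr.tL).1
  have G2 := mem2_of_1_top (hC.mem1 _ LW) (hC.test_Γ_top hr.tL.1)
  have i1 : MemLp ((1 + r) * (C.lap L * Zf C h L) : M →ₘ[m] ℝ) 1 m :=
    mem_mul_top hr.top (mem_mul_22 q2 Z2)
  have i2 : MemLp ((1 + r) * (C.Γ L L * Zf C h L) : M →ₘ[m] ℝ) 1 m :=
    mem_mul_top hr.top (mem_mul_22 G2 Z2)
  have i3 : MemLp ((1 + r) * (C.Γ L h * C.hess h L L) : M →ₘ[m] ℝ) 1 m :=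
    mem_mul_top hr.top (mem_mul_22 (hD.Γ_mem2 LW (hC.test_Γ_top hr.tL.1) hW)
      (hess_mem2 hC hB hh.1 hr.tL.1))
  have e1 : (1 + r) * (-(C.Γ L L * (C.Γ L h * C.lap h + (2 : ℝ)⁻¹ • C.Γ L (C.Γ h h)))
          + (2 : ℝ) • (C.Γ L h * C.hess h L L)
          - (2 : ℝ) • (C.lap L * (C.Γ L h * C.lap h + (2 : ℝ)⁻¹ • C.Γ L (C.Γ h h))))
      = -((1 + r) * (C.Γ L L * Zf C h L)) + (2 : ℝ) • ((1 + r) * (C.Γ L h * C.hess h L L))
        - (2 : ℝ) • ((1 + r) * (C.lap L * Zf C h L)) := by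
    unfold Zf; algebra
  have e2 : C.ddh h ((1 + r) * C.lap L) = dd C h ((1 + r) * C.lap L) := by
    unfold Calc.ddh dd
    rw [I_add (mem_mul_top (lap_top hC hh) (hD.Γ_mem1 pA.1 hW))
      (mem_smul _ (hD.Γ_mem1 pA.1 GW)), I_smul]
    ring
  rw [h6, e1, e2, I_sub (mem_add (mem_neg i2) (mem_smul _ i3)) (mem_smul _ i1),
    I_add (mem_neg i2) (mem_smul _ i3), I_neg, I_smul, I_smul]
  unfold Kt
  ring

end static

/-! ### the real inequality at one time -/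

theorem real_bd {ε y H A R T c κ E X q mm B1 B2 B3 Q k1 k2 k3 : ℝ} (hy : 0 < y) (hε : y ^ 8 = ε)
    (hH : 0 ≤ H) (hA : 0 ≤ A) (hc : 0 ≤ c) (hE : 0 ≤ E) (hmm : 0 ≤ mm)
    (hB1 : 0 ≤ B1) (hB3 : 0 ≤ B3) (hQ : 1 ≤ Q) (hEc : ε * E ≤ c) (hX : ε ^ 2 * X ≤ Q - 1)
    (hq : ε ^ 2 * q ≤ Q - 1)
    (h1 : ε ^ 2 * k1 ≤ H * (ε ^ 2 * (H + y⁻¹) * (√E * √X) + ε * A * (√(R * T) * √X))
      + (ε ^ 2 * (√q * B1) + ε * mm * (B2 + √E * B3)))
    (h2 : k2 ≤ |κ| * (H ^ 2 * E)) (h3 : ε ^ 2 * k3 ≤ y⁻¹ ^ 2 * (ε ^ 2 * E) + A ^ 2 * (R * T)) :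
    ε ^ 2 / 4 * (k1 + k2 + k3) ≤
      1 / 4 * ((H * √c * (H * y ^ 4 + y ^ 3) + H * A * √(R * T) + y ^ 8 * B1) * Q
        + (y ^ 8 * B2 + √c * y ^ 4 * B3) * mm
        + (|κ| * H ^ 2 * c * y ^ 8 + c * y ^ 6 + A ^ 2 * (R * T))) := by
  have hε0 : 0 < ε := hε ▸ pow_pos hy 8
  have sE : ε * √E ≤ √c * y ^ 4 := by
    refine abs_le_of_sq_le_sq' ?_ (by positivity) |>.2
    rw [mul_pow, mul_pow, Real.sq_sqrt hE, Real.sq_sqrt hc]
    calc ε ^ 2 * E = ε * (ε * E) := by ring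
      _ ≤ ε * c := mul_le_mul_of_nonneg_left hEc hε0.le
      _ = c * (y ^ 4) ^ 2 := by rw [← hε]; ring
  have sq' : ∀ Z : ℝ, ε ^ 2 * Z ≤ Q - 1 → ε * √Z ≤ Q := by
    intro Z hZ
    rcases le_or_gt 0 Z with h0 | h0
    · refine abs_le_of_sq_le_sq' ?_ (by linarith) |>.2
      rw [mul_pow, Real.sq_sqrt h0]
      nlinarith
    · rw [Real.sqrt_eq_zero_of_nonpos h0.le, mul_zero]; linarith
  have sX := sq' X hX
  have sq2 := sq' q hq
  have yi : 0 < y⁻¹ := inv_pos.2 hy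
  have Q0 : 0 ≤ Q := by linarith
  have t1 : H * (ε ^ 2 * (H + y⁻¹) * (√E * √X)) ≤ H * √c * (H * y ^ 4 + y ^ 3) * Q := by
    have := mul_le_mul sE sX (by positivity) (by positivity)
    calc H * (ε ^ 2 * (H + y⁻¹) * (√E * √X)) = H * (H + y⁻¹) * ((ε * √E) * (ε * √X)) := by ring
      _ ≤ H * (H + y⁻¹) * ((√c * y ^ 4) * Q) := mul_le_mul_of_nonneg_left this (by positivity)
      _ = _ := by field_simp
  have t2 : H * (ε * A * (√(R * T) * √X)) ≤ H * A * √(R * T) * Q := by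
    calc H * (ε * A * (√(R * T) * √X)) = H * A * √(R * T) * (ε * √X) := by ring
      _ ≤ _ := mul_le_mul_of_nonneg_left sX (by positivity)
  have t3 : ε ^ 2 * (√q * B1) ≤ y ^ 8 * B1 * Q := by
    calc ε ^ 2 * (√q * B1) = ε * B1 * (ε * √q) := by ring
      _ ≤ ε * B1 * Q := mul_le_mul_of_nonneg_left sq2 (by positivity)
      _ = _ := by rw [hε]
  have t4 : ε * mm * (B2 + √E * B3) ≤ (y ^ 8 * B2 + √c * y ^ 4 * B3) * mm := by
    have := mul_le_mul_of_nonneg_right sE (mul_nonneg hmm hB3)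
    calc ε * mm * (B2 + √E * B3) = ε * B2 * mm + (ε * √E) * (mm * B3) := by ring
      _ ≤ ε * B2 * mm + √c * y ^ 4 * (mm * B3) := by linarith
      _ = _ := by rw [hε]; ring
  have eE : ε ^ 2 * E ≤ c * y ^ 8 := by
    calc ε ^ 2 * E = ε * (ε * E) := by ring
      _ ≤ ε * c := mul_le_mul_of_nonneg_left hEc hε0.le
      _ = _ := by rw [← hε]; ring
  have t5 : ε ^ 2 * k2 ≤ |κ| * H ^ 2 * c * y ^ 8 := by
    calc ε ^ 2 * k2 ≤ ε ^ 2 * (|κ| * (H ^ 2 * E)) := mul_le_mul_of_nonneg_left h2 (sq_nonneg _)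
      _ = |κ| * H ^ 2 * (ε ^ 2 * E) := by ring
      _ ≤ |κ| * H ^ 2 * (c * y ^ 8) := mul_le_mul_of_nonneg_left eE (by positivity)
      _ = _ := by ring
  have t6 : y⁻¹ ^ 2 * (ε ^ 2 * E) ≤ c * y ^ 6 := by
    calc y⁻¹ ^ 2 * (ε ^ 2 * E) ≤ y⁻¹ ^ 2 * (c * y ^ 8) :=
          mul_le_mul_of_nonneg_left eE (by positivity)
      _ = _ := by field_simp
  have e : ε ^ 2 / 4 * (k1 + k2 + k3) = 1 / 4 * (ε ^ 2 * k1 + ε ^ 2 * k2 + ε ^ 2 * k3) := by ring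
  rw [e]
  refine mul_le_mul_of_nonneg_left ?_ (by norm_num)
  linarith

/-! ### the block -/

theorem one_add_sub {M : Type*} [MeasurableSpace M] {m : Measure M} (w : M →ₘ[m] ℝ) :
    1 + (w - 1) = w := by ring

section level

variable {M : Type u} [MeasurableSpace M] {m : Measure M} {C : Calc m}
variable {E : Type*} [NormedAddCommGroup E] [InnerProductSpace ℝ E]
variable {Gr : (M →ₘ[m] ℝ) → M → E} {U : (M →ₘ[m] ℝ) → (M →ₘ[m] ℝ) → M → E}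
variable {h Dh l : M →ₘ[m] ℝ} {φ u : ℝ → M →ₘ[m] ℝ} {K κ H s Λ Λ1 ε t : ℝ}

/-- the majorant of the negative part of `ε ΔL` -/
noncomputable def mmf (Λ1 y t : ℝ) : ℝ := Λ1 * (1 + y⁻¹ ^ 2 * (1 - t) ^ (-(3 / 4) : ℝ))

theorem mmf_nonneg {y : ℝ} (h : 0 ≤ Λ1) (ht : t < 1) : 0 ≤ mmf Λ1 y t := by
  have : 0 ≤ (1 - t) ^ (-(3 / 4) : ℝ) := Real.rpow_nonneg (by linarith) _
  unfold mmf
  positivity

theorem rd_of (hΛ : Λ ≤ Λ1) (h1 : 1 ≤ Λ1) (a1' : LL ε φ u t ∈ C.TestI)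
    (a3' : rh ε φ u t - 1 ∈ C.TestI)
    (a4' : ∀ g ∈ C.W, C.Γ (rh ε φ u t - 1) g = rh ε φ u t * C.Γ (LL ε φ u t) g)
    (hr : ∀ᵐ x ∂m, rh ε φ u t x ≤ Λ) : RD C (LL ε φ u t) (rh ε φ u t - 1) Λ1 := by
  refine ⟨a1', a3', h1, ?_, ?_⟩
  · filter_upwards [hr, sub_ae (rh ε φ u t) 1, one_ae (M := M) (m := m),
      AEEqFun.coeFn_comp Real.exp Real.continuous_exp (ε⁻¹ • (φ t - u t))] with x b1 b2 b3 b4
    rw [b2, b3]
    have b5 : rh ε φ u t x = Real.exp ((ε⁻¹ • (φ t - u t) : M →ₘ[m] ℝ) x) := b4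
    constructor
    · rw [b5]; have := (Real.exp_pos ((ε⁻¹ • (φ t - u t) : M →ₘ[m] ℝ) x)).le; linarith
    · linarith
  · intro g hg
    rw [one_add_sub]; exact a4' g hg

theorem wsq_nonneg {R0 : ℝ} {L w : M →ₘ[m] ℝ} (hR : RD C L (w - 1) R0) (F : M →ₘ[m] ℝ) :
    0 ≤ I (w * F ^ 2) := by
  have := RD.I_eq (w - 1) (F ^ 2)
  rw [one_add_sub] at this
  rw [this]
  refine integral_nonneg_of_ae ?_
  filter_upwards [hR.pos, sq_ae F] with x b1 b2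
  show 0 ≤ (1 + (w - 1 : M →ₘ[m] ℝ) x) * (F ^ 2 : M →ₘ[m] ℝ) x
  rw [b2]; exact mul_nonneg b1.1 (sq_nonneg _)

/-- the bound of the gradient of `L` -/
theorem grad_le (hC : IsGamma C) (hε : 0 < ε) (hφ : φ t ∈ C.W) (hu : u t ∈ C.W)
    (gu : ∀ᵐ x ∂m, C.Γ (u t) (u t) x ≤ Λ1) (gφ : ∀ᵐ x ∂m, C.Γ (φ t) (φ t) x ≤ Λ1) :
    ∀ᵐ x ∂m, ε ^ 2 * C.Γ (LL ε φ u t) (LL ε φ u t) x ≤ 4 * Λ1 := by
  have hD := hC.toIsDir
  have hφu := hD.sub_mem hφ hu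
  have eL : C.Γ (LL ε φ u t) (LL ε φ u t) = (ε⁻¹) ^ 2 • C.Γ (φ t - u t) (φ t - u t) := by
    unfold LL
    rw [hC.smul_left _ _ hφu _ (hC.smul_mem _ _ hφu), hD.Γ_smul_right _ hφu hφu, smul_smul]
    congr 1; ring
  rw [eL]
  have e2 : C.Γ (φ t - u t) (φ t - u t) = C.Γ (φ t) (φ t) + C.Γ (u t) (u t)
      - (2 : ℝ) • C.Γ (φ t) (u t) := by
    rw [hD.Γ_sub_left hφ hu hφu, hD.Γ_sub_right hφ hφ hu, hD.Γ_sub_right hu hφ hu,
      hC.symm _ hu _ hφ]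
    algebra
  rw [e2]
  filter_upwards [smul_ae (C.Γ (φ t) (φ t) + C.Γ (u t) (u t)
      - (2 : ℝ) • C.Γ (φ t) (u t)) (ε⁻¹ ^ 2),
    sub_ae (C.Γ (φ t) (φ t) + C.Γ (u t) (u t)) ((2 : ℝ) • C.Γ (φ t) (u t)),
    add_ae (C.Γ (φ t) (φ t)) (C.Γ (u t) (u t)), smul_ae (C.Γ (φ t) (u t)) 2,
    gu, gφ, hD.Γ_expand_ae 1 hφ hu] with x b1 b2 b3 b4 b5 b6 b7
  rw [b1, b2, b3, b4]
  have : ε ^ 2 * (ε⁻¹ ^ 2 * (C.Γ (φ t) (φ t) x + C.Γ (u t) (u t) x - 2 * C.Γ (φ t) (u t) x))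
      = C.Γ (φ t) (φ t) x + C.Γ (u t) (u t) x - 2 * C.Γ (φ t) (u t) x := by
    field_simp
  rw [this]
  linarith

/-- the lower bound of the Laplacian of `L` -/
theorem lap_ge (hC : IsGamma C) (hε : 0 < ε) (hφ : φ t ∈ C.Test) (hu : u t ∈ C.Test)
    (hΛ : Λ ≤ Λ1) (h1 : 0 ≤ Λ1) (ht : t < 1)
    (lu : ∀ᵐ x ∂m, C.lap (u t) x ≤ Λ) (lφ : ∀ᵐ x ∂m, -(Λ / ε) ≤ C.lap (φ t) x)
    (lφ' : ∀ᵐ x ∂m, -(Λ / (1 - t)) ≤ C.lap (φ t) x) :
    ∀ᵐ x ∂m, -(mmf Λ1 (ε ^ (1 / 8 : ℝ)) t / ε) ≤ C.lap (LL ε φ u t) x := by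
  have hD := hC.toIsDir
  have l1 := hC.test_isLap hφ
  have l2 := hC.test_isLap hu
  have l3 : C.IsLap (LL ε φ u t) (ε⁻¹ • (C.lap (φ t) - C.lap (u t))) := by
    have := hD.isLap_smul ε⁻¹ (hD.isLap_add l1 (hD.isLap_smul (-1) l2))
    have e1 : ε⁻¹ • (φ t + (-1 : ℝ) • u t) = LL ε φ u t := by unfold LL; algebra
    have e2 : ε⁻¹ • (C.lap (φ t) + (-1 : ℝ) • C.lap (u t))
        = ε⁻¹ • (C.lap (φ t) - C.lap (u t)) := by algebra
    rwa [e1, e2] at this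
  rw [hD.lap_eq l3]
  have hb : 0 < 1 - t := by linarith
  have hmin := min_le_ww hε hb
  filter_upwards [smul_ae (C.lap (φ t) - C.lap (u t)) ε⁻¹, sub_ae (C.lap (φ t)) (C.lap (u t)),
    lu, lφ, lφ'] with x b1 b2 b3 b4 b5
  rw [b1, b2]
  have p1 : -(Λ1 * min ε⁻¹ (1 - t)⁻¹) ≤ C.lap (φ t) x := by
    rcases min_choice ε⁻¹ (1 - t)⁻¹ with e1 | e1
    · rw [e1]
      have : Λ / ε ≤ Λ1 * ε⁻¹ := by
        rw [div_eq_mul_inv]
        exact mul_le_mul_of_nonneg_right hΛ (inv_nonneg.2 hε.le)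
      linarith
    · rw [e1]
      have : Λ / (1 - t) ≤ Λ1 * (1 - t)⁻¹ := by
        rw [div_eq_mul_inv]
        exact mul_le_mul_of_nonneg_right hΛ (inv_nonneg.2 hb.le)
      linarith
  have p2 : -mmf Λ1 (ε ^ (1 / 8 : ℝ)) t ≤ C.lap (φ t) x - C.lap (u t) x := by
    have := mul_le_mul_of_nonneg_left hmin h1
    unfold mmf
    linarith
  have := mul_le_mul_of_nonneg_left p2 (inv_nonneg.2 hε.le)
  rw [div_eq_inv_mul, ← mul_neg]
  exact this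

/-- the pointwise (in time) bound of the error -/
theorem one_time [SigmaFinite m] (hC : IsGamma C) (hB : C.BEi K) (hG : IsGrad C Gr)
    (hU : IsHU C Gr U) (hHD : HD C h Dh H) (hR : RD C (LL ε φ u t) (rh ε φ u t - 1) Λ1)
    (hn : ∀ᵐ x ∂m, ‖U h (LL ε φ u t) x‖ ≤ Dh x * ‖Gr (LL ε φ u t) x‖)
    (h6 : C.Kt h (LL ε φ u t) (rh ε φ u t) =
      I (rh ε φ u t * (-(C.Γ (LL ε φ u t) (LL ε φ u t) * (C.Γ (LL ε φ u t) h * C.lap h
          + (2 : ℝ)⁻¹ • C.Γ (LL ε φ u t) (C.Γ h h)))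
          + (2 : ℝ) • (C.Γ (LL ε φ u t) h * C.hess h (LL ε φ u t) (LL ε φ u t))
          - (2 : ℝ) • (C.lap (LL ε φ u t) * (C.Γ (LL ε φ u t) h * C.lap h
          + (2 : ℝ)⁻¹ • C.Γ (LL ε φ u t) (C.Γ h h)))))
        - C.ddh h (rh ε φ u t * C.lap (LL ε φ u t)))
    {A c mm Q y : ℝ} (hε : 0 < ε) (hy : 0 < y) (hy8 : y ^ 8 = ε) (A0 : 0 ≤ A) (hc0 : 0 ≤ c)
    (hA : ∀ᵐ x ∂m, ε ^ 2 * C.Γ (LL ε φ u t) (LL ε φ u t) x ≤ A ^ 2)
    (hmm0 : 0 ≤ mm) (hmm : ∀ᵐ x ∂m, -(mm / ε) ≤ C.lap (LL ε φ u t) x) (hQ : 1 ≤ Q)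
    (hEV : ε * C.EV ε φ u t ≤ c)
    (hq : ε ^ 2 * I (rh ε φ u t * C.lap (LL ε φ u t) ^ 2) ≤ Q - 1)
    (hX : ε ^ 2 * (8 * I (rh ε φ u t * C.lap (LL ε φ u t) ^ 2) + 18 * C.EV4 ε φ u t) ≤ Q - 1) :
    ε ^ 2 / 4 * C.Er U κ h (LL ε φ u t) (rh ε φ u t) ≤
      1 / 4 * ((H * √c * (H * y ^ 4 + y ^ 3) + H * A * √(Λ1 * tail Dh y⁻¹)
          + y ^ 8 * √(Λ1 * I (a1 C K h ^ 2))) * Q
        + (y ^ 8 * (Λ1 * ∫ x, |a1 C K h x| ∂m)
          + √c * y ^ 4 * √(Λ1 * (H ^ 2 * (2 * I (C.lap h ^ 2) + 2 * I (Dh ^ 2))))) * mm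
        + (|κ| * H ^ 2 * c * y ^ 8 + c * y ^ 6 + A ^ 2 * (Λ1 * tail Dh y⁻¹))) := by
  have hE2 : E2 C (LL ε φ u t) (rh ε φ u t - 1) = C.EV ε φ u t := by
    unfold E2 Calc.EV; rw [one_add_sub]
  have hE4 : E4 C (LL ε φ u t) (rh ε φ u t - 1) = C.EV4 ε φ u t := by
    unfold E4 Calc.EV4; rw [one_add_sub]
  have hEq : Eq2 C (LL ε φ u t) (rh ε φ u t - 1) = I (rh ε φ u t * C.lap (LL ε φ u t) ^ 2) := by
    unfold Eq2; rw [one_add_sub]
  have s1 := static_bound hC hB hHD hR hε A0 hA hmm0 hmm (inv_nonneg.2 hy.le)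
  have s2 := sec_le (κ := κ) hC hHD hR
  have s3 := hes_le hC hG hU hHD hR hn hε (inv_nonneg.2 hy.le) hA
  have s4 := Kt_conv hC hB hHD.test hR (by rw [one_add_sub]; exact h6)
  have s5 := E2_nonneg hC hR
  rw [one_add_sub] at s4 s2 s3
  rw [hE2] at s2 s3 s5
  rw [hE2, hE4, hEq] at s1
  unfold Calc.Er
  rw [s4]
  have := real_bd (κ := κ) hy hy8 hHD.H0 A0 hc0 s5 hmm0 (Real.sqrt_nonneg _)
    (Real.sqrt_nonneg _) hQ hEV hX hq s1 s2 s3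
  refine le_trans (le_of_eq ?_) this
  ring

end level

/-- the bounds of the test function -/
theorem exists_HD {M : Type u} [MeasurableSpace M] {m : Measure M} {C : Calc m}
    (hC : IsGamma C) {h Dh : M →ₘ[m] ℝ} (hh : h ∈ C.TestI) (D0 : 0 ≤ Dh) (D2 : MemLp Dh 2 m)
    (hd : ∀ f ∈ C.Test, ∀ g ∈ C.Test, ∀ᵐ x ∂m,
      |C.hess h f g x| ≤ Dh x * √(C.Γ f f x) * √(C.Γ g g x)) : ∃ H, HD C h Dh H := by
  obtain ⟨k1, hk1⟩ := mem_top_iff.1 (lap_top hC hh)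
  obtain ⟨k2, hk2⟩ := mem_top_iff.1 (hC.test_Γ_top hh.1)
  have k10 := abs_nonneg k1
  have k20 := abs_nonneg k2
  refine ⟨|k1| + |k2| + 1, hh, by positivity, ?_, ?_, D0, D2, ?_⟩
  · filter_upwards [hk2] with x hx
    have a := le_abs_self (C.Γ h h x)
    have b := le_abs_self k2
    have : |k2| ≤ (|k1| + |k2| + 1) ^ 2 := by nlinarith
    linarith
  · filter_upwards [hk1] with x hx
    have b := le_abs_self k1
    linarith
  · intro f hf g hg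
    filter_upwards [hd f hf g hg] with x hx
    rw [← mul_assoc]; exact hx

/-- the time integrals of the majorants -/
theorem time_int {s' c3 c4 ε y Λ1 : ℝ} {e v : ℝ → ℝ} (hs : 0 < s') (hs1 : s' < 1) (hΛ : 0 ≤ Λ1)
    (ec : ContinuousOn e (Icc s' 1)) (vc : ContinuousOn v (Icc s' 1))
    (ei : ∫ t in s'..1, e t ≤ c3) (vi : ∫ t in s'..1, ε ^ 2 * v t ≤ c4) :
    IntervalIntegrable (fun t => 1 + 8 * e t + 18 * (ε ^ 2 * v t)) volume s' 1 ∧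
    IntervalIntegrable (mmf Λ1 y) volume s' 1 ∧
    (∫ t in s'..1, (1 + 8 * e t + 18 * (ε ^ 2 * v t))) ≤ 1 + 8 * c3 + 18 * c4 ∧
    ∫ t in s'..1, mmf Λ1 y t ≤ Λ1 * (1 + 4 * y⁻¹ ^ 2) := by
  rw [← uIcc_of_le hs1.le] at ec vc
  have iE : IntervalIntegrable e volume s' 1 := ec.intervalIntegrable
  have iV : IntervalIntegrable (fun t => ε ^ 2 * v t) volume s' 1 :=
    (continuousOn_const.mul vc).intervalIntegrable
  have i1 : IntervalIntegrable (fun _ : ℝ => (1 : ℝ)) volume s' 1 := intervalIntegrable_const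
  obtain ⟨iw, hw4⟩ := int_ww hs hs1
  refine ⟨(i1.add (iE.const_mul 8)).add (iV.const_mul 18), (i1.add (iw.const_mul _)).const_mul _,
    ?_, ?_⟩
  · rw [intervalIntegral.integral_add (i1.add (iE.const_mul 8)) (iV.const_mul 18),
      intervalIntegral.integral_add i1 (iE.const_mul 8), intervalIntegral.integral_const_mul,
      intervalIntegral.integral_const_mul, intervalIntegral.integral_const]
    simp only [smul_eq_mul, mul_one]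
    linarith
  · unfold mmf
    rw [intervalIntegral.integral_const_mul, intervalIntegral.integral_add i1 (iw.const_mul _),
      intervalIntegral.integral_const_mul, intervalIntegral.integral_const]
    refine mul_le_mul_of_nonneg_left ?_ hΛ
    have := mul_le_mul_of_nonneg_left hw4 (sq_nonneg y⁻¹)
    simp only [smul_eq_mul, mul_one]
    linarith

/-- the time integral of the error -/
theorem fin_int {s' c y Λ1 a1 B2 X3 a3 : ℝ} {Q g : ℝ → ℝ} (hs : 0 < s') (hs1 : s' < 1)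
    (hy : 0 < y) (h1 : 0 ≤ a1) (h2 : 0 ≤ y ^ 8 * B2 + y ^ 4 * X3) (h3 : 0 ≤ a3)
    (iQ : IntervalIntegrable Q volume s' 1) (ig : IntervalIntegrable g volume s' 1)
    (hQ : ∫ t in s'..1, Q t ≤ 1 + 26 * c) (hg : ∫ t in s'..1, g t ≤ Λ1 * (1 + 4 * y⁻¹ ^ 2)) :
    IntervalIntegrable (fun t => 1 / 4 * (a1 * Q t + (y ^ 8 * B2 + y ^ 4 * X3) * g t + a3))
      volume s' 1 ∧
    ∫ t in s'..1, 1 / 4 * (a1 * Q t + (y ^ 8 * B2 + y ^ 4 * X3) * g t + a3)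
      ≤ 1 / 4 * (a1 * (1 + 26 * c)
        + Λ1 * ((y ^ 8 + 4 * y ^ 6) * B2 + (y ^ 4 + 4 * y ^ 2) * X3) + a3) := by
  refine ⟨(((iQ.const_mul _).add (ig.const_mul _)).add intervalIntegrable_const).const_mul _, ?_⟩
  rw [intervalIntegral.integral_const_mul, intervalIntegral.integral_add
    ((iQ.const_mul _).add (ig.const_mul _)) intervalIntegrable_const,
    intervalIntegral.integral_add (iQ.const_mul _) (ig.const_mul _),
    intervalIntegral.integral_const_mul, intervalIntegral.integral_const_mul,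
    intervalIntegral.integral_const]
  refine mul_le_mul_of_nonneg_left ?_ (by norm_num)
  have p1 := mul_le_mul_of_nonneg_left hQ h1
  have p2 := mul_le_mul_of_nonneg_left hg h2
  have p3 : (1 - s') • a3 ≤ a3 := by
    rw [smul_eq_mul]
    have := mul_le_mul_of_nonneg_right (show 1 - s' ≤ 1 by linarith) h3
    linarith
  have p4 : (y ^ 8 * B2 + y ^ 4 * X3) * (Λ1 * (1 + 4 * y⁻¹ ^ 2))
      = Λ1 * ((y ^ 8 + 4 * y ^ 6) * B2 + (y ^ 4 + 4 * y ^ 2) * X3) := by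
    field_simp
  rw [p4] at p2
  linarith

theorem blk_B6x (h6b : Blk_B6b.{u}) (h0r : Blk_B0r.{u}) (h1 : Blk_B1.{u}) (h2 : Blk_B2.{u, v})
    (h3 : Blk_B3.{u, v}) (h4 : Blk_B4.{u, v}) : Blk_B6x.{u, v} := by
  intro M _ m _ C K N s s' Λ κ E _ _ _ Gr U D hct hs hss hs1 h hh
  have hC := hct.gam
  have hBi : C.BEi K := hC.bei hct.hN hct.be
  obtain ⟨c2, H2⟩ := h2 K N s s' Λ hs hss hs1
  obtain ⟨c3, H3⟩ := h3 K N s s' Λ hs hss hs1
  obtain ⟨c4, H4⟩ := h4 K N s s' Λ hs hss hs1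
  obtain ⟨H, hHD⟩ := exists_HD hC hh (hct.hd.nonneg h hh.1) (hct.hd.mem h hh.1)
    (hct.hd.hess h hh.1)
  have H0 := hHD.H0
  have c20 := abs_nonneg c2
  have c30 := abs_nonneg c3
  have c40 := abs_nonneg c4
  have hc0 : 0 ≤ |c2| + |c3| + |c4| := by positivity
  have Λa := abs_nonneg Λ
  have Λb := le_abs_self Λ
  have Λ10 : 0 < |Λ| + 1 := by positivity
  have A0 : 0 ≤ 2 * √(|Λ| + 1) := by positivity
  have A2 : (2 * √(|Λ| + 1)) ^ 2 = 4 * (|Λ| + 1) := by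
    rw [mul_pow, Real.sq_sqrt Λ10.le]; norm_num
  refine ⟨fun ε => E0 (D h) κ H (2 * √(|Λ| + 1)) (|Λ| + 1) (|c2| + |c3| + |c4|) (|Λ| + 1)
    (√((|Λ| + 1) * I (a1 C K h ^ 2))) ((|Λ| + 1) * ∫ x, |a1 C K h x| ∂m)
    (√((|Λ| + 1) * (H ^ 2 * (2 * I (C.lap h ^ 2) + 2 * I (D h ^ 2))))) (ε ^ (1 / 8 : ℝ)),
    E0_tendsto (hct.hd.mem h hh.1) _ _ _ _ _ _ _ _ _, ?_⟩
  intro ε l φ u hL
  have hε := hL.reg.hε
  have hy0 : 0 < ε ^ (1 / 8 : ℝ) := Real.rpow_pos_of_pos hε _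
  have hy8 : (ε ^ (1 / 8 : ℝ)) ^ 8 = ε := y8 hε
  have g2 := H2 M m C E Gr U D hct ε l φ u hL
  obtain ⟨e, ec, ei, g3⟩ := H3 M m C E Gr U D hct ε l φ u hL
  have g4 := H4 M m C E Gr U D hct ε l φ u hL
  obtain ⟨r1, -, -, -, -⟩ := h0r M m C K hC hBi ε s 1 φ u hL.reg
  obtain ⟨-, -, -, -, -, -, -, q8, -, -⟩ := h1 M m C K hC hBi ε s 1 φ u hL.reg
  have q8' : ContinuousOn (C.EV4 ε φ u) (Icc s' 1) := q8.mono (Icc_subset_Icc_left hss.le)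
  obtain ⟨iQ, im, intQ, intm⟩ := time_int (y := ε ^ (1 / 8 : ℝ)) (hs.trans hss) hs1 Λ10.le ec q8'
    ei g4
  have intQ' : (∫ t in s'..1, (1 + 8 * e t + 18 * (ε ^ 2 * C.EV4 ε φ u t)))
      ≤ 1 + 26 * (|c2| + |c3| + |c4|) := by
    have a := le_abs_self c3
    have b := le_abs_self c4
    linarith
  have T0 : 0 ≤ tail (D h) (ε ^ (1 / 8 : ℝ))⁻¹ := tail_nonneg _ _
  have B20 : 0 ≤ (|Λ| + 1) * ∫ x, |a1 C K h x| ∂m :=
    mul_nonneg Λ10.le (integral_nonneg fun x => abs_nonneg _)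
  have B10 := Real.sqrt_nonneg ((|Λ| + 1) * I (a1 C K h ^ 2))
  have B30 := Real.sqrt_nonneg ((|Λ| + 1) * (H ^ 2 * (2 * I (C.lap h ^ 2) + 2 * I (D h ^ 2))))
  have sc0 := Real.sqrt_nonneg (|c2| + |c3| + |c4|)
  -- the bounds at one time
  have hRD : ∀ t ∈ Icc s 1, RD C (LL ε φ u t) (rh ε φ u t - 1) (|Λ| + 1) := by
    intro t ht
    obtain ⟨a1', a2', a3', a4', -⟩ := r1 t ht
    exact rd_of (by linarith) (by linarith) a1' a3' a4' (hL.bd.rho t ht)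
  have e0 : ∀ t ∈ Icc s' 1, 0 ≤ e t ∧ ε ^ 2 * I (rh ε φ u t * C.lap (LL ε φ u t) ^ 2) ≤ e t := by
    intro t ht
    have hR := hRD t ⟨hss.le.trans ht.1, ht.2⟩
    have := g3 t ht
    have p1 := wsq_nonneg hR (D (th φ u t))
    have p2 := mul_nonneg (sq_nonneg ε) (wsq_nonneg hR (D (LL ε φ u t)))
    have p3 := mul_nonneg (sq_nonneg ε) (wsq_nonneg hR (C.lap (LL ε φ u t)))
    constructor <;> linarith
  have V0 : ∀ t ∈ Icc s' 1, 0 ≤ ε ^ 2 * C.EV4 ε φ u t := by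
    intro t ht
    have hR := hRD t ⟨hss.le.trans ht.1, ht.2⟩
    exact mul_nonneg (sq_nonneg _) (wsq_nonneg hR _)
  have hfin := fin_int (c := |c2| + |c3| + |c4|) (Λ1 := |Λ| + 1)
    (a1 := H * √(|c2| + |c3| + |c4|) * (H * (ε ^ (1 / 8 : ℝ)) ^ 4 + (ε ^ (1 / 8 : ℝ)) ^ 3)
      + H * (2 * √(|Λ| + 1)) * √((|Λ| + 1) * tail (D h) (ε ^ (1 / 8 : ℝ))⁻¹)
      + (ε ^ (1 / 8 : ℝ)) ^ 8 * √((|Λ| + 1) * I (a1 C K h ^ 2)))
    (B2 := (|Λ| + 1) * ∫ x, |a1 C K h x| ∂m)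
    (X3 := √(|c2| + |c3| + |c4|)
      * √((|Λ| + 1) * (H ^ 2 * (2 * I (C.lap h ^ 2) + 2 * I (D h ^ 2)))))
    (a3 := |κ| * H ^ 2 * (|c2| + |c3| + |c4|) * (ε ^ (1 / 8 : ℝ)) ^ 8
      + (|c2| + |c3| + |c4|) * (ε ^ (1 / 8 : ℝ)) ^ 6
      + (2 * √(|Λ| + 1)) ^ 2 * ((|Λ| + 1) * tail (D h) (ε ^ (1 / 8 : ℝ))⁻¹))
    (hs.trans hss) hs1 hy0 (by positivity) (by positivity) (by positivity) iQ im intQ' intm
  refine ⟨_, hfin.1, ?_, ?_⟩
  · intro t ht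
    have htI : t ∈ Icc s 1 := ⟨hss.le.trans ht.1, ht.2.le⟩
    have htI' : t ∈ Icc s' 1 := ⟨ht.1, ht.2.le⟩
    have hR := hRD t htI
    have ee := e0 t htI'
    have vv := V0 t htI'
    have hQ1 : 1 ≤ 1 + 8 * e t + 18 * (ε ^ 2 * C.EV4 ε φ u t) := by linarith
    have hmm0 : 0 ≤ mmf (|Λ| + 1) (ε ^ (1 / 8 : ℝ)) t := mmf_nonneg Λ10.le ht.2
    refine ⟨?_, ?_⟩
    · have q0 : 0 ≤ 1 + 8 * e t + 18 * (ε ^ 2 * C.EV4 ε φ u t) := by linarith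
      positivity
    have hφT := (hL.reg.φ_mem t htI).1
    have huT := (hL.reg.u_mem t htI).1
    have hAb : ∀ᵐ x ∂m, ε ^ 2 * C.Γ (LL ε φ u t) (LL ε φ u t) x ≤ (2 * √(|Λ| + 1)) ^ 2 := by
      rw [A2]
      refine grad_le hC hε (hC.test_A hφT).1 (hC.test_A huT).1 ?_ ?_
      · filter_upwards [hL.bd.gu t htI] with x hx; linarith
      · filter_upwards [hL.bd.gφ t htI] with x hx; linarith
    have hmb := lap_ge hC hε hφT huT (Λ1 := |Λ| + 1) (by linarith) Λ10.le ht.2 (hL.bd.lu t htI)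
      (hL.bd.lφ t htI) (hL.bd.lφ' t ⟨htI.1, ht.2⟩)
    have h6 := h6b M m C K hC hBi h hh _ hR.tL
    have hEV : ε * C.EV ε φ u t ≤ |c2| + |c3| + |c4| := by
      have := (g2 t htI').1
      have := le_abs_self c2
      linarith
    have := one_time (κ := κ) hC hBi hct.grad hct.hu hHD hR (hct.hd.norm h hh.1 _ hR.tL.1) h6 hε
      hy0 hy8 A0 hc0 hAb hmm0 hmb hQ1 hEV (by linarith) (by linarith)
    refine this.trans (le_of_eq ?_)
    ring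
  · refine hfin.2.trans (le_of_eq ?_)
    unfold E0
    ring

end Vale.Agent.P233.H416
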