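import Vale.Agent.P233.H616.TwoPoint
import Mathlib.Analysis.Calculus.LHopital

/-!
# P233 (RCDA): the comparison lemma for continuous functions with `f'' ≤ 1 - κ f` in the weak sense
of second differences
-/

open Filter Topology Set Real

namespace Vale.Agent.P233.H416

open Vale.Agent.P233.H616

theorem sn_sq (κ a : ℝ) : sn κ a * sn κ a = 2 * md κ a - κ * (md κ a * md κ a) := by
  have := md_sub κ a a
  rw [sub_self, md_at_zero] at this
  linarith

theorem md_add (κ a b : ℝ) :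
    md κ (a + b) = md κ a + md κ b - κ * (md κ a * md κ b) + sn κ a * sn κ b := by
  have := md_sub κ a (-b)
  rw [sub_neg_eq_add, md_neg, sn_neg] at this
  linarith

/-- `2 md h / h² → 1` -/
theorem tendsto_md (κ : ℝ) : Tendsto (fun h => 2 * md κ h / h ^ 2) (𝓝[>] 0) (𝓝 1) := by
  have h1 : Tendsto (fun h => sn κ h / h) (𝓝[>] 0) (𝓝 1) := by
    have := (hasDerivAt_sn κ 0).tendsto_slope_zero_right
    simp only [sn_at_zero, cs_at_zero, zero_add, sub_zero, smul_eq_mul] at this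
    refine this.congr fun h => ?_
    rw [div_eq_inv_mul]
  refine HasDerivAt.lhopital_zero_nhdsGT (f := fun h => 2 * md κ h) (g := fun h => h ^ 2)
    (f' := fun h => 2 * sn κ h) (g' := fun h => 2 * h) ?_ ?_ ?_ ?_ ?_ ?_
  · exact Eventually.of_forall fun h => (hasDerivAt_md κ h).const_mul 2
  · refine Eventually.of_forall fun h => ?_
    have := hasDerivAt_pow 2 h
    simpa using this
  · filter_upwards [self_mem_nhdsWithin] with h hh
    have : (0 : ℝ) < h := hh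
    positivity
  · have h2 : Continuous fun h => 2 * md κ h := continuous_const.mul (continuous_md κ)
    have h3 := h2.tendsto 0
    rw [md_at_zero, mul_zero] at h3
    exact h3.mono_left nhdsWithin_le_nhds
  · have := (continuous_pow 2).tendsto (0 : ℝ)
    simp only [ne_eq, OfNat.ofNat_ne_zero, not_false_eq_true, zero_pow] at this
    exact this.mono_left nhdsWithin_le_nhds
  · refine h1.congr fun h => ?_
    rw [mul_div_mul_left _ _ (two_ne_zero)]

/-- the inequality `f'' ≤ 1 - κ f` at `t`, by second differences -/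
def Visc (κ : ℝ) (f : ℝ → ℝ) (t : ℝ) : Prop :=
  ∀ ε > 0, ∀ᶠ h in 𝓝[>] (0 : ℝ), f (t + h) + f (t - h) - 2 * f t ≤ (1 - κ * f t + ε) * h ^ 2

theorem visc_of_md {κ t c : ℝ} {f : ℝ → ℝ}
    (h : ∀ᶠ h in 𝓝[>] (0 : ℝ), f (t + h) + f (t - h) - 2 * f t ≤ 2 * md κ h * c)
    (hc : c ≤ 1 - κ * f t) : Visc κ f t := by
  intro ε hε
  have h1 : Tendsto (fun h => 2 * md κ h / h ^ 2 * c) (𝓝[>] 0) (𝓝 (1 * c)) :=
    (tendsto_md κ).mul_const c
  have h2 : ∀ᶠ h in 𝓝[>] (0 : ℝ), 2 * md κ h / h ^ 2 * c < 1 - κ * f t + ε :=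
    h1.eventually_lt_const (by linarith)
  filter_upwards [h, h2, self_mem_nhdsWithin] with h a1 a2 a3
  have h3 : (0 : ℝ) < h := a3
  have h4 : (0 : ℝ) < h ^ 2 := by positivity
  have h5 := mul_le_mul_of_nonneg_right a2.le h4.le
  have h6 : 2 * md κ h / h ^ 2 * c * h ^ 2 = 2 * md κ h * c := by field_simp
  linarith

theorem visc_nonneg {κ κ' L : ℝ} {D : ℝ → ℝ} (hL : 0 < L) (hκ' : 0 < κ') (hlt : κ < κ')
    (hπ : √κ' * L < π) (hD : ContinuousOn D (Icc 0 L)) (h0 : 0 ≤ D 0) (h1 : 0 ≤ D L)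
    (hv : ∀ t ∈ Ioo 0 L, ∀ ε > 0, ∀ᶠ h in 𝓝[>] (0 : ℝ),
      D (t + h) + D (t - h) - 2 * D t ≤ (-(κ * D t) + ε) * h ^ 2) :
    ∀ t ∈ Icc 0 L, 0 ≤ D t := by
  obtain ⟨ψ, hψ⟩ : ∃ ψ : ℝ → ℝ, ψ = fun t => cs κ' (t - L / 2) := ⟨_, rfl⟩
  have hk : 0 < √κ' := Real.sqrt_pos.2 hκ'
  have cψ : Continuous ψ := by rw [hψ]; exact (continuous_cs κ').comp (continuous_id.sub continuous_const)
  have ψpos : ∀ t ∈ Icc 0 L, 0 < ψ t := by
    intro t ht
    rw [hψ]
    simp only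
    rw [cs_pos hκ']
    apply Real.cos_pos_of_mem_Ioo
    constructor
    · have : √κ' * (-(L / 2)) ≤ √κ' * (t - L / 2) :=
        mul_le_mul_of_nonneg_left (by linarith [ht.1]) hk.le
      linarith
    · have : √κ' * (t - L / 2) ≤ √κ' * (L / 2) :=
        mul_le_mul_of_nonneg_left (by linarith [ht.2]) hk.le
      linarith
  have ψ2 : ∀ t h, ψ (t + h) + ψ (t - h) - 2 * ψ t = -(2 * md κ' h * κ' * ψ t) := by
    intro t h
    rw [hψ]
    simp only
    have e1 : t + h - L / 2 = (t - L / 2) + h := by ring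
    have e2 : t - h - L / 2 = (t - L / 2) + -h := by ring
    rw [e1, e2, cs_add, cs_add, sn_neg, cs_neg, cs_eq κ' h]
    ring
  have cq : ContinuousOn (fun t => D t / ψ t) (Icc 0 L) :=
    hD.div cψ.continuousOn fun t ht => (ψpos t ht).ne'
  obtain ⟨t₀, ht₀, hmin⟩ := isCompact_Icc.exists_isMinOn (nonempty_Icc.2 hL.le) cq
  obtain ⟨c, hc⟩ : ∃ c, c = D t₀ / ψ t₀ := ⟨_, rfl⟩
  have hle : ∀ t ∈ Icc 0 L, c * ψ t ≤ D t := by
    intro t ht
    have := hmin ht
    have this : D t₀ / ψ t₀ ≤ D t / ψ t := this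
    rw [← hc, le_div_iff₀ (ψpos t ht)] at this
    exact this
  have heq : D t₀ = c * ψ t₀ := by rw [hc, div_mul_cancel₀ _ (ψpos t₀ ht₀).ne']
  rcases le_or_gt 0 c with hc0 | hc0
  · intro t ht
    exact (mul_nonneg hc0 (ψpos t ht).le).trans (hle t ht)
  exfalso
  have ht0' : t₀ ≠ 0 := by
    rintro rfl
    have := mul_neg_of_neg_of_pos hc0 (ψpos 0 ht₀)
    linarith
  have htL' : t₀ ≠ L := by
    rintro rfl
    have := mul_neg_of_neg_of_pos hc0 (ψpos t₀ ht₀)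
    linarith
  have hI : t₀ ∈ Ioo 0 L := ⟨lt_of_le_of_ne ht₀.1 (Ne.symm ht0'), lt_of_le_of_ne ht₀.2 htL'⟩
  obtain ⟨ε, hε⟩ : ∃ ε, ε = (κ' - κ) * (-c) * ψ t₀ / 2 := ⟨_, rfl⟩
  have hp : 0 < (κ' - κ) * (-c) * ψ t₀ :=
    mul_pos (mul_pos (by linarith) (by linarith)) (ψpos t₀ ht₀)
  have hε0 : 0 < ε := by rw [hε]; linarith
  have hev1 := hv t₀ hI ε hε0
  have hev2 : ∀ᶠ h in 𝓝[>] (0 : ℝ), h < t₀ := by
    filter_upwards [Ioo_mem_nhdsGT hI.1] with h hh
    exact hh.2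
  have hev3 : ∀ᶠ h in 𝓝[>] (0 : ℝ), h < L - t₀ := by
    filter_upwards [Ioo_mem_nhdsGT (show (0 : ℝ) < L - t₀ by linarith [hI.2])] with h hh
    exact hh.2
  have hlim : Tendsto (fun h => 2 * md κ' h / h ^ 2 * (κ' * (-c) * ψ t₀)) (𝓝[>] 0)
      (𝓝 (1 * (κ' * (-c) * ψ t₀))) := (tendsto_md κ').mul_const _
  have hle2 : 1 * (κ' * (-c) * ψ t₀) ≤ κ * (-c) * ψ t₀ + ε := by
    refine le_of_tendsto hlim ?_
    filter_upwards [hev1, hev2, hev3, self_mem_nhdsWithin] with h a1 a2 a3 a4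
    have h4 : (0 : ℝ) < h := a4
    have b1 := hle (t₀ + h) ⟨by linarith [hI.1], by linarith⟩
    have b2 := hle (t₀ - h) ⟨by linarith, by linarith [hI.2]⟩
    have b3 := ψ2 t₀ h
    have b4 : c * (ψ (t₀ + h) + ψ (t₀ - h) - 2 * ψ t₀) ≤ (-(κ * D t₀) + ε) * h ^ 2 := by
      rw [heq] at a1 ⊢
      linarith
    rw [b3, heq] at b4
    have b5 : 2 * md κ' h / h ^ 2 * (κ' * (-c) * ψ t₀)
        = (c * (-(2 * md κ' h * κ' * ψ t₀))) / h ^ 2 := by
      field_simp
    rw [b5, div_le_iff₀ (by positivity)]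
    linarith
  rw [hε] at hle2
  linarith

/-- **Comparison with two prescribed end values.** -/
theorem twopoint_visc {κ L : ℝ} {f : ℝ → ℝ} (hL : 0 < L) (hκ : 0 < κ → √κ * L < π)
    (hf : ContinuousOn f (Icc 0 L)) (hv : ∀ t ∈ Ioo 0 L, Visc κ f t) {s : ℝ} (hs : s ∈ Icc 0 L) :
    f L * sn κ s + f 0 * sn κ (L - s)
      ≤ f s * sn κ L + (md κ (L - s) * sn κ s + md κ s * sn κ (L - s)) := by
  have hsL : 0 < sn κ L := sn_pos hL hκ
  -- a slightly larger curvature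
  obtain ⟨κ', hκ'0, hlt, hπ⟩ : ∃ κ', 0 < κ' ∧ κ < κ' ∧ √κ' * L < π := by
    have hc : Continuous fun k : ℝ => √k * L := Real.continuous_sqrt.mul_const L
    obtain ⟨k₀, hk₀, hk₀0, hk₀1⟩ : ∃ k₀, √k₀ * L < π ∧ 0 ≤ k₀ ∧ κ ≤ k₀ := by
      rcases le_or_gt κ 0 with h | h
      · exact ⟨0, by simpa using Real.pi_pos, le_rfl, h⟩
      · exact ⟨κ, hκ h, h.le, le_rfl⟩
    have h1 : ∀ᶠ k in 𝓝 k₀, √k * L < π := hc.continuousAt.eventually_lt_const hk₀
    have h2 : ∀ᶠ k in 𝓝[>] k₀, √k * L < π := h1.filter_mono nhdsWithin_le_nhds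
    obtain ⟨k, hk1, hk2⟩ := (h2.and self_mem_nhdsWithin).exists
    exact ⟨k, hk₀0.trans_lt hk2, hk₀1.trans_lt hk2, hk1⟩
  obtain ⟨α, hα⟩ : ∃ α, α = (f L - md κ L - f 0 * cs κ L) / sn κ L := ⟨_, rfl⟩
  obtain ⟨U, hU⟩ : ∃ U : ℝ → ℝ, U = fun s => md κ s + α * sn κ s + f 0 * cs κ s := ⟨_, rfl⟩
  have cU : Continuous U := by
    rw [hU]
    exact ((continuous_md κ).add (continuous_const.mul (continuous_sn κ))).add
      (continuous_const.mul (continuous_cs κ))
  have U2 : ∀ t h, U (t + h) + U (t - h) - 2 * U t = 2 * md κ h * (1 - κ * U t) := by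
    intro t h
    rw [hU]
    simp only
    have e2 : t - h = t + -h := by ring
    rw [e2, md_add, md_add, sn_add, sn_add, cs_add, cs_add, sn_neg, cs_neg, md_neg, cs_eq κ h]
    ring
  have U0 : U 0 = f 0 := by rw [hU]; simp
  have UL : U L = f L := by
    rw [hU]
    simp only
    rw [hα]
    field_simp
    ring
  have key := visc_nonneg (D := fun t => f t - U t) hL hκ'0 hlt hπ (hf.sub cU.continuousOn)
    (by simp [U0]) (by simp [UL]) ?_ s hs
  · have h1 : U s ≤ f s := by simpa using key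
    have h2 : U s * sn κ L ≤ f s * sn κ L := mul_le_mul_of_nonneg_right h1 hsL.le
    have h3 : U s * sn κ L = md κ s * sn κ L + (f L - md κ L - f 0 * cs κ L) * sn κ s
        + f 0 * cs κ s * sn κ L := by
      rw [hU, hα]
      simp only
      field_simp
    have e : L = (L - s) + s := by ring
    have e1 : sn κ L = sn κ (L - s) * cs κ s + cs κ (L - s) * sn κ s := by
      conv_lhs => rw [e]
      exact sn_add _ _ _
    have e2 : cs κ L = cs κ (L - s) * cs κ s - κ * (sn κ (L - s) * sn κ s) := by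
      conv_lhs => rw [e]
      exact cs_add _ _ _
    have e3 : md κ L = md κ (L - s) + md κ s - κ * (md κ (L - s) * md κ s)
        + sn κ (L - s) * sn κ s := by
      conv_lhs => rw [e]
      exact md_add _ _ _
    have e4 := sn_sq κ s
    have e5 : f 0 * (cs κ s * sn κ L - cs κ L * sn κ s) = f 0 * sn κ (L - s) := by
      have e6 : cs κ s * cs κ s + κ * (sn κ s * sn κ s) = 1 := by
        rw [e4, cs_eq κ s]; ring
      have : cs κ s * sn κ L - cs κ L * sn κ s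
          = sn κ (L - s) * (cs κ s * cs κ s + κ * (sn κ s * sn κ s)) := by
        rw [e1, e2]; ring
      rw [this, e6, mul_one]
    have e7 : md κ s * sn κ L - md κ L * sn κ s
        = -(md κ (L - s) * sn κ s + md κ s * sn κ (L - s)) := by
      rw [e1, e3, cs_eq κ s, cs_eq κ (L - s)]
      linear_combination (-sn κ (L - s)) * e4
    linarith
  · intro t ht ε hε
    have h1 := hv t ht (ε / 2) (by linarith)
    have h2 : Tendsto (fun h => 2 * md κ h / h ^ 2 * (1 - κ * U t)) (𝓝[>] 0)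
        (𝓝 (1 * (1 - κ * U t))) := (tendsto_md κ).mul_const _
    have h3 : ∀ᶠ h in 𝓝[>] (0 : ℝ), 1 - κ * U t - ε / 2 < 2 * md κ h / h ^ 2 * (1 - κ * U t) :=
      h2.eventually_const_lt (by linarith)
    filter_upwards [h1, h3, self_mem_nhdsWithin] with h a1 a2 a3
    have h4 : (0 : ℝ) < h := a3
    have h5 := mul_le_mul_of_nonneg_right a2.le (sq_nonneg h)
    have h6 : 2 * md κ h / h ^ 2 * (1 - κ * U t) * h ^ 2 = 2 * md κ h * (1 - κ * U t) := by
      field_simp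
    have h7 := U2 t h
    nlinarith

end Vale.Agent.P233.H416
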