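import Vale.Agent.P233.H416.GeoCurve
import Vale.Agent.P233.H416.Sturm1

/-!
# P233 (RCDA), G-pos: `κ > 0`. From `diam ≤ π/√κ`: every perimeter is `≤ 2π/√κ`
-/

open Filter Topology Set Real

universe u

namespace Vale.Agent.P233.H416

open Vale.Agent.P233.H616

variable {M : Type u} [MetricSpace M] {κ : ℝ}

/-- `γ` is a geodesic on `[0,L]`, parametrised by arc length -/
def IsG (γ : ℝ → M) (L : ℝ) : Prop :=
  ∀ s ∈ Icc 0 L, ∀ t ∈ Icc 0 L, dist (γ s) (γ t) = |s - t|

theorem IsG.abs_le {γ : ℝ → M} {L : ℝ} (h : IsG γ L) (p : M) {s t : ℝ} (hs : s ∈ Icc 0 L)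
    (ht : t ∈ Icc 0 L) : |dist p (γ s) - dist p (γ t)| ≤ |s - t| := by
  have := abs_dist_sub_le (γ s) (γ t) p
  rw [h s hs t ht, dist_comm (γ s) p, dist_comm (γ t) p] at this
  exact this

theorem IsG.cont {γ : ℝ → M} {L : ℝ} (h : IsG γ L) (p : M) :
    ContinuousOn (fun t => dist p (γ t)) (Icc 0 L) := by
  have : LipschitzOnWith 1 (fun t => dist p (γ t)) (Icc 0 L) :=
    LipschitzOnWith.of_dist_le_mul fun s hs t ht => by
      rw [Real.dist_eq, Real.dist_eq]
      simpa using h.abs_le p hs ht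
  exact this.continuousOn

theorem IsG.rev {γ : ℝ → M} {L : ℝ} (h : IsG γ L) : IsG (fun t => γ (L - t)) L := by
  intro s hs t ht
  rw [h (L - s) ⟨by linarith [hs.2], by linarith [hs.1]⟩ (L - t)
    ⟨by linarith [ht.2], by linarith [ht.1]⟩]
  rw [show L - s - (L - t) = -(s - t) by ring, abs_neg]

theorem visc_of_cmp (hA : T.IsAlexandrov M κ) (hκ : 0 < κ) {γ : ℝ → M} {L : ℝ} (hγ : IsG γ L)
    (p : M) {t : ℝ} (ht : t ∈ Ioo 0 L) (hr : √κ * dist p (γ t) < π) :
    Visc κ (fun t => md κ (dist p (γ t))) t := by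
  have hk : 0 < √κ := Real.sqrt_pos.2 hκ
  refine visc_of_md (c := 1 - κ * md κ (dist p (γ t))) ?_ le_rfl
  obtain ⟨η, hη⟩ : ∃ η, η = (π - √κ * dist p (γ t)) / (4 * √κ) := ⟨_, rfl⟩
  have hη0 : 0 < η := by rw [hη]; exact div_pos (by linarith) (by positivity)
  have hη1 : √κ * η = (π - √κ * dist p (γ t)) / 4 := by
    rw [hη]; field_simp
  filter_upwards [Ioo_mem_nhdsGT ht.1, Ioo_mem_nhdsGT (show (0 : ℝ) < L - t by linarith [ht.2]),
    Ioo_mem_nhdsGT hη0] with h h1 h2 h3
  have h0 : 0 < h := h1.1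
  have mt : t ∈ Icc 0 L := ⟨ht.1.le, ht.2.le⟩
  have m1 : t - h ∈ Icc 0 L := ⟨by linarith [h1.2], by linarith [ht.2]⟩
  have m2 : t + h ∈ Icc 0 L := ⟨by linarith [ht.1], by linarith [h2.2]⟩
  have d1 : dist (γ (t - h)) (γ t) = h := by
    rw [hγ _ m1 _ mt, show t - h - t = -h by ring, abs_neg, abs_of_pos h0]
  have d2 : dist (γ t) (γ (t + h)) = h := by
    rw [hγ _ mt _ m2, show t - (t + h) = -h by ring, abs_neg, abs_of_pos h0]
  have d3 : dist (γ (t - h)) (γ (t + h)) = h + h := by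
    rw [hγ _ m1 _ m2, show t - h - (t + h) = -(h + h) by ring, abs_neg, abs_of_pos (by linarith)]
  have e1 : dist p (γ (t - h)) ≤ dist p (γ t) + h := by
    have := dist_triangle p (γ t) (γ (t - h))
    rw [dist_comm (γ t), d1] at this
    exact this
  have e2 : dist p (γ (t + h)) ≤ dist p (γ t) + h := by
    have := dist_triangle p (γ t) (γ (t + h))
    rw [d2] at this
    exact this
  have hper : √κ * (dist p (γ (t - h)) + dist p (γ (t + h)) + dist (γ (t - h)) (γ (t + h)))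
      < 2 * π := by
    rw [d3]
    have h4 : √κ * (dist p (γ (t - h)) + dist p (γ (t + h)) + (h + h))
        ≤ √κ * (2 * dist p (γ t) + 4 * h) := mul_le_mul_of_nonneg_left (by linarith) hk.le
    have h5 : √κ * h < √κ * η := mul_lt_mul_of_pos_left h3.2 hk
    linarith
  have hC := (hA.comparison p (γ (t - h)) (γ (t + h)) (γ t) (by rw [d1, d2, d3]) hper).2.1 hκ
  rw [d1, d2] at hC
  have hkh : √κ * h < π := by
    have h5 : √κ * h < √κ * η := mul_lt_mul_of_pos_left h3.2 hk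
    have h6 : 0 ≤ √κ * dist p (γ t) := by positivity
    linarith [Real.pi_pos]
  have hs : 0 < sin (√κ * h) := Real.sin_pos_of_pos_of_lt_pi (by positivity) hkh
  have e3 : sin (√κ * (h + h)) = 2 * sin (√κ * h) * cos (√κ * h) := by
    rw [← Real.sin_two_mul]; congr 1; ring
  rw [e3] at hC
  have h7 : 2 * cos (√κ * h) * cos (√κ * dist p (γ t))
      ≤ cos (√κ * dist p (γ (t - h))) + cos (√κ * dist p (γ (t + h))) := by
    refine le_of_mul_le_mul_left ?_ hs
    linarith
  simp only [md_pos' hκ]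
  have e4 : 1 - κ * ((1 - cos (√κ * dist p (γ t))) / κ) = cos (√κ * dist p (γ t)) := by
    field_simp; ring
  rw [e4]
  have e5 : (1 - cos (√κ * dist p (γ (t + h)))) / κ + (1 - cos (√κ * dist p (γ (t - h)))) / κ
      - 2 * ((1 - cos (√κ * dist p (γ t))) / κ)
      = (2 * cos (√κ * dist p (γ t)) - (cos (√κ * dist p (γ (t - h)))
        + cos (√κ * dist p (γ (t + h))))) / κ := by
    field_simp; ring
  have e6 : 2 * ((1 - cos (√κ * h)) / κ) * cos (√κ * dist p (γ t))
      = (2 * cos (√κ * dist p (γ t)) - 2 * cos (√κ * h) * cos (√κ * dist p (γ t))) / κ := by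
    field_simp
  rw [e5, e6]
  exact div_le_div_of_nonneg_right (by linarith) hκ.le

/-- comparison on a subsegment without antipodes of `p` in its interior -/
theorem cmp_sub (hA : T.IsAlexandrov M κ) (hκ : 0 < κ) {γ : ℝ → M} {L : ℝ} (hγ : IsG γ L)
    (p : M) {u v : ℝ} (hu : 0 ≤ u) (huv : u < v) (hv : v ≤ L) (hπ : √κ * (v - u) < π)
    (hr : ∀ r ∈ Ioo u v, √κ * dist p (γ r) < π) {t : ℝ} (ht : t ∈ Icc u v) :
    T.Cmp κ (dist p (γ u)) (dist p (γ v)) (t - u) (v - t) (dist p (γ t)) := by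
  refine cmp_of_twopoint ?_
  have key := twopoint_visc (κ := κ) (L := v - u) (f := fun s => md κ (dist p (γ (u + s))))
    (by linarith) (fun _ => hπ) ?_ ?_ (s := t - u) ⟨by linarith [ht.1], by linarith [ht.2]⟩
  · simp only [add_zero] at key
    rw [show u + (v - u) = v by ring, show v - u - (t - u) = v - t by ring,
      show u + (t - u) = t by ring] at key
    rw [show t - u + (v - t) = v - u by ring]
    exact key
  · have h1 : ContinuousOn (fun s => dist p (γ (u + s))) (Icc 0 (v - u)) := by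
      refine (hγ.cont p).comp (g := fun t => dist p (γ t)) (f := fun s => u + s)
        (continuous_const.add continuous_id).continuousOn ?_
      intro s hs
      exact ⟨by linarith [hs.1], by linarith [hs.2]⟩
    exact (continuous_md κ).comp_continuousOn h1
  · intro s hs ε hε
    have h1 := visc_of_cmp hA hκ hγ p (t := u + s) ⟨by linarith [hs.1], by linarith [hs.2]⟩
      (hr (u + s) ⟨by linarith [hs.1], by linarith [hs.2]⟩) ε hε
    filter_upwards [h1] with h hh
    rw [show u + (s + h) = u + s + h by ring, show u + (s - h) = u + s - h by ring]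
    exact hh

theorem cos_ge_neg_one_of (x : ℝ) : -1 ≤ cos x := Real.neg_one_le_cos x

/-- two consecutive antipodes of `p` on a short segment are impossible -/
theorem no_gap (hA : T.IsAlexandrov M κ) (hκ : 0 < κ) {γ : ℝ → M} {L : ℝ} (hγ : IsG γ L)
    (p : M) {u v : ℝ} (hu : 0 ≤ u) (huv : u < v) (hv : v ≤ L) (hπ : √κ * (v - u) < π)
    (hr : ∀ r ∈ Ioo u v, √κ * dist p (γ r) < π) (h1 : √κ * dist p (γ u) = π)
    (h2 : √κ * dist p (γ v) = π) : False := by
  have hk : 0 < √κ := Real.sqrt_pos.2 hκ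
  have hC := (cmp_sub hA hκ hγ p hu huv hv hπ hr (t := (u + v) / 2)
    ⟨by linarith, by linarith⟩).2.1 hκ
  rw [h1, h2, cos_pi] at hC
  obtain ⟨a, ha⟩ : ∃ a, a = √κ * ((v - u) / 2) := ⟨_, rfl⟩
  have e1 : √κ * ((u + v) / 2 - u + (v - (u + v) / 2)) = 2 * a := by rw [ha]; ring
  have e2 : √κ * (v - (u + v) / 2) = a := by rw [ha]; ring
  have e3 : √κ * ((u + v) / 2 - u) = a := by rw [ha]; ring
  rw [e1, e2, e3, sin_two_mul] at hC
  have ha0 : 0 < a := by rw [ha]; exact mul_pos hk (by linarith)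
  have ha1 : 2 * a < π := by rw [ha]; linarith
  have hs : 0 < sin a := sin_pos_of_pos_of_lt_pi ha0 (by linarith)
  have hc : 0 < cos a := cos_pos_of_mem_Ioo ⟨by linarith, by linarith⟩
  have hc1 : cos a < 1 := by
    have := Real.cos_lt_cos_of_nonneg_of_le_pi_div_two (x := 0) (y := a) le_rfl
      (by linarith) ha0
    rwa [cos_zero] at this
  have h3 := Real.neg_one_le_cos (√κ * dist p (γ ((u + v) / 2)))
  have h4 : 2 * sin a * cos a * (-1) ≤ 2 * sin a * cos a * cos (√κ * dist p (γ ((u + v) / 2))) :=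
    mul_le_mul_of_nonneg_left h3 (by positivity)
  have h5 : sin a * cos a < sin a * 1 := mul_lt_mul_of_pos_left hc1 hs
  linarith

/-- a segment of antipodes of `p` is impossible -/
theorem no_seg (hA : T.IsAlexandrov M κ) (hκ : 0 < κ) {γ : ℝ → M} {L : ℝ} (hγ : IsG γ L)
    (p : M) {u v : ℝ} (hu : 0 ≤ u) (huv : u < v) (hv : v ≤ L)
    (hdiam : ∀ x y : M, √κ * dist x y ≤ π)
    (hr : ∀ r ∈ Icc u v, √κ * dist p (γ r) = π) : False := by
  have hk : 0 < √κ := Real.sqrt_pos.2 hκ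
  obtain ⟨q, hq⟩ : ∃ q, q = γ ((u + v) / 2) := ⟨_, rfl⟩
  have hpq : dist p q = π / √κ := by
    rw [hq, eq_div_iff hk.ne', mul_comm]
    exact hr _ ⟨by linarith, by linarith⟩
  obtain ⟨m, hm1, hm2⟩ := hA.geodesic p q (π / √κ / 4) (3 * (π / √κ) / 4)
    (by positivity) (by positivity) (by rw [hpq]; ring)
  obtain ⟨h, hh⟩ : ∃ h, h = min ((v - u) / 2) (π / √κ / 16) := ⟨_, rfl⟩
  have hh0 : 0 < h := by rw [hh]; exact lt_min (by linarith) (by positivity)
  have hh1 : h ≤ (v - u) / 2 := by rw [hh]; exact min_le_left _ _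
  have hh2 : h ≤ π / √κ / 16 := by rw [hh]; exact min_le_right _ _
  have mt : (u + v) / 2 ∈ Icc 0 L := ⟨by linarith, by linarith⟩
  have m1 : (u + v) / 2 - h ∈ Icc 0 L := ⟨by linarith, by linarith⟩
  have m2 : (u + v) / 2 + h ∈ Icc 0 L := ⟨by linarith, by linarith⟩
  have d1 : dist (γ ((u + v) / 2 - h)) q = h := by
    rw [hq, hγ _ m1 _ mt, show (u + v) / 2 - h - (u + v) / 2 = -h by ring, abs_neg,
      abs_of_pos hh0]
  have d2 : dist q (γ ((u + v) / 2 + h)) = h := by
    rw [hq, hγ _ mt _ m2, show (u + v) / 2 - ((u + v) / 2 + h) = -h by ring, abs_neg,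
      abs_of_pos hh0]
  have d3 : dist (γ ((u + v) / 2 - h)) (γ ((u + v) / 2 + h)) = h + h := by
    rw [hγ _ m1 _ m2, show (u + v) / 2 - h - ((u + v) / 2 + h) = -(h + h) by ring, abs_neg,
      abs_of_pos (by linarith)]
  have hk1 : √κ * (π / √κ) = π := by field_simp
  have lo : ∀ r ∈ Icc u v, 3 * (π / √κ) / 4 ≤ dist m (γ r) := by
    intro r hr'
    have h1 : dist p (γ r) = π / √κ := by
      rw [eq_div_iff hk.ne', mul_comm]; exact hr r hr'
    have h2 := dist_triangle p m (γ r)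
    linarith
  have cle : ∀ r ∈ Icc u v, cos (√κ * dist m (γ r)) ≤ cos (√κ * dist m q) := by
    intro r hr'
    rw [hm2]
    refine Real.cos_le_cos_of_nonneg_of_le_pi (by positivity) (hdiam _ _) ?_
    exact mul_le_mul_of_nonneg_left (lo r hr') hk.le
  have u1 : dist m (γ ((u + v) / 2 - h)) ≤ 3 * (π / √κ) / 4 + h := by
    have := dist_triangle m q (γ ((u + v) / 2 - h))
    rw [dist_comm q, d1, hm2] at this
    exact this
  have u2 : dist m (γ ((u + v) / 2 + h)) ≤ 3 * (π / √κ) / 4 + h := by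
    have := dist_triangle m q (γ ((u + v) / 2 + h))
    rw [d2, hm2] at this
    exact this
  have hper : √κ * (dist m (γ ((u + v) / 2 - h)) + dist m (γ ((u + v) / 2 + h))
      + dist (γ ((u + v) / 2 - h)) (γ ((u + v) / 2 + h))) < 2 * π := by
    rw [d3]
    have h4 : √κ * (dist m (γ ((u + v) / 2 - h)) + dist m (γ ((u + v) / 2 + h)) + (h + h))
        ≤ √κ * (7 / 4 * (π / √κ)) := mul_le_mul_of_nonneg_left (by linarith) hk.le
    have h5 : √κ * (7 / 4 * (π / √κ)) = 7 / 4 * π := by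
      rw [mul_left_comm, hk1]
    linarith [Real.pi_pos]
  have hC := (hA.comparison m (γ ((u + v) / 2 - h)) (γ ((u + v) / 2 + h)) q
    (by rw [d1, d2, d3]) hper).2.1 hκ
  rw [d1, d2] at hC
  have e3 : sin (√κ * (h + h)) = 2 * sin (√κ * h) * cos (√κ * h) := by
    rw [← Real.sin_two_mul]; congr 1; ring
  rw [e3] at hC
  have hkh : √κ * h ≤ π / 16 := by
    have := mul_le_mul_of_nonneg_left hh2 hk.le
    have h5 : √κ * (π / √κ / 16) = π / 16 := by rw [← mul_div_assoc, hk1]
    linarith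
  have hkh0 : 0 < √κ * h := by positivity
  have hs : 0 < sin (√κ * h) := sin_pos_of_pos_of_lt_pi hkh0 (by linarith [Real.pi_pos])
  have c1 := cle ((u + v) / 2 - h) ⟨by linarith, by linarith⟩
  have c2 := cle ((u + v) / 2 + h) ⟨by linarith, by linarith⟩
  have hneg : cos (√κ * dist m q) < 0 := by
    rw [hm2]
    have e4 : √κ * (3 * (π / √κ) / 4) = 3 * π / 4 := by
      rw [← mul_div_assoc, mul_left_comm, hk1]
    rw [e4]
    exact Real.cos_neg_of_pi_div_two_lt_of_lt (by linarith [Real.pi_pos])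
      (by linarith [Real.pi_pos])
  have hc1 : cos (√κ * h) < 1 := by
    have := Real.cos_lt_cos_of_nonneg_of_le_pi_div_two (x := 0) (y := √κ * h) le_rfl
      (by linarith [Real.pi_pos]) hkh0
    rwa [cos_zero] at this
  have h1 := mul_le_mul_of_nonneg_left c1 hs.le
  have h2 := mul_le_mul_of_nonneg_left c2 hs.le
  have h3 : 0 < sin (√κ * h) * ((1 - cos (√κ * h)) * (-cos (√κ * dist m q))) :=
    mul_pos hs (mul_pos (by linarith) (by linarith))
  nlinarith

end Vale.Agent.P233.H416
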