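import Vale.Agent.P233.H416.GPos

/-!
# P233 (RCDA), G-pos: `κ > 0`. From `diam ≤ π/√κ`: every perimeter is `≤ 2π/√κ`
-/

open Filter Topology Set Real

universe u

namespace Vale.Agent.P233.H416

open Vale.Agent.P233.H616

variable {M : Type u} [MetricSpace M] {κ : ℝ}

/-- `p` has at most one antipode on a short segment -/
theorem no_two (hA : T.IsAlexandrov M κ) (hκ : 0 < κ) {γ : ℝ → M} {L : ℝ} (hγ : IsG γ L)
    (p : M) {u v : ℝ} (hu : 0 ≤ u) (huv : u < v) (hv : v ≤ L) (hπ : √κ * (v - u) < π)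
    (hdiam : ∀ x y : M, √κ * dist x y ≤ π) (h1 : √κ * dist p (γ u) = π)
    (h2 : √κ * dist p (γ v) = π) : False := by
  have hk : 0 < √κ := Real.sqrt_pos.2 hκ
  by_cases hall : ∀ r ∈ Icc u v, √κ * dist p (γ r) = π
  · exact no_seg hA hκ hγ p hu huv hv hdiam hall
  push Not at hall
  obtain ⟨r, hr, hne⟩ := hall
  obtain ⟨N, hN⟩ : ∃ N : Set ℝ, N = {t | t ∈ Icc u v ∧ √κ * dist p (γ t) = π} := ⟨_, rfl⟩
  have hcont : ContinuousOn (fun t => √κ * dist p (γ t)) (Icc u v) :=
    ((hγ.cont p).mono (Icc_subset_Icc hu hv)).const_smul (√κ)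
  have hcl : IsClosed N := by
    have := hcont.preimage_isClosed_of_isClosed isClosed_Icc (isClosed_singleton (x := π))
    rw [hN]
    exact this
  have hrN : r ∉ N := by rw [hN]; exact fun h => hne h.2
  have hA1 : (N ∩ Iic r).Nonempty := ⟨u, by rw [hN]; exact ⟨⟨le_rfl, huv.le⟩, h1⟩, hr.1⟩
  have hB1 : (N ∩ Ici r).Nonempty := ⟨v, by rw [hN]; exact ⟨⟨huv.le, le_rfl⟩, h2⟩, hr.2⟩
  have hAb : BddAbove (N ∩ Iic r) := ⟨r, fun s hs => hs.2⟩
  have hBb : BddBelow (N ∩ Ici r) := ⟨r, fun s hs => hs.2⟩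
  have ha := (hcl.inter isClosed_Iic).csSup_mem hA1 hAb
  have hb := (hcl.inter isClosed_Ici).csInf_mem hB1 hBb
  obtain ⟨a, hadef⟩ : ∃ a, a = sSup (N ∩ Iic r) := ⟨_, rfl⟩
  obtain ⟨b, hbdef⟩ : ∃ b, b = sInf (N ∩ Ici r) := ⟨_, rfl⟩
  rw [← hadef] at ha
  rw [← hbdef] at hb
  have har : a < r := lt_of_le_of_ne ha.2 fun h => hrN (h ▸ ha.1)
  have hrb : r < b := lt_of_le_of_ne hb.2 fun h => hrN (h ▸ hb.1)
  have ha1 := ha.1
  have hb1 := hb.1
  rw [hN] at ha1 hb1
  refine no_gap hA hκ hγ p (u := a) (v := b) (hu.trans ha1.1.1) (har.trans hrb)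
    (hb1.1.2.trans hv) ?_ ?_ ha1.2 hb1.2
  · have : √κ * (b - a) ≤ √κ * (v - u) :=
      mul_le_mul_of_nonneg_left (by linarith [ha1.1.1, hb1.1.2]) hk.le
    linarith
  · intro s hs
    refine lt_of_le_of_ne (hdiam _ _) fun h => ?_
    have hsN : s ∈ N := by
      rw [hN]; exact ⟨⟨ha1.1.1.trans hs.1.le, hs.2.le.trans hb1.1.2⟩, h⟩
    rcases le_total s r with h3 | h3
    · have : s ≤ a := by rw [hadef]; exact le_csSup hAb ⟨hsN, h3⟩
      linarith [hs.1]
    · have : b ≤ s := by rw [hbdef]; exact csInf_le hBb ⟨hsN, h3⟩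
      linarith [hs.2]

/-- behaviour to the right of an antipode -/
theorem antip_right (hA : T.IsAlexandrov M κ) (hκ : 0 < κ) {γ : ℝ → M} {L : ℝ} (hγ : IsG γ L)
    (p : M) (hπ : √κ * L < π) (hdiam : ∀ x y : M, √κ * dist x y ≤ π) {u t : ℝ} (hu : 0 ≤ u)
    (hut : u ≤ t) (ht : t ≤ L) (h1 : √κ * dist p (γ u) = π) :
    √κ * dist p (γ t) = π - √κ * (t - u) := by
  have hk : 0 < √κ := Real.sqrt_pos.2 hκ
  rcases hut.eq_or_lt with rfl | hut
  · rw [h1]; ring
  have hkl : √κ * (t - u) < π := by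
    have : √κ * (t - u) ≤ √κ * L := mul_le_mul_of_nonneg_left (by linarith) hk.le
    linarith
  have hkl0 : 0 < √κ * (t - u) := mul_pos hk (by linarith)
  apply le_antisymm
  · -- comparison on `[u, t]`
    have hr : ∀ r ∈ Ioo u t, √κ * dist p (γ r) < π := by
      intro r hr
      refine lt_of_le_of_ne (hdiam _ _) fun h => ?_
      refine no_two hA hκ hγ p (u := u) (v := r) hu hr.1 (hr.2.le.trans ht) ?_ hdiam h1 h
      have : √κ * (r - u) ≤ √κ * (t - u) :=
        mul_le_mul_of_nonneg_left (by linarith [hr.2]) hk.le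
      linarith
    obtain ⟨φ, hφ⟩ : ∃ φ : ℝ → ℝ, φ = fun h => sin (√κ * (t - u)) - sin (√κ * (t - u - h))
      + sin (√κ * h) * cos (√κ * dist p (γ t)) := ⟨_, rfl⟩
    have hφ0 : φ 0 = 0 := by rw [hφ]; simp
    have hφn : ∀ h ∈ Ioo 0 (t - u), 0 ≤ φ h := by
      intro h hh
      have hC := (cmp_sub hA hκ hγ p hu hut ht hkl hr (t := u + h)
        ⟨by linarith [hh.1], by linarith [hh.2]⟩).2.1 hκ
      rw [h1, cos_pi, show u + h - u + (t - (u + h)) = t - u by ring,
        show t - (u + h) = t - u - h by ring, show u + h - u = h by ring] at hC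
      have h3 := Real.neg_one_le_cos (√κ * dist p (γ (u + h)))
      have h4 : 0 ≤ sin (√κ * (t - u)) := (sin_pos_of_pos_of_lt_pi hkl0 hkl).le
      have h5 := mul_le_mul_of_nonneg_left h3 h4
      rw [hφ]
      simp only
      linarith
    have hd : HasDerivAt φ (√κ * cos (√κ * (t - u)) + √κ * cos (√κ * dist p (γ t))) 0 := by
      have a1 : HasDerivAt (fun h : ℝ => t - u - h) (-1) 0 := by
        simpa using (hasDerivAt_id (0 : ℝ)).const_sub (t - u)
      have a2 := ((a1.const_mul (√κ)).sin).const_sub (sin (√κ * (t - u)))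
      have a3 : HasDerivAt (fun h : ℝ => √κ * h) (√κ) 0 := by
        simpa using (hasDerivAt_id (0 : ℝ)).const_mul (√κ)
      have a4 := (a3.sin).mul_const (cos (√κ * dist p (γ t)))
      rw [hφ]
      refine (a2.add a4).congr_deriv ?_
      simp only [sub_zero, mul_zero, cos_zero]
      ring
    have hpos : 0 ≤ √κ * cos (√κ * (t - u)) + √κ * cos (√κ * dist p (γ t)) := by
      have h3 := hd.tendsto_slope_zero_right
      refine ge_of_tendsto h3 ?_
      filter_upwards [Ioo_mem_nhdsGT (show (0 : ℝ) < t - u by linarith)] with h hh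
      rw [zero_add, hφ0, sub_zero, smul_eq_mul]
      exact mul_nonneg (inv_nonneg.2 hh.1.le) (hφn h hh)
    have h3 : cos (π - √κ * (t - u)) ≤ cos (√κ * dist p (γ t)) := by
      rw [Real.cos_pi_sub]
      have : 0 ≤ √κ * (cos (√κ * (t - u)) + cos (√κ * dist p (γ t))) := by linarith
      have := nonneg_of_mul_nonneg_right this hk
      linarith
    by_contra hcon
    push Not at hcon
    have := Real.strictAntiOn_cos (show π - √κ * (t - u) ∈ Icc 0 π from ⟨by linarith, by linarith⟩)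
      (show √κ * dist p (γ t) ∈ Icc 0 π from ⟨by positivity, hdiam _ _⟩) hcon
    linarith
  · have h3 := hγ.abs_le p (s := u) (t := t) ⟨hu, by linarith⟩ ⟨by linarith, ht⟩
    have h4 : dist p (γ u) - dist p (γ t) ≤ t - u := by
      have := (abs_le.1 h3).2
      rw [abs_sub_comm, abs_of_pos (by linarith)] at this
      exact this
    have h5 := mul_le_mul_of_nonneg_left h4 hk.le
    linarith

/-- behaviour near an antipode -/
theorem antip (hA : T.IsAlexandrov M κ) (hκ : 0 < κ) {γ : ℝ → M} {L : ℝ} (hγ : IsG γ L)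
    (p : M) (hπ : √κ * L < π) (hdiam : ∀ x y : M, √κ * dist x y ≤ π) {u t : ℝ}
    (hu : u ∈ Icc 0 L) (ht : t ∈ Icc 0 L) (h1 : √κ * dist p (γ u) = π) :
    √κ * dist p (γ t) = π - √κ * |t - u| := by
  rcases le_total u t with h | h
  · rw [abs_of_nonneg (by linarith)]
    exact antip_right hA hκ hγ p hπ hdiam hu.1 h ht.2 h1
  · rw [abs_of_nonpos (by linarith)]
    have := antip_right hA hκ hγ.rev p hπ hdiam (u := L - u) (t := L - t) (by linarith [hu.2])
      (by linarith) (by linarith [ht.1]) (by simpa using h1)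
    simp only [sub_sub_cancel] at this
    rw [this]
    ring

/-- comparison for all triangles with one side `< π/√κ`, and the bound of the perimeter -/
theorem cmp_perim [CompleteSpace M] (hA : T.IsAlexandrov M κ) (hκ : 0 < κ)
    (hdiam : ∀ x y : M, √κ * dist x y ≤ π) {p x y w : M} (hw : dist x w + dist w y = dist x y)
    (hxy : √κ * dist x y < π) :
    T.Cmp κ (dist p x) (dist p y) (dist x w) (dist w y) (dist p w) ∧
      √κ * (dist p x + dist p y + dist x y) ≤ 2 * π := by
  have hk : 0 < √κ := Real.sqrt_pos.2 hκ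
  obtain ⟨γ, g0, gw, gL, hγ'⟩ := exists_geo_through hA.geodesic hw
  obtain ⟨L, hL⟩ : ∃ L, L = dist x y := ⟨_, rfl⟩
  rw [← hL] at gL hγ' hw hxy ⊢
  have hγ : IsG γ L := hγ'
  have n1 : 0 ≤ dist x w := dist_nonneg
  have n2 : 0 ≤ dist w y := dist_nonneg
  have hL0 : 0 ≤ L := by linarith
  rcases hL0.eq_or_lt with hL0' | hL0'
  · have z1 : dist x w = 0 := by linarith
    have z2 : dist w y = 0 := by linarith
    have e1 : w = x := (dist_eq_zero.1 z1).symm
    have e2 : y = x := by rw [← e1]; exact (dist_eq_zero.1 z2).symm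
    subst e1
    subst e2
    refine ⟨⟨fun h => absurd h hκ.ne', fun _ => by simp, fun h => absurd h (not_lt.2 hκ.le)⟩, ?_⟩
    rw [← hL0']
    have := hdiam p y
    linarith
  have mw : dist x w ∈ Icc 0 L := ⟨n1, by linarith⟩
  have hwy : dist w y = L - dist x w := by linarith
  by_cases hN : ∃ u ∈ Icc 0 L, √κ * dist p (γ u) = π
  · obtain ⟨u, hu, h1⟩ := hN
    have f0 := antip hA hκ hγ p hxy hdiam hu (t := 0) ⟨le_rfl, hL0⟩ h1
    have fL := antip hA hκ hγ p hxy hdiam hu (t := L) ⟨hL0, le_rfl⟩ h1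
    have fw := antip hA hκ hγ p hxy hdiam hu mw h1
    rw [g0, zero_sub, abs_neg, abs_of_nonneg hu.1] at f0
    rw [gL, abs_of_nonneg (by linarith [hu.2])] at fL
    rw [gw] at fw
    refine ⟨⟨fun h => absurd h hκ.ne', fun _ => ?_, fun h => absurd h (not_lt.2 hκ.le)⟩, ?_⟩
    · rw [f0, fL, fw, hwy, Real.cos_pi_sub, Real.cos_pi_sub, Real.cos_pi_sub]
      have e1 : cos (√κ * |dist x w - u|) = cos (√κ * (dist x w - u)) := by
        rcases le_total 0 (dist x w - u) with h | h
        · rw [abs_of_nonneg h]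
        · rw [abs_of_nonpos h, mul_neg, cos_neg]
      rw [e1, show dist x w + (L - dist x w) = L by ring]
      obtain ⟨s, hs⟩ : ∃ s, s = √κ * dist x w := ⟨_, rfl⟩
      obtain ⟨l, hl⟩ : ∃ l, l = √κ * L := ⟨_, rfl⟩
      obtain ⟨a, ha⟩ : ∃ a, a = √κ * u := ⟨_, rfl⟩
      simp only [mul_sub]
      rw [← hs, ← hl, ← ha]
      simp only [sin_sub, cos_sub]
      have e2 := sin_sq_add_cos_sq l
      have e3 : sin l ^ 2 = 1 - cos l ^ 2 := by linarith
      nlinarith [e3, mul_comm (sin s) (sin a)]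
    · have : √κ * (dist p x + dist p y + L) = √κ * dist p x + √κ * dist p y + √κ * L := by ring
      rw [this, f0, fL]
      have e2 : √κ * (L - u) = √κ * L - √κ * u := by ring
      linarith
  · push Not at hN
    have hN' : ∀ r ∈ Icc 0 L, √κ * dist p (γ r) < π := fun r hr =>
      lt_of_le_of_ne (hdiam _ _) (hN r hr)
    have hC : ∀ t ∈ Icc 0 L, T.Cmp κ (dist p x) (dist p y) t (L - t) (dist p (γ t)) := by
      intro t ht
      have := cmp_sub hA hκ hγ p le_rfl hL0' le_rfl (by rwa [sub_zero])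
        (fun r hr => hN' r ⟨hr.1.le, hr.2.le⟩) ht
      rwa [g0, gL, sub_zero] at this
    refine ⟨?_, ?_⟩
    · have := hC _ mw
      rwa [gw, ← hwy] at this
    · by_contra hcon
      push Not at hcon
      have ha := hN' 0 ⟨le_rfl, hL0⟩
      have hb := hN' L ⟨hL0, le_rfl⟩
      rw [g0] at ha
      rw [gL] at hb
      obtain ⟨t, ht⟩ : ∃ t, t = π / √κ - dist p x := ⟨_, rfl⟩
      have e1 : √κ * t = π - √κ * dist p x := by rw [ht]; field_simp
      have e0 : √κ * (dist p x + dist p y + L)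
          = √κ * dist p x + √κ * dist p y + √κ * L := by ring
      have t0 : 0 < t := (mul_pos_iff_of_pos_left hk).1 (by linarith)
      have tL : t < L := lt_of_mul_lt_mul_left (by linarith) hk.le
      have hCt := (hC t ⟨t0.le, tL.le⟩).2.1 hκ
      rw [show t + (L - t) = L by ring] at hCt
      have hsL : 0 < sin (√κ * L) := sin_pos_of_pos_of_lt_pi (by positivity) hxy
      have hst : 0 < sin (√κ * t) := sin_pos_of_pos_of_lt_pi (by positivity)
        (by nlinarith [dist_nonneg (x := p) (y := x)])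
      have hcb : cos (√κ * dist p y) < cos (√κ * dist p x + √κ * L) := by
        have e3 : cos (√κ * dist p x + √κ * L) = cos (2 * π - (√κ * dist p x + √κ * L)) := by
          rw [Real.cos_two_pi_sub]
        rw [e3]
        refine Real.strictAntiOn_cos ⟨by linarith, by linarith⟩ ⟨by positivity, hb.le⟩ (by linarith)
      have h5 := mul_lt_mul_of_pos_left hcb hst
      have h6 : sin (√κ * (L - t)) * cos (√κ * dist p x)
          + sin (√κ * t) * cos (√κ * dist p x + √κ * L) = - sin (√κ * L) := by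
        have e4 : √κ * (L - t) = √κ * L - √κ * t := by ring
        have e5 : √κ * dist p x = π - √κ * t := by linarith
        rw [e4, e5, show π - √κ * t + √κ * L = π - (√κ * t - √κ * L) by ring, Real.cos_pi_sub,
          Real.cos_pi_sub, sin_sub, cos_sub]
        have e6 := sin_sq_add_cos_sq (√κ * t)
        have e7 : sin (√κ * t) ^ 2 = 1 - cos (√κ * t) ^ 2 := by linarith
        nlinarith [e7]
      have h7 := Real.neg_one_le_cos (√κ * dist p (γ t))
      have h8 := mul_le_mul_of_nonneg_left h7 hsL.le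
      linarith

end Vale.Agent.P233.H416
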