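import Vale.Agent.P233.H416.GPos2

/-!
# P233 (RCDA), G-pos: `κ > 0`. From `diam ≤ π/√κ`: curvature `≥ κ'` for all `κ' ≤ κ`
-/

open Filter Topology Set Real

universe u

namespace Vale.Agent.P233.H416

open Vale.Agent.P233.H616

variable {M : Type u} [MetricSpace M] {κ : ℝ}

/-- **Every perimeter is `≤ 2π/√κ`.** -/
theorem perim [CompleteSpace M] (hA : T.IsAlexandrov M κ) (hκ : 0 < κ)
    (hdiam : ∀ x y : M, √κ * dist x y ≤ π) (x y z : M) :
    √κ * (dist x y + dist y z + dist z x) ≤ 2 * π := by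
  have hk : 0 < √κ := Real.sqrt_pos.2 hκ
  have base : ∀ p x y : M, √κ * dist x y < π →
      √κ * (dist p x + dist p y + dist x y) ≤ 2 * π := fun p x y h =>
    (cmp_perim hA hκ hdiam (p := p) (x := x) (y := y) (w := x) (by simp) h).2
  rcases (hdiam x y).lt_or_eq with h | h
  · have := base z x y h
    rw [dist_comm z y] at this
    linarith
  rcases (hdiam y z).lt_or_eq with h' | h'
  · have := base x y z h'
    rw [dist_comm x z] at this
    linarith
  rcases (hdiam z x).lt_or_eq with h'' | h''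
  · have := base y z x h''
    rw [dist_comm y x] at this
    linarith
  exfalso
  have hxy : dist x y = π / √κ := by rw [eq_div_iff hk.ne', mul_comm]; exact h
  have hyz : dist y z = π / √κ := by rw [eq_div_iff hk.ne', mul_comm]; exact h'
  have hzx : dist z x = π / √κ := by rw [eq_div_iff hk.ne', mul_comm]; exact h''
  have hkp : √κ * (π / √κ) = π := by field_simp
  have hp : 0 < π / √κ := by positivity
  obtain ⟨w, h1, h2⟩ := hA.geodesic x y (3 * (π / √κ) / 4) (π / √κ / 4) (by positivity)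
    (by positivity) (by rw [hxy]; ring)
  have h3 : √κ * dist x w < π := by
    rw [h1, ← mul_div_assoc, mul_left_comm, hkp]
    linarith [Real.pi_pos]
  have h4 := base z x w h3
  rw [h1, hzx] at h4
  have h5 : √κ * (π / √κ + dist z w + 3 * (π / √κ) / 4)
      = √κ * dist z w + 7 / 4 * (√κ * (π / √κ)) := by ring
  rw [h5, hkp] at h4
  have h6 : √κ * dist y z ≤ √κ * (π / √κ / 4 + dist z w) := by
    refine mul_le_mul_of_nonneg_left ?_ hk.le
    have := dist_triangle y w z
    rw [dist_comm y w, h2, dist_comm w z] at this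
    exact this
  have h7 : √κ * (π / √κ / 4 + dist z w) = √κ * (π / √κ) / 4 + √κ * dist z w := by ring
  rw [h7, hkp, h'] at h6
  linarith [Real.pi_pos]

/-- `ct_κ ≤ ct_κ'` for `κ' ≤ κ` -/
theorem cot_mono {κ κ' : ℝ} (h : κ' ≤ κ) {r : ℝ} (hr : 0 ≤ r) (hπ : 0 < κ → √κ * r ≤ π) :
    sn κ' r * cs κ r ≤ cs κ' r * sn κ r := by
  obtain ⟨W, hW⟩ : ∃ W : ℝ → ℝ, W = fun r => cs κ' r * sn κ r - sn κ' r * cs κ r := ⟨_, rfl⟩
  have hd : ∀ t, HasDerivAt W ((κ - κ') * (sn κ' t * sn κ t)) t := by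
    intro t
    rw [hW]
    have := ((hasDerivAt_cs κ' t).mul (hasDerivAt_sn κ t)).sub
      ((hasDerivAt_sn κ' t).mul (hasDerivAt_cs κ t))
    refine this.congr_deriv ?_
    ring
  have hπ' : 0 < κ' → √κ' * r ≤ π := fun h' =>
    (mul_le_mul_of_nonneg_right (Real.sqrt_le_sqrt h) hr).trans (hπ (h'.trans_le h))
  have hmono : MonotoneOn W (Icc 0 r) := by
    refine monotoneOn_of_deriv_nonneg (convex_Icc 0 r)
      (fun t _ => (hd t).continuousAt.continuousWithinAt)
      (fun t _ => (hd t).differentiableAt.differentiableWithinAt) ?_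
    intro t ht
    rw [interior_Icc] at ht
    rw [(hd t).deriv]
    refine mul_nonneg (by linarith) (mul_nonneg ?_ ?_)
    · exact sn_nonneg ht.1.le fun h' => le_trans
        (mul_le_mul_of_nonneg_left ht.2.le (Real.sqrt_nonneg _)) (hπ' h')
    · exact sn_nonneg ht.1.le fun h' => le_trans
        (mul_le_mul_of_nonneg_left ht.2.le (Real.sqrt_nonneg _)) (hπ h')
  have h1 := hmono ⟨le_rfl, hr⟩ ⟨hr, le_rfl⟩ hr
  rw [hW] at h1
  simp only [sn_at_zero, cs_at_zero] at h1
  linarith

/-- second order expansions with a common error -/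
theorem expand (κ : ℝ) (η : ℝ) (hη : 0 < η) : ∀ᶠ h in 𝓝[>] (0 : ℝ), ∀ δ, |δ| ≤ h →
    |md κ δ - δ ^ 2 / 2| ≤ η * h ^ 2 ∧ |sn κ δ - δ| ≤ η * h ^ 2 := by
  -- `md`
  have hm : ∀ᶠ h in 𝓝[>] (0 : ℝ), |2 * md κ h / h ^ 2 - 1| < η := by
    have := (tendsto_md κ).sub_const 1
    rw [sub_self] at this
    have h2 := this.abs
    rw [abs_zero] at h2
    exact h2.eventually_lt_const hη
  have hs : ∀ᶠ h in 𝓝[>] (0 : ℝ), |(sn κ h - h) / h ^ 2| < η := by
    have h1 : Tendsto (fun h => (sn κ h - h) / h ^ 2) (𝓝[>] 0) (𝓝 0) := by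
      have h0 : Tendsto (fun h => (cs κ h - 1) / (2 * h)) (𝓝[>] 0) (𝓝 0) := by
        have := (hasDerivAt_cs κ 0).tendsto_slope_zero_right
        simp only [sn_at_zero, cs_at_zero, zero_add, mul_zero, neg_zero, smul_eq_mul] at this
        have h3 := this.const_mul (1 / 2 : ℝ)
        rw [mul_zero] at h3
        refine h3.congr fun h => ?_
        rw [← div_eq_inv_mul]
        by_cases hh : h = 0
        · simp [hh]
        · field_simp
      refine HasDerivAt.lhopital_zero_nhdsGT (f := fun h => sn κ h - h) (g := fun h => h ^ 2)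
        (f' := fun h => cs κ h - 1) (g' := fun h => 2 * h) ?_ ?_ ?_ ?_ ?_ h0
      · exact Eventually.of_forall fun h => (hasDerivAt_sn κ h).sub (hasDerivAt_id h)
      · refine Eventually.of_forall fun h => ?_
        have := hasDerivAt_pow 2 h
        simpa using this
      · filter_upwards [self_mem_nhdsWithin] with h hh
        have : (0 : ℝ) < h := hh
        positivity
      · have h2 : Continuous fun h => sn κ h - h := (continuous_sn κ).sub continuous_id
        have h3 := h2.tendsto 0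
        rw [sn_at_zero, sub_zero] at h3
        exact h3.mono_left nhdsWithin_le_nhds
      · have := (continuous_pow 2).tendsto (0 : ℝ)
        simp only [ne_eq, OfNat.ofNat_ne_zero, not_false_eq_true, zero_pow] at this
        exact this.mono_left nhdsWithin_le_nhds
    have h2 := h1.abs
    rw [abs_zero] at h2
    exact h2.eventually_lt_const hη
  obtain ⟨ρ, hρ, hρI⟩ := mem_nhdsGT_iff_exists_Ioo_subset.1 (hm.and hs)
  have hρ0 : (0 : ℝ) < ρ := hρ
  filter_upwards [Ioo_mem_nhdsGT hρ0] with h hh δ hδ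
  have hh0 : 0 < h := hh.1
  have key : ∀ d, 0 < d → d ≤ h → |md κ d - d ^ 2 / 2| ≤ η * h ^ 2 ∧ |sn κ d - d| ≤ η * h ^ 2 := by
    intro d hd hdh
    obtain ⟨a1, a2⟩ := hρI ⟨hd, hdh.trans_lt hh.2⟩
    have hd2 : 0 < d ^ 2 := by positivity
    have hdd : d ^ 2 ≤ h ^ 2 := pow_le_pow_left₀ hd.le hdh 2
    constructor
    · have e : md κ d - d ^ 2 / 2 = (2 * md κ d / d ^ 2 - 1) * (d ^ 2 / 2) := by
        field_simp
      rw [e, abs_mul, abs_of_pos (show 0 < d ^ 2 / 2 by positivity)]
      calc |2 * md κ d / d ^ 2 - 1| * (d ^ 2 / 2) ≤ η * (d ^ 2 / 2) :=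
            mul_le_mul_of_nonneg_right a1.le (by positivity)
        _ ≤ η * h ^ 2 := mul_le_mul_of_nonneg_left (by linarith) hη.le
    · have e : sn κ d - d = (sn κ d - d) / d ^ 2 * d ^ 2 := by field_simp
      rw [e, abs_mul, abs_of_pos hd2]
      calc |(sn κ d - d) / d ^ 2| * d ^ 2 ≤ η * d ^ 2 :=
            mul_le_mul_of_nonneg_right a2.le hd2.le
        _ ≤ η * h ^ 2 := mul_le_mul_of_nonneg_left hdd hη.le
  rcases lt_trichotomy δ 0 with hδ0 | hδ0 | hδ0
  · have := key (-δ) (by linarith) (by rw [abs_of_neg hδ0] at hδ; exact hδ)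
    rw [md_neg, sn_neg, neg_sq] at this
    refine ⟨this.1, ?_⟩
    have e : |sn κ δ - δ| = |-sn κ δ - -δ| := by
      rw [show -sn κ δ - -δ = -(sn κ δ - δ) by ring, abs_neg]
    rw [e]
    exact this.2
  · subst hδ0
    simp only [md_at_zero, sn_at_zero, ne_eq, OfNat.ofNat_ne_zero, not_false_eq_true, zero_pow,
      zero_div, sub_zero, abs_zero]
    exact ⟨by positivity, by positivity⟩
  · exact key δ hδ0 (by rw [abs_of_pos hδ0] at hδ; exact hδ)

end Vale.Agent.P233.H416
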