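import Vale.Agent.P233.MathlibUsed2

/-!
# P233 (RCDA): geodesics as curves in a complete space, from points at prescribed distances
-/

open Filter Topology Set

universe u

namespace Vale.Agent.P233.H416

variable {M : Type u} [MetricSpace M]

/-- a partial isometry of `[0,L]` to `M`, as a graph -/
def PIso (L : ℝ) (G : Set (ℝ × M)) : Prop :=
  (∀ a ∈ G, a.1 ∈ Icc 0 L) ∧ ∀ a ∈ G, ∀ b ∈ G, dist a.2 b.2 = |a.1 - b.1|

theorem PIso.ins {L : ℝ} {G : Set (ℝ × M)} (hG : PIso L G) {c : ℝ} {w : M} (hc : c ∈ Icc 0 L)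
    (h : ∀ b ∈ G, dist w b.2 = |c - b.1|) : PIso L (insert (c, w) G) := by
  refine ⟨?_, ?_⟩
  · rintro a (rfl | ha)
    · exact hc
    · exact hG.1 a ha
  · rintro a (rfl | ha) b (rfl | hb)
    · simp
    · exact h b hb
    · rw [dist_comm, h a ha, abs_sub_comm]
    · exact hG.2 a ha b hb

theorem exists_maximal_piso {L : ℝ} {G₀ : Set (ℝ × M)} (h₀ : PIso L G₀) :
    ∃ G : Set (ℝ × M), G₀ ⊆ G ∧ PIso L G ∧ ∀ G', PIso L G' → G ⊆ G' → G' ⊆ G := by
  obtain ⟨G, hG0, hG⟩ := zorn_subset_nonempty {G : Set (ℝ × M) | PIso L G} (fun c hc hch hne => by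
    refine ⟨⋃₀ c, ⟨?_, ?_⟩, fun s hs => subset_sUnion_of_mem hs⟩
    · rintro a ⟨s, hs, ha⟩
      exact (hc hs).1 a ha
    · rintro a ⟨s, hs, ha⟩ b ⟨t, ht, hb⟩
      rcases hch.total hs ht with h | h
      · exact (hc ht).2 a (h ha) b hb
      · exact (hc hs).2 a ha b (h hb)) G₀ h₀
  exact ⟨G, hG0, hG.prop, fun G' hG' h => hG.le_of_ge hG' h⟩

/-- the domain of a maximal partial isometry is closed -/
theorem PIso.isClosed_dom [CompleteSpace M] {L : ℝ} {G : Set (ℝ × M)} (hG : PIso L G)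
    (hmax : ∀ G', PIso L G' → G ⊆ G' → G' ⊆ G) : IsClosed {s : ℝ | ∃ u, (s, u) ∈ G} := by
  rw [← isSeqClosed_iff_isClosed]
  intro s c hs hc
  choose u hu using hs
  have hcau : CauchySeq u := by
    rw [Metric.cauchySeq_iff']
    intro ε hε
    have h1 := Metric.cauchySeq_iff'.1 hc.cauchySeq ε hε
    obtain ⟨N, hN⟩ := h1
    refine ⟨N, fun n hn => ?_⟩
    rw [hG.2 _ (hu n) _ (hu N)]
    have := hN n hn
    rwa [Real.dist_eq] at this
  obtain ⟨w, hw⟩ := cauchySeq_tendsto_of_complete hcau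
  have hcI : c ∈ Icc 0 L := isClosed_Icc.mem_of_tendsto hc
    (Eventually.of_forall fun n => hG.1 _ (hu n))
  have h2 : PIso L (insert (c, w) G) := hG.ins hcI fun b hb => by
    have h3 : Tendsto (fun n => dist (u n) b.2) atTop (𝓝 (dist w b.2)) :=
      hw.dist tendsto_const_nhds
    have h4 : Tendsto (fun n => |s n - b.1|) atTop (𝓝 |c - b.1|) := (hc.sub_const _).abs
    refine tendsto_nhds_unique h3 (h4.congr fun n => ?_)
    rw [hG.2 _ (hu n) _ hb]
  exact ⟨w, hmax _ h2 (subset_insert _ _) (mem_insert _ _)⟩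

/-- a maximal partial isometry that contains the end points is defined everywhere -/
theorem PIso.total [CompleteSpace M] (hgeo : ∀ x y : M, ∀ s t : ℝ, 0 ≤ s → 0 ≤ t →
      s + t = dist x y → ∃ w, dist x w = s ∧ dist w y = t)
    {L : ℝ} {G : Set (ℝ × M)} (hG : PIso L G)
    (hmax : ∀ G', PIso L G' → G ⊆ G' → G' ⊆ G) (h0 : ∃ u, ((0 : ℝ), u) ∈ G)
    (hL : ∃ u, (L, u) ∈ G) {c : ℝ} (hc : c ∈ Icc 0 L) : ∃ u, (c, u) ∈ G := by
  by_contra hne
  have hcl := hG.isClosed_dom hmax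
  obtain ⟨S, hS⟩ : ∃ S : Set ℝ, S = {s : ℝ | ∃ u, (s, u) ∈ G} := ⟨_, rfl⟩
  rw [← hS] at hcl
  have hcS : c ∉ S := by rw [hS]; exact hne
  have hA : (S ∩ Iic c).Nonempty := ⟨0, by rw [hS]; exact h0, hc.1⟩
  have hB : (S ∩ Ici c).Nonempty := ⟨L, by rw [hS]; exact hL, hc.2⟩
  have hAb : BddAbove (S ∩ Iic c) := ⟨c, fun s hs => hs.2⟩
  have hBb : BddBelow (S ∩ Ici c) := ⟨c, fun s hs => hs.2⟩
  have ha := (hcl.inter isClosed_Iic).csSup_mem hA hAb
  have hb := (hcl.inter isClosed_Ici).csInf_mem hB hBb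
  obtain ⟨a, hadef⟩ : ∃ a, a = sSup (S ∩ Iic c) := ⟨_, rfl⟩
  obtain ⟨b, hbdef⟩ : ∃ b, b = sInf (S ∩ Ici c) := ⟨_, rfl⟩
  rw [← hadef] at ha
  rw [← hbdef] at hb
  have hac : a < c := lt_of_le_of_ne ha.2 fun h => hcS (h ▸ ha.1)
  have hcb : c < b := lt_of_le_of_ne hb.2 fun h => hcS (h ▸ hb.1)
  have ha1 := ha.1
  have hb1 := hb.1
  rw [hS] at ha1 hb1
  obtain ⟨ua, hua⟩ := ha1
  obtain ⟨ub, hub⟩ := hb1
  have hd : dist ua ub = b - a := by
    rw [hG.2 _ hua _ hub]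
    show |a - b| = b - a
    rw [abs_sub_comm, abs_of_pos (by linarith)]
  obtain ⟨w, hw1, hw2⟩ := hgeo ua ub (c - a) (b - c) (by linarith) (by linarith)
    (by rw [hd]; ring)
  have h2 : PIso L (insert (c, w) G) := hG.ins hc fun e he => by
    have heS : e.1 ∈ S := by rw [hS]; exact ⟨e.2, he⟩
    have h3 : dist ua e.2 = |a - e.1| := hG.2 _ hua _ he
    have h4 : dist ub e.2 = |b - e.1| := hG.2 _ hub _ he
    have t1 : dist w e.2 ≤ dist w ua + dist ua e.2 := dist_triangle _ _ _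
    have t2 : dist w e.2 ≤ dist w ub + dist ub e.2 := dist_triangle _ _ _
    have t3 : dist ua e.2 ≤ dist ua w + dist w e.2 := dist_triangle _ _ _
    have t4 : dist ub e.2 ≤ dist ub w + dist w e.2 := dist_triangle _ _ _
    rw [dist_comm w ua, hw1, h3] at t1
    rw [hw2, h4] at t2
    rw [hw1, h3] at t3
    rw [dist_comm ub w, hw2, h4] at t4
    rcases le_total e.1 c with h | h
    · have h5 : e.1 ≤ a := by rw [hadef]; exact le_csSup hAb ⟨heS, h⟩
      rw [abs_of_nonneg (by linarith : 0 ≤ a - e.1)] at t1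
      rw [abs_of_nonneg (by linarith : 0 ≤ b - e.1)] at t4
      rw [abs_of_nonneg (by linarith)]
      linarith
    · have h5 : b ≤ e.1 := by rw [hbdef]; exact csInf_le hBb ⟨heS, h⟩
      rw [abs_of_nonpos (by linarith : b - e.1 ≤ 0)] at t2
      rw [abs_of_nonpos (by linarith : a - e.1 ≤ 0)] at t3
      rw [abs_of_nonpos (by linarith)]
      linarith
  exact hne ⟨w, hmax _ h2 (subset_insert _ _) (mem_insert _ _)⟩

/-- In a complete space with the property of points at prescribed distances, there is a geodesic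
from `x` to `y` through every point `w` with `|xw| + |wy| = |xy|`. -/
theorem exists_geo_through [CompleteSpace M] (hgeo : ∀ x y : M, ∀ s t : ℝ, 0 ≤ s → 0 ≤ t →
      s + t = dist x y → ∃ w, dist x w = s ∧ dist w y = t)
    {x y w : M} (hw : dist x w + dist w y = dist x y) :
    ∃ γ : ℝ → M, γ 0 = x ∧ γ (dist x w) = w ∧ γ (dist x y) = y ∧
      ∀ s ∈ Icc 0 (dist x y), ∀ t ∈ Icc 0 (dist x y), dist (γ s) (γ t) = |s - t| := by
  have n1 : 0 ≤ dist x w := dist_nonneg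
  have n2 : 0 ≤ dist w y := dist_nonneg
  have h₀ : PIso (dist x y) ({((0 : ℝ), x), (dist x w, w), (dist x y, y)} : Set (ℝ × M)) := by
    refine ⟨?_, ?_⟩
    · rintro a (rfl | rfl | rfl)
      · exact ⟨le_rfl, dist_nonneg⟩
      · exact ⟨n1, by linarith⟩
      · exact ⟨dist_nonneg, le_rfl⟩
    · rintro a (rfl | rfl | rfl) b (rfl | rfl | rfl)
      · simp
      · simp
      · simp
      · simp [dist_comm]
      · simp
      · show dist w y = |dist x w - dist x y|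
        rw [abs_of_nonpos (by linarith)]; linarith
      · simp [dist_comm]
      · show dist y w = |dist x y - dist x w|
        rw [abs_of_nonneg (by linarith), dist_comm y w]; linarith
      · simp
  obtain ⟨G, hG0, hG, hmax⟩ := exists_maximal_piso h₀
  have m1 : ((0 : ℝ), x) ∈ G := hG0 (by simp)
  have m2 : (dist x w, w) ∈ G := hG0 (by simp)
  have m3 : (dist x y, y) ∈ G := hG0 (by simp)
  have htot : ∀ c ∈ Icc 0 (dist x y), ∃ u, (c, u) ∈ G := fun c hc =>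
    hG.total hgeo hmax ⟨x, m1⟩ ⟨y, m3⟩ hc
  classical
  have : Nonempty M := ⟨x⟩
  choose! γ hγ using htot
  have huniq : ∀ c u v, (c, u) ∈ G → (c, v) ∈ G → u = v := fun c u v hu hv => by
    have := hG.2 _ hu _ hv
    simp only [sub_self, abs_zero] at this
    exact dist_eq_zero.1 this
  refine ⟨γ, huniq _ _ _ (hγ 0 ⟨le_rfl, dist_nonneg⟩) m1,
    huniq _ _ _ (hγ _ ⟨n1, by linarith⟩) m2, huniq _ _ _ (hγ _ ⟨dist_nonneg, le_rfl⟩) m3,
    fun s hs t ht => hG.2 _ (hγ s hs) _ (hγ t ht)⟩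

/-- geodesics exist -/
theorem exists_geo [CompleteSpace M] (hgeo : ∀ x y : M, ∀ s t : ℝ, 0 ≤ s → 0 ≤ t →
      s + t = dist x y → ∃ w, dist x w = s ∧ dist w y = t) (x y : M) :
    ∃ γ : ℝ → M, γ 0 = x ∧ γ (dist x y) = y ∧
      ∀ s ∈ Icc 0 (dist x y), ∀ t ∈ Icc 0 (dist x y), dist (γ s) (γ t) = |s - t| := by
  obtain ⟨γ, h1, -, h3, h4⟩ := exists_geo_through hgeo (x := x) (y := y) (w := x) (by simp)
  exact ⟨γ, h1, h3, h4⟩

end Vale.Agent.P233.H416
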