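import Vale.Agent.P233.H416.GPos4
import Vale.Agent.P233.H671.G2

/-! P233, RCDA: P3 and block G2, unconditional (helper416). -/

open MeasureTheory Filter Topology Set Metric
open scoped ENNReal NNReal MeasureTheory

universe u

namespace Vale.Agent.P233.H416

/-- P3, literally -/
theorem p3 : RG.G2.P3.{u} := fun _ _ _ _ hk hA hd => isAlexandrov_le hA hk hd hk.le

/-- block G2 -/
theorem blk_G2 : RG.Blk_G2.{u} := RG.G2.blk_G2_of p3

end Vale.Agent.P233.H416
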