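import Vale.Agent.P233.H416.RegLog2
import Vale.Agent.P233.H825.RA5

/-! P233, stage 3, block R (helper416), part 3: almost every point is regular. -/

set_option linter.all false

open Set Filter Metric Topology MeasureTheory
open scoped ENNReal NNReal MeasureTheory

namespace Vale.Agent.P233.H416.Reg

open Vale.Agent.P233.H616

theorem near_fun {M : Type*} [MetricSpace M] {T : Set M} {z : M} (hz : z ∈ T)
    (hT : RA.DensePt T z) : ∃ w : M → M, w z = z ∧ (∀ y, w y ∈ T) ∧
      ∀ ε > 0, ∃ δ > 0, ∀ y ∈ ball z δ, dist y (w y) ≤ ε * dist z y := by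
  classical
  have hne : T.Nonempty := ⟨z, hz⟩
  have h1 : ∀ y, ∃ y' ∈ T, (y = z → y' = z) ∧ (y ≠ z → dist y y' < infDist y T + dist z y ^ 2) := by
    intro y
    by_cases hy : y = z
    · exact ⟨z, hz, fun _ => rfl, fun h => absurd hy h⟩
    · have h2 : infDist y T < infDist y T + dist z y ^ 2 := by
        have : 0 < dist z y := dist_pos.2 (Ne.symm hy)
        have : 0 < dist z y ^ 2 := by positivity
        linarith
      obtain ⟨y', h3, h4⟩ := (infDist_lt_iff hne).1 h2
      exact ⟨y', h3, fun h => absurd h hy, fun _ => h4⟩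
  choose w hw1 hw2 hw3 using h1
  refine ⟨w, hw2 z rfl, hw1, fun ε hε => ?_⟩
  have h2 := hT (ε / 2) (by positivity)
  obtain ⟨δ, hδ, h3⟩ := Metric.eventually_nhds_iff_ball.1 h2
  refine ⟨min δ (ε / 2), by positivity, fun y hy => ?_⟩
  rw [mem_ball, lt_min_iff] at hy
  by_cases hyz : y = z
  · subst hyz
    rw [hw2 y rfl, dist_self, mul_zero]
  · obtain ⟨y', h4, h5⟩ := h3 y (by rw [mem_ball]; exact hy.1)
    have h6 := hw3 y hyz
    have h7 : infDist y T ≤ dist y y' := infDist_le_dist_of_mem h4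
    have h8 : dist z y ≤ ε / 2 := by rw [dist_comm]; exact hy.2.le
    have h9 : 0 ≤ dist z y := dist_nonneg
    nlinarith

theorem achart_of {M : Type*} [MetricSpace M] {n : ℕ} {lam : ℝ} (hlam : 1 ≤ lam)
    {S : Set (E n)} {g : E n → M} (hg : ∀ v ∈ S, ∀ w ∈ S,
      dist (g v) (g w) ≤ lam * dist v w ∧ dist v w ≤ lam * dist (g v) (g w))
    {u : E n} (hu : u ∈ S) (hT : RA.DensePt (g '' S) (g u)) :
    ∃ c : M → E n, AChart (g u) lam c := by
  classical
  obtain ⟨w, hwz, hwT, hw⟩ := near_fun (mem_image_of_mem g hu) hT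
  choose f hfS hf using hwT
  have hfz : f (g u) = u := by
    have h1 := (hg (f (g u)) (hfS _) u hu).2
    rw [hf, hwz, dist_self, mul_zero] at h1
    exact dist_le_zero.1 h1
  refine ⟨fun y => f y - u, by simp [hfz], fun ε hε => ?_⟩
  obtain ⟨δ, hδ, h⟩ := hw ε hε
  refine ⟨δ, hδ, fun y hy y' hy' => ?_⟩
  have e : f y - u - (f y' - u) = f y - f y' := by abel
  rw [e, ← dist_eq_norm]
  have h1 := h y hy
  have h2 := h y' hy'
  obtain ⟨h3, h4⟩ := hg (f y) (hfS y) (f y') (hfS y')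
  rw [hf, hf] at h3 h4
  have h5 : dist (w y) (w y') ≤ dist y y' + ε * (dist (g u) y + dist (g u) y') := by
    have := dist_triangle4 (w y) y y' (w y')
    rw [dist_comm (w y) y] at this
    linarith
  have h6 : dist y y' ≤ dist (w y) (w y') + ε * (dist (g u) y + dist (g u) y') := by
    have := dist_triangle4 y (w y) (w y') y'
    rw [dist_comm (w y') y'] at this
    linarith
  refine ⟨h4.trans ?_, h6.trans ?_⟩
  · exact mul_le_mul_of_nonneg_left h5 (by linarith)
  · linarith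

universe u

variable {M : Type u} [MetricSpace M] [MeasurableSpace M] [BorelSpace M] {n : ℕ}

theorem ae_achart [SecondCountableTopology M] [IsUnifLocDoublingMeasure (μH[n] : Measure M)]
    [IsLocallyFiniteMeasure (μH[n] : Measure M)]
    (hR : ∀ τ > 0, RA.SRect (μH[n] : Measure M) n τ) : ∀ᵐ z ∂(μH[n] : Measure M), ∀ k : ℕ,
      ∃ c : M → E n, AChart z (1 + 1 / ((k : ℝ) + 1)) c := by
  rw [ae_all_iff]
  intro k
  have hk : (0 : ℝ) < 1 / ((k : ℝ) + 1) := by positivity
  obtain ⟨S, g, hg, hS⟩ := hR _ hk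
  have h0 : (0 : ℝ) ≤ 1 + 1 / ((k : ℝ) + 1) := by linarith
  have hP : ∀ j, (μH[n] : Measure (EuclideanSpace ℝ (Fin n)))
      {u | u ∈ S j ∧ ¬ True} = 0 := by intro j; simp
  have hR : ∀ j, (μH[n] : Measure M) {x | x ∈ g j '' S j ∧ ¬ RA.DensePt (g j '' S j) x} = 0 :=
    fun j => RA.ae_densePt _ _
  filter_upwards [RA.SRect.ae_exists h0 hg hS hP hR] with z hz
  obtain ⟨j, u, hu, rfl, -, hd⟩ := hz
  exact achart_of (by linarith) (fun v hv w hw => hg j v hv w hw) hu hd

/-- A regular point. -/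
structure IsReg (κ : ℝ) (n : ℕ) (z : M) : Prop where
  log : ∃ L : M → E n, IsLog κ z L
  dens : Tendsto (fun r : ℝ => ((μH[n] : Measure M) (ball z r)).toReal / r ^ n) (𝓝[>] 0)
    (𝓝 (RA.om n))

/-- **Block R**: almost every point is regular. -/
theorem ae_isReg [CompleteSpace M] [SecondCountableTopology M] {κ : ℝ}
    (hA : T.IsAlexandrov M κ) (hG : RG.GeoN (μH[n] : Measure M) n)
    (hR : ∀ τ > 0, RG.SRect (μH[n] : Measure M) n τ) :
    ∀ᵐ z ∂(μH[n] : Measure M), IsReg κ n z := by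
  haveI := hG.geo.dbl
  haveI := RG.isLocallyFinite_of hG.fin
  filter_upwards [ae_achart (n := n) hR, RA.ae_dens (n := n) hR] with z h1 h2
  exact ⟨exists_log hA h1, h2⟩

end Vale.Agent.P233.H416.Reg
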