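import Mathlib

/-! P233, stage 3, block V (helper416), part 1: the linear map with radial factor `1` and
tangential factor `c`. -/

set_option linter.all false

open Set MeasureTheory Matrix
open scoped ENNReal NNReal MeasureTheory

namespace Vale.Agent.P233.H416.Reg

/-- radial factor `1` (in the direction `e`), tangential factor `c` -/
noncomputable def stretch {n : ℕ} (e : EuclideanSpace ℝ (Fin n)) (c : ℝ) :
    EuclideanSpace ℝ (Fin n) →ₗ[ℝ] EuclideanSpace ℝ (Fin n) :=
  c • LinearMap.id + (1 - c) • ((innerSL ℝ e).toLinearMap.smulRight e)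

theorem stretch_apply {n : ℕ} (e : EuclideanSpace ℝ (Fin n)) (c : ℝ)
    (w : EuclideanSpace ℝ (Fin n)) :
    stretch e c w = c • w + ((1 - c) * inner ℝ e w) • e := by
  simp [stretch, smul_smul]

theorem norm_stretch_sq {n : ℕ} {e : EuclideanSpace ℝ (Fin n)} (he : ‖e‖ = 1) (c : ℝ)
    (w : EuclideanSpace ℝ (Fin n)) :
    ‖stretch e c w‖ ^ 2 = (1 - c ^ 2) * inner ℝ e w ^ 2 + c ^ 2 * ‖w‖ ^ 2 := by
  rw [stretch_apply, norm_add_sq_real, norm_smul, norm_smul, he, inner_smul_left, inner_smul_right,
    real_inner_comm e w]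
  simp only [conj_trivial, mul_one, mul_pow, Real.norm_eq_abs, sq_abs]
  ring

theorem det_stretch {n : ℕ} {e : EuclideanSpace ℝ (Fin n)} (he : ‖e‖ = 1) {c : ℝ} (hc : c ≠ 0) :
    LinearMap.det (stretch e c) = c ^ (n - 1) := by
  classical
  set b := (EuclideanSpace.basisFun (Fin n) ℝ).toBasis with hb
  rw [← LinearMap.det_toMatrix b]
  have h1 : LinearMap.toMatrix b b (stretch e c) =
      c • (1 + replicateCol Unit (fun i => (1 - c) / c * e i) * replicateRow Unit (fun i => e i)) := by
    ext i j
    rw [LinearMap.toMatrix_apply, stretch_apply]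
    simp only [hb, OrthonormalBasis.coe_toBasis, EuclideanSpace.basisFun_apply,
      OrthonormalBasis.coe_toBasis_repr_apply, map_add, map_smul]
    simp [Matrix.mul_apply, EuclideanSpace.basisFun_repr, Matrix.one_apply, mul_add,
      EuclideanSpace.inner_single_right, Pi.single_apply]
    field_simp
  rw [h1, Matrix.det_smul, det_one_add_replicateCol_mul_replicateRow, Fintype.card_fin]
  have h2 : (fun i => e i) ⬝ᵥ (fun i => (1 - c) / c * e i) = (1 - c) / c := by
    have h3 : ∑ i, e i ^ 2 = 1 := by
      have := EuclideanSpace.norm_sq_eq e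
      rw [he] at this
      simpa using this.symm
    rw [dotProduct]
    calc ∑ i, e i * ((1 - c) / c * e i) = (1 - c) / c * ∑ i, e i ^ 2 := by
          rw [Finset.mul_sum]
          refine Finset.sum_congr rfl fun i _ => ?_
          ring
      _ = (1 - c) / c := by rw [h3, mul_one]
  rw [h2]
  have hn : n ≠ 0 := by
    rintro rfl
    have : e = 0 := Subsingleton.elim _ _
    rw [this, norm_zero] at he
    exact zero_ne_one he
  have h4 : 1 + (1 - c) / c = c⁻¹ := by field_simp; ring
  rw [h4]
  obtain ⟨k, rfl⟩ := Nat.exists_eq_succ_of_ne_zero hn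
  rw [Nat.succ_eq_add_one, Nat.add_sub_cancel, pow_succ, mul_assoc, mul_inv_cancel₀ hc, mul_one]

theorem haus_stretch {n : ℕ} {e : EuclideanSpace ℝ (Fin n)} (he : ‖e‖ = 1) {c : ℝ} (hc : 0 < c)
    (S : Set (EuclideanSpace ℝ (Fin n))) :
    (μH[n] : Measure (EuclideanSpace ℝ (Fin n))) (stretch e c '' S) =
      ENNReal.ofReal (c ^ (n - 1)) * (μH[n] : Measure (EuclideanSpace ℝ (Fin n))) S := by
  have h : (μH[n] : Measure (EuclideanSpace ℝ (Fin n))).IsAddHaarMeasure := by
    have := isAddHaarMeasure_hausdorffMeasure (E := EuclideanSpace ℝ (Fin n))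
    rw [finrank_euclideanSpace_fin] at this
    exact this
  rw [Measure.addHaar_image_linearMap, det_stretch he hc.ne', abs_of_pos (by positivity)]

end Vale.Agent.P233.H416.Reg
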