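import Vale.Agent.P233.H416.GeoCurve
import Vale.Agent.P233.H715.RG1
import Mathlib.Analysis.InnerProductSpace.PiL2

/-! P233, stage 3, block R (helper416), part 1: the exact logarithm at a regular point of an
Alexandrov space, from almost isometric charts at the point. -/

set_option linter.all false

open Set Filter Metric Topology

namespace Vale.Agent.P233.H416.Reg

open Vale.Agent.P233.H616

variable {M : Type*} [MetricSpace M]

/-- `ℝⁿ` with the Euclidean norm -/
abbrev E (n : ℕ) : Type := EuclideanSpace ℝ (Fin n)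

/-- An exact logarithm at `z`. -/
structure IsLog {n : ℕ} (κ : ℝ) (z : M) (L : M → E n) : Prop where
  nrm : ∀ v, ‖L v‖ = dist z v
  between : ∀ x y, dist x z + dist z y = dist x y → dist z y • L x + dist z x • L y = 0
  hinge : ∀ x v, z ≠ x → z ≠ v → √κ * (dist z x + dist z v + dist x v) < 2 * Real.pi →
    md κ (dist x v) ≤ md κ (dist z x - dist z v) + sn κ (dist z x) * sn κ (dist z v)
      * (1 - inner ℝ (L x) (L v) / (dist z x * dist z v))

/-- an almost isometric chart at `z` -/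
def AChart {n : ℕ} (z : M) (lam : ℝ) (c : M → E n) : Prop :=
  c z = 0 ∧ ∀ ε > 0, ∃ δ > 0, ∀ y ∈ ball z δ, ∀ y' ∈ ball z δ,
    ‖c y - c y'‖ ≤ lam * (dist y y' + ε * (dist z y + dist z y')) ∧
    dist y y' ≤ lam * ‖c y - c y'‖ + ε * (dist z y + dist z y')

/-! ### limits along ultrafilters -/

theorem ulim {ι F : Type*} [NormedAddCommGroup F] [ProperSpace F] (U : Ultrafilter ι) (f : ι → F)
    {C : ℝ} (hf : ∀ᶠ r in (U : Filter ι), ‖f r‖ ≤ C) : ∃ a, Tendsto f U (𝓝 a) := by
  have h := (isCompact_closedBall (0 : F) C).ultrafilter_le_nhds (U.map f) (by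
    rw [le_principal_iff]
    change f ⁻¹' closedBall 0 C ∈ (U : Filter ι)
    filter_upwards [hf] with r hr
    simpa [mem_closedBall, dist_zero_right] using hr)
  obtain ⟨a, -, ha⟩ := h
  exact ⟨a, ha⟩

/-- unit vectors from the chordal distances -/
theorem exists_dir {n : ℕ} {z : M} (U : Ultrafilter ℝ) (hU : (U : Filter ℝ) ≤ 𝓝[>] 0)
    (γ : M → ℝ → M) (hγ : ∀ v, z ≠ v → ∀ᶠ r in 𝓝[>] (0 : ℝ), dist z (γ v r) = r)
    (ρ : M → M → ℝ) (hρ : ∀ x v, z ≠ x → z ≠ v →
      Tendsto (fun r => dist (γ x r) (γ v r) / r) U (𝓝 (ρ x v)))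
    (hc : ∀ k : ℕ, ∃ c : M → E n, AChart z (1 + 1 / ((k : ℝ) + 1)) c) :
    ∃ e : M → E n, (∀ v, z ≠ v → ‖e v‖ = 1) ∧ ∀ x v, z ≠ x → z ≠ v → ‖e x - e v‖ = ρ x v := by
  classical
  choose c hc using hc
  obtain ⟨lam, hlam⟩ : ∃ lam : ℕ → ℝ, lam = fun k : ℕ => 1 + 1 / ((k : ℝ) + 1) := ⟨_, rfl⟩
  replace hc : ∀ k, AChart z (lam k) (c k) := by rw [hlam]; exact hc
  have hlam1 : ∀ k, 1 ≤ lam k := fun k => by
    have : (0 : ℝ) < 1 / ((k : ℝ) + 1) := by positivity
    simp only [hlam]; linarith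
  have hlam2 : ∀ k, lam k ≤ 2 := fun k => by
    have : (1 : ℝ) / ((k : ℝ) + 1) ≤ 1 := by
      rw [div_le_one (by positivity)]
      have : (0 : ℝ) ≤ k := Nat.cast_nonneg k
      linarith
    simp only [hlam]; linarith
  have hpos : ∀ᶠ r in (U : Filter ℝ), (0 : ℝ) < r := hU self_mem_nhdsWithin
  have hsmall : ∀ δ > (0 : ℝ), ∀ᶠ r in (U : Filter ℝ), r < δ := fun δ hδ =>
    hU ((gt_mem_nhds hδ).filter_mono nhdsWithin_le_nhds)
  have hg : ∀ v, z ≠ v → ∀ᶠ r in (U : Filter ℝ), dist z (γ v r) = r := fun v hv => hU (hγ v hv)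
  -- two-sided estimates
  have key : ∀ k x v, z ≠ x → z ≠ v → ∀ ε > 0, ∀ᶠ r in (U : Filter ℝ),
      ‖r⁻¹ • c k (γ x r) - r⁻¹ • c k (γ v r)‖ ≤ lam k * (dist (γ x r) (γ v r) / r + 2 * ε) ∧
      dist (γ x r) (γ v r) / r ≤ lam k * ‖r⁻¹ • c k (γ x r) - r⁻¹ • c k (γ v r)‖ + 2 * ε := by
    intro k x v hx hv ε hε
    obtain ⟨δ, hδ, h⟩ := (hc k).2 ε hε
    filter_upwards [hpos, hsmall δ hδ, hg x hx, hg v hv] with r h0 h1 h2 h3
    obtain ⟨h4, h5⟩ := h (γ x r) (by rw [mem_ball, dist_comm, h2]; exact h1) (γ v r)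
      (by rw [mem_ball, dist_comm, h3]; exact h1)
    rw [h2, h3] at h4 h5
    have e : ‖r⁻¹ • c k (γ x r) - r⁻¹ • c k (γ v r)‖ = ‖c k (γ x r) - c k (γ v r)‖ / r := by
      rw [← smul_sub, norm_smul, norm_inv, Real.norm_of_nonneg h0.le]
      rw [inv_mul_eq_div]
    rw [e]
    constructor
    · rw [div_le_iff₀ h0]
      refine h4.trans (le_of_eq ?_)
      field_simp
      ring
    · rw [div_le_iff₀ h0]
      refine h5.trans (le_of_eq ?_)
      field_simp
      ring
  have key0 : ∀ k v, z ≠ v → ∀ ε > 0, ∀ᶠ r in (U : Filter ℝ),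
      ‖r⁻¹ • c k (γ v r)‖ ≤ lam k * (1 + ε) ∧ 1 ≤ lam k * ‖r⁻¹ • c k (γ v r)‖ + ε := by
    intro k v hv ε hε
    obtain ⟨δ, hδ, h⟩ := (hc k).2 ε hε
    filter_upwards [hpos, hsmall δ hδ, hg v hv] with r h0 h1 h3
    obtain ⟨h4, h5⟩ := h (γ v r) (by rw [mem_ball, dist_comm, h3]; exact h1) z (mem_ball_self hδ)
    rw [(hc k).1, sub_zero, dist_self, h3, dist_comm (γ v r) z, h3] at h4 h5
    have e : ‖r⁻¹ • c k (γ v r)‖ = ‖c k (γ v r)‖ / r := by
      rw [norm_smul, norm_inv, Real.norm_of_nonneg h0.le]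
      rw [inv_mul_eq_div]
    rw [e]
    constructor
    · rw [div_le_iff₀ h0]
      refine h4.trans (le_of_eq ?_)
      ring
    · have h6 : r / r ≤ (lam k * ‖c k (γ v r)‖ + ε * (r + 0)) / r :=
        div_le_div_of_nonneg_right h5 h0.le
      rw [div_self h0.ne'] at h6
      refine h6.trans (le_of_eq ?_)
      field_simp
      ring
  -- the approximate directions
  have hex : ∀ k v, ∃ a : E n, z ≠ v → Tendsto (fun r => r⁻¹ • c k (γ v r)) U (𝓝 a) := by
    intro k v
    by_cases hv : z ≠ v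
    · obtain ⟨a, ha⟩ := ulim U (fun r => r⁻¹ • c k (γ v r)) (C := lam k * (1 + 1))
        ((key0 k v hv 1 one_pos).mono fun r hr => hr.1)
      exact ⟨a, fun _ => ha⟩
    · exact ⟨0, fun h => absurd h hv⟩
  choose ek hek using hex
  have n1 : ∀ k v, z ≠ v → ‖ek k v‖ ≤ lam k ∧ 1 ≤ lam k * ‖ek k v‖ := by
    intro k v hv
    have ht := (hek k v hv).norm
    have h0 : 0 ≤ lam k := by linarith [hlam1 k]
    constructor
    · refine le_of_forall_pos_le_add fun ε hε => ?_
      have hε' : 0 < ε / 2 := by positivity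
      have h1 := le_of_tendsto ht ((key0 k v hv _ hε').mono fun r hr => hr.1)
      refine h1.trans ?_
      nlinarith [hlam2 k]
    · refine le_of_forall_pos_le_add fun ε hε => ?_
      have h1 := ge_of_tendsto ((ht.const_mul (lam k)).add_const ε)
        ((key0 k v hv _ hε).mono fun r hr => hr.2)
      exact h1
  have n2 : ∀ k x v, z ≠ x → z ≠ v → ‖ek k x - ek k v‖ ≤ lam k * ρ x v ∧
      ρ x v ≤ lam k * ‖ek k x - ek k v‖ := by
    intro k x v hx hv
    have ht := ((hek k x hx).sub (hek k v hv)).norm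
    have h0 : 0 ≤ lam k := by linarith [hlam1 k]
    constructor
    · refine le_of_forall_pos_le_add fun ε hε => ?_
      have hε' : 0 < ε / 4 := by positivity
      have h1 := le_of_tendsto_of_tendsto ht
        (((hρ x v hx hv).add_const (2 * (ε / 4))).const_mul (lam k))
        ((key k x v hx hv _ hε').mono fun r hr => hr.1)
      refine h1.trans ?_
      nlinarith [hlam2 k]
    · refine le_of_forall_pos_le_add fun ε hε => ?_
      have hε' : 0 < ε / 2 := by positivity
      have h1 := le_of_tendsto_of_tendsto (hρ x v hx hv)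
        ((ht.const_mul (lam k)).add_const (2 * (ε / 2)))
        ((key k x v hx hv _ hε').mono fun r hr => hr.2)
      refine h1.trans (le_of_eq ?_)
      ring
  -- the limit in `k`
  set V : Ultrafilter ℕ := Ultrafilter.of atTop with hV
  have hVle : (V : Filter ℕ) ≤ atTop := Ultrafilter.of_le _
  have hl : Tendsto lam V (𝓝 1) := by
    have : Tendsto lam atTop (𝓝 (1 + 0)) :=
      by rw [hlam]; exact tendsto_const_nhds.add tendsto_one_div_add_atTop_nhds_zero_nat
    rw [add_zero] at this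
    exact this.mono_left hVle
  have hex2 : ∀ v, ∃ a : E n, z ≠ v → Tendsto (fun k => ek k v) V (𝓝 a) := by
    intro v
    by_cases hv : z ≠ v
    · obtain ⟨a, ha⟩ := ulim V (fun k => ek k v) (C := 2)
        (Eventually.of_forall fun k => (n1 k v hv).1.trans (hlam2 k))
      exact ⟨a, fun _ => ha⟩
    · exact ⟨0, fun h => absurd h hv⟩
  choose e he using hex2
  refine ⟨e, fun v hv => ?_, fun x v hx hv => ?_⟩
  · have ht := (he v hv).norm
    apply le_antisymm
    · exact le_of_tendsto_of_tendsto' ht hl fun k => (n1 k v hv).1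
    · have h1 := hl.mul ht
      rw [one_mul] at h1
      exact ge_of_tendsto' h1 fun k => (n1 k v hv).2
  · have ht := ((he x hx).sub (he v hv)).norm
    apply le_antisymm
    · have h1 := hl.mul (tendsto_const_nhds (x := ρ x v))
      rw [one_mul] at h1
      exact le_of_tendsto_of_tendsto' ht h1 fun k => (n2 k x v hx hv).1
    · have h1 := hl.mul ht
      rw [one_mul] at h1
      exact ge_of_tendsto' h1 fun k => (n2 k x v hx hv).2

end Vale.Agent.P233.H416.Reg
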