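import Vale.Agent.P233.H416.RegLog

/-! P233, stage 3, block R (helper416), part 2: existence of the exact logarithm. -/

set_option linter.all false

open Set Filter Metric Topology

namespace Vale.Agent.P233.H416.Reg

open Vale.Agent.P233.H616

variable {M : Type*} [MetricSpace M]

theorem tendsto_sn_div (κ : ℝ) : Tendsto (fun r => sn κ r / r) (𝓝[>] 0) (𝓝 1) := by
  have h := (hasDerivAt_sn κ 0).tendsto_slope_zero_right
  simp only [zero_add, sn_at_zero, sub_zero, cs_at_zero, smul_eq_mul] at h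
  refine h.congr fun r => ?_
  rw [inv_mul_eq_div]

theorem tendsto_md_div {κ : ℝ} (U : Ultrafilter ℝ) (hU : (U : Filter ℝ) ≤ 𝓝[>] 0) {d : ℝ → ℝ}
    {ρ : ℝ} (hd : Tendsto (fun r => d r / r) U (𝓝 ρ)) (h2 : ∀ᶠ r in (U : Filter ℝ), |d r| ≤ 2 * r) :
    Tendsto (fun r => md κ (d r) / r ^ 2) U (𝓝 (ρ ^ 2 / 2)) := by
  have hpos : ∀ᶠ r in (U : Filter ℝ), (0 : ℝ) < r := hU self_mem_nhdsWithin
  have h1 : ∀ᶠ r in (U : Filter ℝ), r < 1 :=
    hU ((gt_mem_nhds one_pos).filter_mono nhdsWithin_le_nhds)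
  have hid : Tendsto (fun r : ℝ => r) U (𝓝 0) :=
    (tendsto_id.mono_left nhdsWithin_le_nhds : Tendsto (fun r : ℝ => r) (𝓝[>] 0) (𝓝 0)).mono_left hU
  have e1 : Tendsto (fun r => (d r / r) ^ 2 / 2) U (𝓝 (ρ ^ 2 / 2)) := (hd.pow 2).div_const 2
  have e2 : Tendsto (fun r => md κ (d r) / r ^ 2 - (d r / r) ^ 2 / 2) U (𝓝 0) := by
    have e3 : Tendsto (fun r : ℝ => |κ| * Real.cosh (√|κ| * 2) * 16 * r ^ 2) U (𝓝 0) := by
      have := (hid.pow 2).const_mul (|κ| * Real.cosh (√|κ| * 2) * 16)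
      simpa using this
    refine squeeze_zero_norm' ?_ e3
    filter_upwards [hpos, h1, h2] with r h0 h1 h2
    have h3 : |d r| ≤ 2 := by linarith
    have h4 := H715.RG.md_quad (κ := κ) h3
    have h5 : md κ (d r) / r ^ 2 - (d r / r) ^ 2 / 2 = (md κ (d r) - d r ^ 2 / 2) / r ^ 2 := by
      field_simp
    rw [h5, Real.norm_eq_abs, abs_div, abs_of_pos (by positivity : 0 < r ^ 2),
      div_le_iff₀ (by positivity)]
    refine h4.trans ?_
    have h6 : d r ^ 4 ≤ 16 * r ^ 2 * r ^ 2 := by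
      have h7 : d r ^ 2 ≤ (2 * r) ^ 2 := sq_le_sq' (by linarith [abs_le.1 h2]) (abs_le.1 h2).2
      have h8 : (d r ^ 2) ^ 2 ≤ ((2 * r) ^ 2) ^ 2 := pow_le_pow_left₀ (sq_nonneg _) h7 2
      nlinarith
    have h9 : 0 ≤ |κ| * Real.cosh (√|κ| * 2) :=
      mul_nonneg (abs_nonneg _) (Real.cosh_pos _).le
    calc |κ| * Real.cosh (√|κ| * 2) * d r ^ 4
        ≤ |κ| * Real.cosh (√|κ| * 2) * (16 * r ^ 2 * r ^ 2) := mul_le_mul_of_nonneg_left h6 h9
      _ = |κ| * Real.cosh (√|κ| * 2) * 16 * r ^ 2 * r ^ 2 := by ring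
  have := e2.add e1
  simpa using this

/-- **Existence of the exact logarithm.** -/
theorem exists_log {n : ℕ} {κ : ℝ} [CompleteSpace M] (hA : T.IsAlexandrov M κ) {z : M}
    (hc : ∀ k : ℕ, ∃ c : M → E n, AChart z (1 + 1 / ((k : ℝ) + 1)) c) :
    ∃ L : M → E n, IsLog κ z L := by
  classical
  choose γ hγ0 hγ1 hγ using fun v => exists_geo hA.geodesic z v
  set U : Ultrafilter ℝ := Ultrafilter.of (𝓝[>] (0 : ℝ)) with hUdef
  have hU : (U : Filter ℝ) ≤ 𝓝[>] 0 := Ultrafilter.of_le _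
  have hpos : ∀ᶠ r in (U : Filter ℝ), (0 : ℝ) < r := hU self_mem_nhdsWithin
  have hr : ∀ v, z ≠ v → ∀ᶠ r in 𝓝[>] (0 : ℝ), 0 < r ∧ r ≤ dist z v := by
    intro v hv
    filter_upwards [self_mem_nhdsWithin, (ge_mem_nhds (dist_pos.2 hv)).filter_mono
      nhdsWithin_le_nhds] with r h1 h2 using ⟨h1, h2⟩
  have g1 : ∀ v r, 0 < r → r ≤ dist z v → dist z (γ v r) = r := by
    intro v r h0 h1
    have := hγ v 0 ⟨le_rfl, dist_nonneg⟩ r ⟨h0.le, h1⟩
    rw [hγ0, zero_sub, abs_neg, abs_of_pos h0] at this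
    exact this
  have g2 : ∀ v r, 0 < r → r ≤ dist z v → dist (γ v r) v = dist z v - r := by
    intro v r h0 h1
    have := hγ v r ⟨h0.le, h1⟩ (dist z v) ⟨dist_nonneg, le_rfl⟩
    rw [hγ1, abs_sub_comm, abs_of_nonneg (by linarith)] at this
    exact this
  have hd2 : ∀ x v, z ≠ x → z ≠ v → ∀ᶠ r in (U : Filter ℝ),
      |dist (γ x r) (γ v r)| ≤ 2 * r := by
    intro x v hx hv
    filter_upwards [hU (hr x hx), hU (hr v hv)] with r h1 h2
    rw [abs_of_nonneg dist_nonneg]
    have h3 := dist_triangle (γ x r) z (γ v r)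
    rw [dist_comm (γ x r) z, g1 x r h1.1 h1.2, g1 v r h2.1 h2.2] at h3
    linarith
  have hex : ∀ x v, ∃ ρ : ℝ, z ≠ x → z ≠ v →
      Tendsto (fun r => dist (γ x r) (γ v r) / r) U (𝓝 ρ) := by
    intro x v
    by_cases hx : z ≠ x
    · by_cases hv : z ≠ v
      · obtain ⟨a, ha⟩ := ulim U (fun r => dist (γ x r) (γ v r) / r) (C := 2) (by
          filter_upwards [hd2 x v hx hv, hpos] with r h1 h0
          rw [Real.norm_eq_abs, abs_div, abs_of_pos h0, div_le_iff₀ h0]
          exact h1)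
        exact ⟨a, fun _ _ => ha⟩
      · exact ⟨0, fun _ h => absurd h hv⟩
    · exact ⟨0, fun h => absurd h hx⟩
  choose ρ hρ using hex
  obtain ⟨e, he1, he2⟩ := exists_dir U hU γ
    (fun v hv => (hr v hv).mono fun r h => g1 v r h.1 h.2) ρ hρ hc
  have hinner : ∀ x v, z ≠ x → z ≠ v → 1 - inner ℝ (e x) (e v) = ρ x v ^ 2 / 2 := by
    intro x v hx hv
    have h1 := norm_sub_sq_real (e x) (e v)
    rw [he2 x v hx hv, he1 x hx, he1 v hv] at h1
    linarith
  refine ⟨fun v => dist z v • e v, ?_, ?_, ?_⟩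
  · intro v
    by_cases hv : z = v
    · subst hv; simp
    · rw [norm_smul, he1 v hv, mul_one, Real.norm_of_nonneg dist_nonneg]
  · intro x y hxy
    by_cases hx : z = x
    · subst hx; simp
    by_cases hy : z = y
    · subst hy; simp
    have h2 : ρ x y = 2 := by
      have h3 : ∀ᶠ r in (U : Filter ℝ), dist (γ x r) (γ y r) / r = 2 := by
        filter_upwards [hU (hr x hx), hU (hr y hy), hd2 x y hx hy] with r h1 h2 h3
        rw [abs_of_nonneg dist_nonneg] at h3
        have h4 : dist (γ x r) (γ y r) = 2 * r := by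
          apply le_antisymm h3
          have h5 := dist_triangle4 x (γ x r) (γ y r) y
          rw [dist_comm x (γ x r), g2 x r h1.1 h1.2, g2 y r h2.1 h2.2] at h5
          rw [dist_comm x z] at hxy
          linarith
        rw [h4, mul_div_assoc, div_self h1.1.ne', mul_one]
      exact tendsto_nhds_unique (hρ x y hx hy)
        (tendsto_const_nhds.congr' (h3.mono fun r h => h.symm))
    have h3 : e x + e y = 0 := by
      have h4 := norm_sub_sq_real (e x) (e y)
      have h5 := norm_add_sq_real (e x) (e y)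
      rw [he2 x y hx hy, h2, he1 x hx, he1 y hy] at h4
      rw [he1 x hx, he1 y hy] at h5
      have h6 : ‖e x + e y‖ ^ 2 = 0 := by linarith
      exact norm_eq_zero.1 (pow_eq_zero_iff (two_ne_zero)|>.1 h6)
    show dist z y • dist z x • e x + dist z x • dist z y • e y = 0
    rw [smul_smul, smul_smul, mul_comm (dist z x) (dist z y), ← smul_add, h3, smul_zero]
  · intro x v hx hv hp
    have hx0 : 0 < dist z x := dist_pos.2 hx
    have hv0 : 0 < dist z v := dist_pos.2 hv
    have h1 : inner ℝ (dist z x • e x) (dist z v • e v) / (dist z x * dist z v)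
        = inner ℝ (e x) (e v) := by
      rw [inner_smul_left, inner_smul_right]
      simp only [conj_trivial]
      field_simp
    show md κ (dist x v) ≤ md κ (dist z x - dist z v) + sn κ (dist z x) * sn κ (dist z v) *
      (1 - inner ℝ (dist z x • e x) (dist z v • e v) / (dist z x * dist z v))
    rw [h1, hinner x v hx hv]
    have hsn : Tendsto (fun r => sn κ r / r) U (𝓝 1) := (tendsto_sn_div κ).mono_left hU
    have t1 : Tendsto (fun r => (sn κ r / r) ^ 2 *
        (md κ (dist x v) - md κ (dist z x - dist z v))) U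
        (𝓝 (1 ^ 2 * (md κ (dist x v) - md κ (dist z x - dist z v)))) :=
      (hsn.pow 2).mul_const _
    have t2 : Tendsto (fun r => sn κ (dist z x) * sn κ (dist z v) *
        (md κ (dist (γ x r) (γ v r)) / r ^ 2)) U
        (𝓝 (sn κ (dist z x) * sn κ (dist z v) * (ρ x v ^ 2 / 2))) :=
      (tendsto_md_div U hU (hρ x v hx hv) (hd2 x v hx hv)).const_mul _
    have h3 := le_of_tendsto_of_tendsto t1 t2 (by
      filter_upwards [hU (hr x hx), hU (hr v hv)] with r k1 k2
      have k3 := H715.RG.two_side hA (o := z) (x := x) (y := v) (z := γ x r) (w := γ v r)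
        (by rw [g1 x r k1.1 k1.2, g2 x r k1.1 k1.2]; ring)
        (by rw [g1 v r k2.1 k2.2, g2 v r k2.1 k2.2]; ring) hp
      rw [g1 x r k1.1 k1.2, g1 v r k2.1 k2.2, sub_self, md_at_zero, sub_zero] at k3
      have k0 := k1.1
      have k4 : (sn κ r / r) ^ 2 * (md κ (dist x v) - md κ (dist z x - dist z v))
          = (sn κ r * sn κ r * (md κ (dist x v) - md κ (dist z x - dist z v))) / r ^ 2 := by
        field_simp
      have k5 : sn κ (dist z x) * sn κ (dist z v) * (md κ (dist (γ x r) (γ v r)) / r ^ 2)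
          = (sn κ (dist z x) * sn κ (dist z v) * md κ (dist (γ x r) (γ v r))) / r ^ 2 := by
        ring
      rw [k4, k5]
      exact div_le_div_of_nonneg_right k3 (by positivity))
    linarith

end Vale.Agent.P233.H416.Reg
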