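import Vale.Agent.P233.H416.RegBlk
import Vale.Agent.P233.H416.RegLin
import Vale.Agent.P233.H715.CDSub

/-! P233, stage 3, block V (helper416), part 2: volume estimates with the exact logarithm. -/

set_option linter.all false

open Set Filter Metric Topology MeasureTheory
open scoped ENNReal NNReal MeasureTheory RealInnerProductSpace

universe u

namespace Vale.Agent.P233.H416.Reg

/-- the hinge comparison, second order in the distance -/
theorem md_core (κ : ℝ) {c : ℝ} (hc : 0 < c) {η : ℝ} (hη : 0 < η) : ∃ δ > 0, δ ≤ 1 ∧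
    ∀ d D w s : ℝ, 0 ≤ d → d ≤ δ → |D| ≤ δ → D ^ 2 ≤ w → s ≤ (1 + δ) * c ^ 2 →
      md κ d ≤ md κ D + s * ((w - D ^ 2) / 2) → d ^ 2 ≤ (1 + η) * (D ^ 2 + c ^ 2 * (w - D ^ 2)) := by
  obtain ⟨C, hC, hmd⟩ : ∃ C : ℝ, 0 ≤ C ∧ ∀ t : ℝ, |t| ≤ 1 → |md κ t - t ^ 2 / 2| ≤ C * t ^ 4 := by
    refine ⟨|κ| * Real.cosh (√|κ| * 1), by positivity, fun t ht => ?_⟩
    have := H715.RG.md_quad (κ := κ) ht
    rw [H616.md_eq] at this
    exact this
  have hden : 0 < 1 + 2 * C + 2 * C * (1 + η) := by positivity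
  refine ⟨min 1 (η / (1 + 2 * C + 2 * C * (1 + η))), by positivity, min_le_left _ _, ?_⟩
  intro d D w s hd0 hd hD hw hs h
  obtain ⟨δ, hδ⟩ : ∃ δ, δ = min 1 (η / (1 + 2 * C + 2 * C * (1 + η))) := ⟨_, rfl⟩
  rw [← hδ] at hd hD hs
  have hδ0 : 0 < δ := by rw [hδ]; positivity
  have hδ1 : δ ≤ 1 := by rw [hδ]; exact min_le_left _ _
  have hδ2 : δ * (1 + 2 * C + 2 * C * (1 + η)) ≤ η := by
    have : δ ≤ η / (1 + 2 * C + 2 * C * (1 + η)) := by rw [hδ]; exact min_le_right _ _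
    rwa [le_div_iff₀ hden] at this
  have h1 := hmd d (by rw [abs_of_nonneg hd0]; linarith)
  have h2 := hmd D (hD.trans hδ1)
  have h3 := (abs_le.1 h1).1
  have h4 := (abs_le.1 h2).2
  have hδδ : δ ^ 2 ≤ δ := by
    have := mul_le_mul_of_nonneg_left hδ1 hδ0.le
    linarith
  have hd2 : d ^ 2 ≤ δ := (pow_le_pow_left₀ hd0 hd 2).trans hδδ
  have hD2 : D ^ 2 ≤ δ :=
    (sq_le_sq' (by linarith [(abs_le.1 hD).1]) (abs_le.1 hD).2).trans hδδ
  have hd4 : d ^ 4 ≤ δ * d ^ 2 := by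
    have := mul_le_mul_of_nonneg_right hd2 (sq_nonneg d)
    linarith
  have hD4 : D ^ 4 ≤ δ * D ^ 2 := by
    have := mul_le_mul_of_nonneg_right hD2 (sq_nonneg D)
    linarith
  have hwD : 0 ≤ w - D ^ 2 := by linarith
  have h5 : s * (w - D ^ 2) ≤ (1 + δ) * c ^ 2 * (w - D ^ 2) := mul_le_mul_of_nonneg_right hs hwD
  obtain ⟨Q, hQ⟩ : ∃ Q, Q = c ^ 2 * (w - D ^ 2) := ⟨_, rfl⟩
  have hQ0 : 0 ≤ Q := by rw [hQ]; positivity
  have h6 : d ^ 2 * (1 - 2 * C * δ) ≤ (1 + δ + 2 * C * δ) * (D ^ 2 + Q) := by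
    have e1 : C * d ^ 4 ≤ C * (δ * d ^ 2) := mul_le_mul_of_nonneg_left hd4 hC
    have e2 : C * D ^ 4 ≤ C * (δ * D ^ 2) := mul_le_mul_of_nonneg_left hD4 hC
    have e3 : 0 ≤ C * δ * Q := by positivity
    have e4 : 0 ≤ δ * D ^ 2 := by positivity
    have e5 : (1 + δ) * c ^ 2 * (w - D ^ 2) = (1 + δ) * Q := by rw [hQ]; ring
    rw [e5] at h5
    linarith
  rw [← hQ]
  have h7 : (1 + δ + 2 * C * δ) ≤ (1 + η) * (1 - 2 * C * δ) := by linarith
  have h8 : 0 < 1 - 2 * C * δ := by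
    have e0 := mul_nonneg hC hδ0.le
    have e1 : 2 * C * (1 + η) * δ ≤ η := by linarith
    have e2 : 2 * C * δ * (1 + η) < 1 * (1 + η) := by linarith
    have := lt_of_mul_lt_mul_right e2 (by positivity)
    linarith
  have h9 : d ^ 2 * (1 - 2 * C * δ) ≤ ((1 + η) * (D ^ 2 + Q)) * (1 - 2 * C * δ) := by
    refine h6.trans ?_
    have : (1 + δ + 2 * C * δ) * (D ^ 2 + Q) ≤ (1 + η) * (1 - 2 * C * δ) * (D ^ 2 + Q) :=
      mul_le_mul_of_nonneg_right h7 (by positivity)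
    linarith
  exact le_of_mul_le_mul_right h9 h8

section

variable {M : Type*} [MetricSpace M] {n : ℕ} {κ : ℝ} {z : M} {L : M → RG.E n}

theorem lg_zero (h : CDc.Lg κ n z L) : L z = 0 := by
  have := h.norm z
  rw [dist_self, norm_eq_zero] at this
  exact this

theorem sq_le_norm (h : CDc.Lg κ n z L) (v v' : M) :
    (dist z v - dist z v') ^ 2 ≤ ‖L v - L v'‖ ^ 2 := by
  have h1 := abs_norm_sub_norm_le (L v) (L v')
  rw [h.norm, h.norm] at h1
  exact sq_le_sq' (by linarith [(abs_le.1 h1).1]) (abs_le.1 h1).2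

/-- the hinge comparison in terms of `‖L v - L v'‖` -/
theorem lg_hinge (h : CDc.Lg κ n z L) {v v' : M} (hv : 0 < dist z v) (hv' : 0 < dist z v')
    (hp : √κ * (dist z v + dist z v' + dist v v') < 2 * Real.pi) :
    md κ (dist v v') ≤ md κ (dist z v - dist z v')
      + (sn κ (dist z v) / dist z v) * (sn κ (dist z v') / dist z v')
        * ((‖L v - L v'‖ ^ 2 - (dist z v - dist z v') ^ 2) / 2) := by
  have h1 := h.hinge v v' hp
  have h2 := norm_sub_sq_real (L v) (L v')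
  rw [h.norm, h.norm] at h2
  refine h1.trans (le_of_eq ?_)
  rw [h2]
  congr 1
  field_simp
  ring

/-- V1, metric form -/
theorem near_z (h : CDc.Lg κ n z L) {η : ℝ} (hη : 0 < η) : ∃ δ > 0, ∀ v ∈ ball z δ,
    ∀ v' ∈ ball z δ, dist v v' ≤ (1 + η) * ‖L v - L v'‖ := by
  obtain ⟨δ, hδ, hδ1, hcore⟩ := md_core κ (c := 1) one_pos hη
  have h1 : ∀ᶠ r in 𝓝[>] (0 : ℝ), sn κ r / r < 1 + δ / 3 ∧ 0 < sn κ r / r := by
    have ht := tendsto_sn_div κ
    exact (ht.eventually (gt_mem_nhds (by linarith))).and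
      (ht.eventually (lt_mem_nhds (by norm_num)))
  obtain ⟨δ₁, hδ₁, h2⟩ := mem_nhdsGT_iff_exists_Ioo_subset.1 h1
  have hδ₁' : (0 : ℝ) < δ₁ := hδ₁
  obtain ⟨δ₂, hδ₂, h3⟩ : ∃ δ₂ > 0, √κ * (4 * δ₂) < 2 * Real.pi := by
    refine ⟨Real.pi / (4 * (√κ + 1)), by positivity, ?_⟩
    have h0 : 0 ≤ √κ := Real.sqrt_nonneg _
    have hpi := Real.pi_pos
    have e : √κ * (4 * (Real.pi / (4 * (√κ + 1)))) = √κ / (√κ + 1) * Real.pi := by
      field_simp
    rw [e]
    have : √κ / (√κ + 1) ≤ 1 := by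
      rw [div_le_one (by positivity)]
      linarith
    have := mul_le_mul_of_nonneg_right this hpi.le
    linarith
  refine ⟨min (δ / 2) (min δ₁ δ₂), by positivity, fun v hv v' hv' => ?_⟩
  rw [mem_ball, dist_comm, lt_min_iff, lt_min_iff] at hv hv'
  rcases eq_or_lt_of_le (dist_nonneg (x := z) (y := v)) with h4 | h4
  · have : z = v := dist_eq_zero.1 h4.symm
    subst this
    rw [lg_zero h, zero_sub, norm_neg, h.norm]
    have := mul_nonneg hη.le (dist_nonneg (x := z) (y := v'))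
    linarith
  rcases eq_or_lt_of_le (dist_nonneg (x := z) (y := v')) with h5 | h5
  · have : z = v' := dist_eq_zero.1 h5.symm
    subst this
    rw [lg_zero h, sub_zero, h.norm, dist_comm v z]
    have := mul_nonneg hη.le (dist_nonneg (x := z) (y := v))
    linarith
  have hd : dist v v' ≤ dist z v + dist z v' := by
    have := dist_triangle v z v'
    rwa [dist_comm v z] at this
  have hp : √κ * (dist z v + dist z v' + dist v v') < 2 * Real.pi := by
    refine lt_of_le_of_lt ?_ h3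
    refine mul_le_mul_of_nonneg_left ?_ (Real.sqrt_nonneg _)
    linarith
  have h6 := lg_hinge h h4 h5 hp
  obtain ⟨a1, a2⟩ := h2 ⟨h4, hv.2.1⟩
  obtain ⟨b1, b2⟩ := h2 ⟨h5, hv'.2.1⟩
  have h7 := hcore (dist v v') (dist z v - dist z v') (‖L v - L v'‖ ^ 2)
    (sn κ (dist z v) / dist z v * (sn κ (dist z v') / dist z v')) dist_nonneg (by linarith)
    (by rw [abs_le]; constructor <;> linarith) (sq_le_norm h v v') (by
      rw [one_pow, mul_one]
      calc sn κ (dist z v) / dist z v * (sn κ (dist z v') / dist z v')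
          ≤ (1 + δ / 3) * (1 + δ / 3) := mul_le_mul a1.le b1.le b2.le (by positivity)
        _ ≤ 1 + δ := by nlinarith) h6
  rw [one_pow, one_mul, add_sub_cancel] at h7
  have h8 : dist v v' ^ 2 ≤ ((1 + η) * ‖L v - L v'‖) ^ 2 := by
    refine h7.trans ?_
    rw [mul_pow]
    refine mul_le_mul_of_nonneg_right ?_ (sq_nonneg _)
    nlinarith
  exact le_of_sq_le_sq h8 (by positivity)

end

end Vale.Agent.P233.H416.Reg
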