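import Vale.Agent.P233.H416.RegVol

/-! P233, stage 3, block V (helper416), part 3: the estimate far from the centre; `Blk_V1`,
`Blk_V2`. -/

set_option linter.all false

open Set Filter Metric Topology MeasureTheory
open scoped ENNReal NNReal MeasureTheory RealInnerProductSpace

universe u

namespace Vale.Agent.P233.H416.Reg

/-- Hausdorff measure under a map that does not contract (no regularity of the map) -/
theorem haus_le_image {M F : Type*} [MetricSpace M] [MeasurableSpace M] [BorelSpace M]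
    [MetricSpace F] [MeasurableSpace F] [BorelSpace F] {n : ℕ} {K : ℝ} (hK : 0 ≤ K) {A : Set M}
    {f : M → F} (hf : ∀ v ∈ A, ∀ v' ∈ A, dist v v' ≤ K * dist (f v) (f v')) :
    (μH[n] : Measure M) A ≤ ENNReal.ofReal (K ^ n) * (μH[n] : Measure F) (f '' A) := by
  have hinj : InjOn f A := fun v hv w hw h => by
    have := hf v hv w hw
    rw [h, dist_self, mul_zero] at this
    exact dist_le_zero.1 this
  rcases A.eq_empty_or_nonempty with rfl | ⟨v₀, hv₀⟩
  · simp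
  haveI : Nonempty M := ⟨v₀⟩
  have hinv := hinj.leftInvOn_invFunOn
  have h1 : LipschitzOnWith ⟨K, hK⟩ (Function.invFunOn f A) (f '' A) := by
    refine LipschitzOnWith.of_dist_le_mul ?_
    rintro _ ⟨v, hv, rfl⟩ _ ⟨w, hw, rfl⟩
    rw [hinv hv, hinv hw]
    exact hf v hv w hw
  have h2 := h1.hausdorffMeasure_image_le (d := (n : ℝ)) (Nat.cast_nonneg n)
  rw [hinv.image_image, ENNReal.rpow_natCast] at h2
  rw [ENNReal.ofReal_pow hK, ENNReal.ofReal_eq_coe_nnreal hK]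
  exact h2

theorem exists_pow_le (n : ℕ) {ε : ℝ} (hε : 0 < ε) : ∃ η > 0, (1 + η) ^ n ≤ 1 + ε := by
  have h : Tendsto (fun η : ℝ => (1 + η) ^ n) (𝓝[>] 0) (𝓝 ((1 + 0) ^ n)) :=
    ((continuous_const.add continuous_id).pow n).continuousAt.tendsto.mono_left nhdsWithin_le_nhds
  rw [add_zero, one_pow] at h
  obtain ⟨η, h1, h2⟩ := ((h.eventually (gt_mem_nhds (by linarith : (1 : ℝ) < 1 + ε))).and
    self_mem_nhdsWithin).exists
  exact ⟨η, h2, h1.le⟩

theorem sn_pos_of {κ a : ℝ} (ha : 0 < a) (h : √κ * a < Real.pi) : 0 < sn κ a :=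
  H616.sn_pos ha fun _ => h

theorem sn_cont (κ : ℝ) : Continuous (sn κ) := H616.continuous_sn κ

section

variable {M : Type*} [MetricSpace M] {n : ℕ} {κ : ℝ} {z : M} {L : M → RG.E n}

/-- the radial difference compared with the component in the direction `e` -/
theorem radial_diff {u u' e : RG.E n} {r r' ρ : ℝ} (hr : 0 < r) (hr' : 0 < r')
    (hu : ‖u‖ = 1) (hu' : ‖u'‖ = 1) (h : ‖u - e‖ ≤ ρ) (h' : ‖u' - e‖ ≤ ρ) :
    |r - r' - ⟪e, r • u - r' • u'⟫| ≤ ρ * ‖r • u - r' • u'‖ := by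
  have hs : 0 < r + r' := by linarith
  have e1 : ⟪r • u + r' • u', r • u - r' • u'⟫ = r ^ 2 - r' ^ 2 := by
    rw [inner_add_left, inner_sub_right, inner_sub_right, real_inner_self_eq_norm_sq,
      real_inner_self_eq_norm_sq, norm_smul, norm_smul, hu, hu', real_inner_comm (r • u) (r' • u')]
    simp only [mul_one, Real.norm_eq_abs, sq_abs]
    ring
  have e2 : r - r' = (r + r')⁻¹ * ⟪r • u + r' • u', r • u - r' • u'⟫ := by
    rw [e1]
    field_simp
    ring
  have e3 : r - r' - ⟪e, r • u - r' • u'⟫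
      = ⟪(r + r')⁻¹ • (r • (u - e) + r' • (u' - e)), r • u - r' • u'⟫ := by
    have : (r + r')⁻¹ • (r • (u - e) + r' • (u' - e))
        = (r + r')⁻¹ • (r • u + r' • u') - e := by
      have h1 : e = (r + r')⁻¹ • ((r + r') • e) := by
        rw [smul_smul, inv_mul_cancel₀ hs.ne', one_smul]
      conv_rhs => rw [h1]
      rw [← smul_sub]
      congr 1
      rw [add_smul, smul_sub, smul_sub]
      abel
    rw [this, inner_sub_left, inner_smul_left]
    simp only [conj_trivial]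
    rw [← e2]
  rw [e3]
  refine (abs_real_inner_le_norm _ _).trans ?_
  refine mul_le_mul_of_nonneg_right ?_ (norm_nonneg _)
  rw [norm_smul, norm_inv, Real.norm_of_nonneg hs.le, inv_mul_le_iff₀ hs]
  refine (norm_add_le _ _).trans ?_
  rw [norm_smul, norm_smul, Real.norm_of_nonneg hr.le, Real.norm_of_nonneg hr'.le]
  have a1 := mul_le_mul_of_nonneg_left h hr.le
  have a2 := mul_le_mul_of_nonneg_left h' hr'.le
  linarith

/-- replace the radial difference by the component -/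
theorem quad_compare {D i w c ρ m : ℝ} (hw : 0 ≤ w) (hD : D ^ 2 ≤ w ^ 2) (hi : i ^ 2 ≤ w ^ 2)
    (hDi : |D - i| ≤ ρ * w) (hm : 0 < m) (hm1 : m ≤ 1) (hmc : m ≤ c ^ 2) :
    D ^ 2 + c ^ 2 * (w ^ 2 - D ^ 2) ≤ (1 + 2 * ρ * (1 + c ^ 2) / m) *
      ((1 - c ^ 2) * i ^ 2 + c ^ 2 * w ^ 2) := by
  have h1 : m * w ^ 2 ≤ (1 - c ^ 2) * i ^ 2 + c ^ 2 * w ^ 2 := by
    have a1 : m * i ^ 2 ≤ i ^ 2 := by
      have := mul_le_mul_of_nonneg_right hm1 (sq_nonneg i)
      linarith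
    have a2 : m * (w ^ 2 - i ^ 2) ≤ c ^ 2 * (w ^ 2 - i ^ 2) :=
      mul_le_mul_of_nonneg_right hmc (by linarith)
    linarith
  have hDw : |D| ≤ w := abs_le_of_sq_le_sq hD hw
  have hiw : |i| ≤ w := abs_le_of_sq_le_sq hi hw
  have hρw : 0 ≤ ρ * w := (abs_nonneg _).trans hDi
  have h2 : |D ^ 2 - i ^ 2| ≤ 2 * ρ * w ^ 2 := by
    have : D ^ 2 - i ^ 2 = (D - i) * (D + i) := by ring
    rw [this, abs_mul]
    calc |D - i| * |D + i| ≤ (ρ * w) * (2 * w) :=
          mul_le_mul hDi ((abs_add_le _ _).trans (by linarith)) (abs_nonneg _) hρw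
      _ = 2 * ρ * w ^ 2 := by ring
  have hρ2 : 0 ≤ 2 * ρ * w ^ 2 := (abs_nonneg _).trans h2
  have h3 : D ^ 2 + c ^ 2 * (w ^ 2 - D ^ 2) =
      ((1 - c ^ 2) * i ^ 2 + c ^ 2 * w ^ 2) + (1 - c ^ 2) * (D ^ 2 - i ^ 2) := by ring
  have h4 : (1 - c ^ 2) * (D ^ 2 - i ^ 2) ≤ (1 + c ^ 2) * (2 * ρ * w ^ 2) := by
    refine (le_abs_self _).trans ?_
    rw [abs_mul]
    refine mul_le_mul ?_ h2 (abs_nonneg _) (by positivity)
    rw [abs_le]
    constructor <;> linarith [sq_nonneg c]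
  have h5 : (1 + c ^ 2) * (2 * ρ * w ^ 2) ≤ 2 * ρ * (1 + c ^ 2) / m *
      ((1 - c ^ 2) * i ^ 2 + c ^ 2 * w ^ 2) := by
    rcases eq_or_lt_of_le hw with h0 | h0
    · have hi0 : i ^ 2 = 0 := le_antisymm (by rw [← h0] at hi; simpa using hi) (sq_nonneg i)
      rw [hi0, ← h0]
      simp
    · have hρ : 0 ≤ ρ := nonneg_of_mul_nonneg_left hρw h0
      have e : (1 + c ^ 2) * (2 * ρ * w ^ 2) = 2 * ρ * (1 + c ^ 2) / m * (m * w ^ 2) := by
        field_simp
      rw [e]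
      exact mul_le_mul_of_nonneg_left h1 (by positivity)
  rw [h3]
  linarith

end

end Vale.Agent.P233.H416.Reg
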